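import Vale.Agent.P032.H169.Chain

/-!
# P032: J-chains: filling the region of constant orientation (row D)

* `Irr.fill802` : `W` finite; if the intersection `Q` of the open unit discs about the points of `W` is
  in `U a` near every point of `Z`, and `Z` contains the boundary of `Q`, then `Q ⊆ U a`.
* `Irr.par_fill802` : then the parity at `z ∈ W` gives a point `u` with the colours `e`, `f` and a third
  colour from the inside of `S(z)`, outside of one of the closed discs.
-/

open Set Filter Topology Metric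

noncomputable section

namespace Vale.Agent.P032.Six

variable {k : ℕ} {U : Fin k → Set ℂ} {T : ℂ → Set (Fin k)}

/-- the intersection of the open unit discs -/
def lens802 (W : Set ℂ) : Set ℂ := {x | ∀ w ∈ W, dist x w < 1}

theorem isOpen_lens802 {W : Set ℂ} (hW : W.Finite) : IsOpen (lens802 W) := by
  have : lens802 W = ⋂ w ∈ W, ball w 1 := by
    ext x; simp [lens802]
  rw [this]
  exact hW.isOpen_biInter fun w _ => isOpen_ball

theorem closure_lens802 {W : Set ℂ} {x : ℂ} (hx : x ∈ closure (lens802 W)) :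
    ∀ w ∈ W, dist x w ≤ 1 := by
  intro w hw
  exact closure_minimal (s := lens802 W) (t := {x | dist x w ≤ 1}) (fun y hy => (hy w hw).le)
    (isClosed_le (continuous_id.dist continuous_const) continuous_const) hx

/-- a unit circle is not contained in an open unit disc -/
theorem circle_exits802 (g w : ℂ) : ∃ p, dist p g = 1 ∧ 1 ≤ dist p w := by
  by_cases h : g = w
  · exact ⟨g + 1, by rw [dist_eq_norm]; simp, by rw [h, dist_eq_norm]; simp⟩
  · have h1 : 0 < ‖g - w‖ := norm_pos_iff.2 (sub_ne_zero.2 h)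
    refine ⟨g + (g - w) / (‖g - w‖ : ℂ), ?_, ?_⟩
    · rw [dist_eq_norm, add_sub_cancel_left, norm_div, Complex.norm_real, norm_norm,
        div_self h1.ne']
    · rw [dist_eq_norm]
      have h2 : g + (g - w) / (‖g - w‖ : ℂ) - w = ((1 + 1 / ‖g - w‖ : ℝ) : ℂ) * (g - w) := by
        push_cast
        ring
      rw [h2, norm_mul, Complex.norm_real, Real.norm_of_nonneg (by positivity), add_mul, one_mul,
        one_div, inv_mul_cancel₀ h1.ne']
      linarith

/-- **filling** -/
theorem Irr.fill802 (h : Irr U T) {a : Fin k} {W Z : Set ℂ} (hW : W.Finite) (hne : W.Nonempty)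
    (hcol : ∀ y ∈ Z, ∀ᶠ x in 𝓝 y, (∀ w ∈ W, dist x w < 1) → x ∈ U a)
    (hZ : ∀ z, (∀ w ∈ W, dist z w ≤ 1) → (∃ w ∈ W, dist z w = 1) → z ∈ Z) :
    ∀ x, (∀ w ∈ W, dist x w < 1) → x ∈ U a := by
  intro x hx
  by_contra hxa
  obtain ⟨g, hxg, hga⟩ := h.partner hxa
  have hQ : IsOpen (lens802 W) := isOpen_lens802 hW
  have hS : IsPreconnected (sphere g (1 : ℝ)) := isPreconnected_circle g
  obtain ⟨w0, hw0⟩ := hne
  obtain ⟨p, hp, hpw⟩ := circle_exits802 g w0
  -- a point of the circle on the boundary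
  obtain ⟨y, hyS, hyc, hyQ⟩ : ∃ y ∈ sphere g (1 : ℝ), y ∈ closure (lens802 W ∩ sphere g 1) ∧
      y ∉ lens802 W := by
    by_contra hcon
    push Not at hcon
    obtain ⟨q, hq, hq1, hq2⟩ := hS (lens802 W) (closure (lens802 W ∩ sphere g 1))ᶜ hQ
      isClosed_closure.isOpen_compl
      (fun y hy => by
        by_cases h1 : y ∈ closure (lens802 W ∩ sphere g 1)
        · exact Or.inl (hcon y hy h1)
        · exact Or.inr h1)
      ⟨x, hxg, hx⟩
      ⟨p, hp, fun h1 => absurd (hcon p hp h1 w0 hw0) (not_lt.2 hpw)⟩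
    exact hq2 (subset_closure ⟨hq1, hq⟩)
  have hyle : ∀ w ∈ W, dist y w ≤ 1 := closure_lens802 (closure_mono inter_subset_left hyc)
  have hyZ : y ∈ Z := by
    refine hZ y hyle ?_
    by_contra hcon
    push Not at hcon
    exact hyQ fun w hw => lt_of_le_of_ne (hyle w hw) (hcon w hw)
  obtain ⟨x', ⟨hx1, hx2⟩, hx3⟩ :=
    ((mem_closure_iff_frequently.1 hyc).and_eventually (hcol y hyZ)).exists
  exact h.mx.notMem' (hx3 hx1) hx2 hga

open Classical in
/-- the cover recoloured in `Q` -/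
def recol802 (T : ℂ → Set (Fin k)) (Q : Set ℂ) (a : Fin k) (x : ℂ) : Set (Fin k) :=
  {i | (i = a ∧ x ∈ closure Q) ∨ (i ∈ T x ∧ x ∉ Q)}

theorem recol_closed802 (h : ∀ i, IsClosed {x | i ∈ T x}) {Q : Set ℂ} (hQ : IsOpen Q)
    (a i : Fin k) : IsClosed {x | i ∈ recol802 T Q a x} := by
  by_cases hi : i = a
  · have : {x | i ∈ recol802 T Q a x} = closure Q ∪ ({x | i ∈ T x} ∩ Qᶜ) := by
      ext x; simp [recol802, hi]
    rw [this]
    exact isClosed_closure.union ((h i).inter hQ.isClosed_compl)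
  · have : {x | i ∈ recol802 T Q a x} = {x | i ∈ T x} ∩ Qᶜ := by
      ext x; simp [recol802, hi]
    rw [this]
    exact (h i).inter hQ.isClosed_compl

/-- **parity and filling** -/
theorem Irr.par_fill802 (h : Irr U T) {a e f : Fin k} {z : ℂ} {W Z : Set ℂ} (hW : W.Finite)
    (hzW : z ∈ W) (hP : Par T z e f)
    (hZ : ∀ z, (∀ w ∈ W, dist z w ≤ 1) → (∃ w ∈ W, dist z w = 1) → z ∈ Z)
    (hZT : ∀ y ∈ Z, a ∈ T y ∧ e ∉ T y) (hae : a ≠ e) (haf : a ≠ f) :
    ∃ u x, dist u z ≤ 1 ∧ e ∈ T u ∧ f ∈ T u ∧ x ∈ T u ∧ x ≠ e ∧ x ≠ f ∧ InnO T z u x ∧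
      ∃ w ∈ W, 1 < dist u w := by
  have hQ : IsOpen (lens802 W) := isOpen_lens802 hW
  obtain ⟨u, x, h1, h2, h3, h4, h5, h6⟩ := hP (recol802 T (lens802 W) a)
    (recol_closed802 h.closed hQ a)
    (fun y => by
      by_cases hy : y ∈ lens802 W
      · exact ⟨a, Or.inl ⟨rfl, subset_closure hy⟩⟩
      · obtain ⟨i, hi⟩ := h.ne y
        exact ⟨i, Or.inr ⟨hi, hy⟩⟩)
    (fun q hq => by
      have hqQ : q ∉ lens802 W := fun hcon => by
        have := hcon z hzW
        linarith
      ext i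
      constructor
      · rintro (⟨rfl, hc⟩ | ⟨hi, -⟩)
        · exact (hZT q (hZ q (closure_lens802 hc) ⟨z, hzW, hq⟩)).1
        · exact hi
      · intro hi
        exact Or.inr ⟨hi, hqQ⟩)
  have he : e ∈ T u ∧ u ∉ lens802 W := by
    rcases h2 with ⟨h7, -⟩ | h7
    · exact absurd h7.symm hae
    · exact h7
  have hf : f ∈ T u := by
    rcases h3 with ⟨h7, -⟩ | h7
    · exact absurd h7.symm haf
    · exact h7.1
  have hout : ∃ w ∈ W, 1 < dist u w := by
    by_contra hcon
    push Not at hcon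
    have h7 : ∃ w ∈ W, dist u w = 1 := by
      by_contra hcon2
      push Not at hcon2
      exact he.2 fun w hw => lt_of_le_of_ne (hcon w hw) (hcon2 w hw)
    exact (hZT u (hZ u hcon h7)).2 he.1
  have huc : u ∉ closure (lens802 W) := by
    intro hcon
    obtain ⟨w, hw, hw1⟩ := hout
    have := closure_lens802 hcon w hw
    linarith
  have hInn : InnO T z u x := by
    unfold InnO at h6 ⊢
    rw [mem_closure_iff_frequently] at h6 ⊢
    have hev : ∀ᶠ y in 𝓝 u, y ∉ closure (lens802 W) :=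
      isClosed_closure.isOpen_compl.mem_nhds huc
    refine (h6.and_eventually hev).mono fun y hy => ?_
    obtain ⟨⟨hy1, hy2⟩, hy3⟩ := hy
    refine ⟨hy1, ?_⟩
    rcases hy2 with ⟨-, h7⟩ | h7
    · exact absurd h7 hy3
    · exact h7.1
  refine ⟨u, x, h1, he.1, hf, ?_, h4, h5, hInn, hout⟩
  exact closure_minimal (s := {w | dist w z < 1 ∧ x ∈ T w}) (t := {w | x ∈ T w})
    (fun y hy => hy.2) (h.closed x) hInn

end Vale.Agent.P032.Six
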