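import Vale.Agent.P032.H169.Chain

/-!
# P032: J-chains: determinism, closing, diameters, alternating chains (row C)

Over `H169/Chain.lean` (`JCh T V ρ S C`):

* `JCh.dich`   : two occurrences of the same centre: same or opposite direction of the chain;
* `JCh.closed` : finitely many vertices: the chain is purely periodic;
* `JCh.apart`  : alternating orientations: vertices of different parity are different;
* `JCh.diam`   : a colour of all full arcs: the curve of the arcs of one parity has diameter `≤ 1`;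
* `JCh.finite` : hence finitely many vertices if there are finitely many in every disc;
* `JCh.switch` : no chain with alternating orientations and a common colour of all full arcs.
-/

open Set Filter Topology Metric

noncomputable section

namespace Vale.Agent.P032.Six

theorem cis_eq802 {x y : ℝ} (h : cis x = cis y) : ∃ n : ℤ, x = y + 2 * Real.pi * n := by
  rw [cis, cis, Complex.exp_eq_exp_iff_exists_int] at h
  obtain ⟨n, hn⟩ := h
  refine ⟨n, ?_⟩
  have h1 := congrArg Complex.im hn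
  simp only [Complex.add_im, Complex.mul_im, Complex.ofReal_re, Complex.ofReal_im, Complex.I_re,
    Complex.I_im, Complex.mul_re, Complex.intCast_re, Complex.intCast_im, Complex.re_ofNat,
    Complex.im_ofNat] at h1
  linarith

theorem cis_inj802 {x y : ℝ} (h : cis x = cis y) (hd : |x - y| < 2 * Real.pi) : x = y := by
  obtain ⟨n, hn⟩ := cis_eq802 h
  have hpi := Real.pi_pos
  have h1 : |2 * Real.pi * (n : ℝ)| < 2 * Real.pi := by
    have : x - y = 2 * Real.pi * n := by linarith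
    rwa [this] at hd
  rw [abs_mul, abs_of_pos (by linarith : (0 : ℝ) < 2 * Real.pi)] at h1
  have h2 : |(n : ℝ)| < 1 := by
    by_contra hcon
    push Not at hcon
    nlinarith
  have h3 : |n| < 1 := by exact_mod_cast h2
  have h4 : n = 0 := by rwa [Int.abs_lt_one_iff] at h3
  rw [hn, h4]; simp

/-- two short open arcs of a circle which are equal have the same ends -/
theorem arcs_eq802 {a b a' b' sh : ℝ} {u u' : ℂ} (hu : u ≠ 0)
    (hsh : ∀ θ, u' * cis θ = u * cis (θ + sh)) (hab : a < b) (hab' : a' < b')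
    (h1 : b - a ≤ Real.pi / 3) (h2 : b' - a' ≤ Real.pi / 3)
    (s1 : ∀ θ ∈ Ioo a b, ∃ θ' ∈ Ioo a' b', u * cis θ = u' * cis θ')
    (s2 : ∀ θ' ∈ Ioo a' b', ∃ θ ∈ Ioo a b, u * cis θ = u' * cis θ') :
    u * cis a = u' * cis a' ∧ u * cis b = u' * cis b' ∧ b - a = b' - a' := by
  have hpi := Real.pi_pos
  obtain ⟨m', hm', hm⟩ := s1 ((a + b) / 2) ⟨by linarith, by linarith⟩
  rw [hsh] at hm
  obtain ⟨n, hn⟩ := cis_eq802 (mul_left_cancel₀ hu hm)
  obtain ⟨K, hK⟩ : ∃ K, K = sh + 2 * Real.pi * n := ⟨_, rfl⟩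
  have hcK : ∀ θ, cis (θ + sh) = cis (θ + K) := by
    intro θ
    rw [hK, cis, cis, Complex.exp_eq_exp_iff_exists_int]
    refine ⟨-n, ?_⟩
    push_cast
    ring
  have hmK : (a + b) / 2 = m' + K := by rw [hn, hK]; ring
  have key : ∀ θ ∈ Ioo a b, ∀ θ' ∈ Ioo a' b', u * cis θ = u' * cis θ' → θ = θ' + K := by
    intro θ hθ θ' hθ' he
    rw [hsh, hcK] at he
    refine cis_inj802 (mul_left_cancel₀ hu he) ?_
    rw [abs_lt]
    constructor
    · linarith [hθ.1, hθ'.2, hm'.1]
    · linarith [hθ.2, hθ'.1, hm'.2]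
  have i1 : Ioo a b ⊆ Ioo (a' + K) (b' + K) := by
    intro θ hθ
    obtain ⟨θ', hθ', he⟩ := s1 θ hθ
    rw [key θ hθ θ' hθ' he]
    exact ⟨by linarith [hθ'.1], by linarith [hθ'.2]⟩
  have i2 : Ioo (a' + K) (b' + K) ⊆ Ioo a b := by
    intro x hx
    obtain ⟨θ, hθ, he⟩ := s2 (x - K) ⟨by linarith [hx.1], by linarith [hx.2]⟩
    have := key θ hθ (x - K) ⟨by linarith [hx.1], by linarith [hx.2]⟩ he
    rw [show x = θ by linarith]
    exact hθ
  rw [Ioo_subset_Ioo_iff hab] at i1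
  rw [Ioo_subset_Ioo_iff (by linarith)] at i2
  have ea : a = a' + K := le_antisymm i2.1 i1.1
  have eb : b = b' + K := le_antisymm i1.2 i2.2
  refine ⟨?_, ?_, by linarith⟩
  · rw [hsh, hcK, ← ea]
  · rw [hsh, hcK, ← eb]

theorem npow_shift802 (i j : ℕ) : ∃ sh : ℝ, ∀ θ : ℝ,
    (-1 : ℂ) ^ j * cis θ = (-1) ^ i * cis (θ + sh) := by
  rcases neg_one_pow_eq_or ℂ i with h1 | h1 <;> rcases neg_one_pow_eq_or ℂ j with h2 | h2
  · exact ⟨0, fun θ => by rw [h1, h2, add_zero]⟩
  · exact ⟨Real.pi, fun θ => by rw [h1, h2, cis_add_pi169]; ring⟩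
  · exact ⟨Real.pi, fun θ => by rw [h1, h2, cis_add_pi169]; ring⟩
  · exact ⟨0, fun θ => by rw [h1, h2, add_zero]⟩

variable {k : ℕ} {U : Fin k → Set ℂ} {T : ℂ → Set (Fin k)} {V : ℕ → ℂ} {ρ : ℕ → ℝ}
  {S : Set (Fin k)} {C : ℕ → Set (Fin k)}

theorem Rods.ne_two802 (h : Rods V ρ) (i : ℕ) : V (i + 2) ≠ V i := by
  intro h0
  have h1 := h.two i
  rw [h0] at h1
  have h2 : (-1 : ℂ) ^ i * (cis (ρ i) - cis (ρ (i + 1))) = 0 := by linear_combination -h1
  rcases mul_eq_zero.1 h2 with h3 | h3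
  · exact absurd h3 (pow_ne_zero _ (by norm_num))
  · have h4 := h.le i
    have hpi := Real.pi_pos
    refine h.ne i (cis_inj802 (sub_eq_zero.1 h3).symm ?_)
    exact lt_of_le_of_lt h4 (by linarith)

namespace JCh

theorem arc_set (J : JCh T V ρ S C) {i j : ℕ} (h : V (i + 1) = V (j + 1)) :
    ∀ θ ∈ uIoo (ρ i) (ρ (i + 1)), ∃ θ' ∈ uIoo (ρ j) (ρ (j + 1)),
      (-1 : ℂ) ^ (i + 1) * cis θ = (-1) ^ (j + 1) * cis θ' := by
  intro θ hθ
  obtain ⟨θ', hθ', he⟩ := J.only j (arcPt V i θ) (by rw [← h]; exact Rods.dist_arc V i θ)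
    (by rw [J.arc i θ hθ, J.det _ _ h])
  refine ⟨θ', hθ', ?_⟩
  rw [arcPt, arcPt, h] at he
  exact add_left_cancel he

/-- **two occurrences of the same centre** -/
theorem dich (J : JCh T V ρ S C) {i j : ℕ} (h : V (i + 1) = V (j + 1)) :
    (V i = V j ∧ V (i + 2) = V (j + 2) ∧ ρ (i + 1) - ρ i = ρ (j + 1) - ρ j) ∨
    (V i = V (j + 2) ∧ V (i + 2) = V j ∧ ρ (i + 1) - ρ i = -(ρ (j + 1) - ρ j)) := by
  have s1 := J.arc_set h
  have s2 : ∀ θ' ∈ uIoo (ρ j) (ρ (j + 1)), ∃ θ ∈ uIoo (ρ i) (ρ (i + 1)),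
      (-1 : ℂ) ^ (i + 1) * cis θ = (-1) ^ (j + 1) * cis θ' := by
    intro θ' hθ'
    obtain ⟨θ, hθ, he⟩ := J.arc_set h.symm θ' hθ'
    exact ⟨θ, hθ, he.symm⟩
  obtain ⟨sh, hsh⟩ := npow_shift802 (i + 1) (j + 1)
  have hu : (-1 : ℂ) ^ (i + 1) ≠ 0 := pow_ne_zero _ (by norm_num)
  have li := J.rods.le i
  have lj := J.rods.le j
  rw [abs_le] at li lj
  -- the four ends
  have ei : (-1 : ℂ) ^ (i + 1) * cis (ρ i) = V i - V (i + 1) := by
    have := J.rods.arc_left i; rw [arcPt] at this; linear_combination this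
  have ei' : (-1 : ℂ) ^ (i + 1) * cis (ρ (i + 1)) = V (i + 2) - V (i + 1) := by
    have := J.rods.arc_right i; rw [arcPt] at this; linear_combination this
  have ej : (-1 : ℂ) ^ (j + 1) * cis (ρ j) = V j - V (j + 1) := by
    have := J.rods.arc_left j; rw [arcPt] at this; linear_combination this
  have ej' : (-1 : ℂ) ^ (j + 1) * cis (ρ (j + 1)) = V (j + 2) - V (j + 1) := by
    have := J.rods.arc_right j; rw [arcPt] at this; linear_combination this
  rcases lt_or_gt_of_ne (J.rods.ne i) with hi | hi <;>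
    rcases lt_or_gt_of_ne (J.rods.ne j) with hj | hj
  · rw [uIoo_of_ge hi.le, uIoo_of_ge hj.le] at s1 s2
    obtain ⟨h1, h2, h3⟩ := arcs_eq802 hu hsh hi hj (by linarith) (by linarith) s1 s2
    rw [ei', ej'] at h1
    rw [ei, ej] at h2
    left
    refine ⟨?_, ?_, by linarith⟩
    · linear_combination h2 + h
    · linear_combination h1 + h
  · rw [uIoo_of_ge hi.le, uIoo_of_le hj.le] at s1 s2
    obtain ⟨h1, h2, h3⟩ := arcs_eq802 hu hsh hi hj (by linarith) (by linarith) s1 s2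
    rw [ei', ej] at h1
    rw [ei, ej'] at h2
    right
    refine ⟨?_, ?_, by linarith⟩
    · linear_combination h2 + h
    · linear_combination h1 + h
  · rw [uIoo_of_le hi.le, uIoo_of_ge hj.le] at s1 s2
    obtain ⟨h1, h2, h3⟩ := arcs_eq802 hu hsh hi hj (by linarith) (by linarith) s1 s2
    rw [ei, ej'] at h1
    rw [ei', ej] at h2
    right
    refine ⟨?_, ?_, by linarith⟩
    · linear_combination h1 + h
    · linear_combination h2 + h
  · rw [uIoo_of_le hi.le, uIoo_of_le hj.le] at s1 s2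
    obtain ⟨h1, h2, h3⟩ := arcs_eq802 hu hsh hi hj (by linarith) (by linarith) s1 s2
    rw [ei, ej] at h1
    rw [ei', ej'] at h2
    left
    refine ⟨?_, ?_, by linarith⟩
    · linear_combination h1 + h
    · linear_combination h2 + h

/-- **closing**: a chain with finitely many vertices is purely periodic -/
theorem closed (J : JCh T V ρ S C) (hfin : (range V).Finite) :
    ∃ N > 0, ∀ i, V (i + 2 * N) = V i := by
  have hfin2 : (range fun i => (V i, V (i + 1))).Finite :=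
    (hfin.prod hfin).subset (by rintro _ ⟨i, rfl⟩; exact ⟨⟨i, rfl⟩, ⟨i + 1, rfl⟩⟩)
  obtain ⟨i, j, hij, he⟩ : ∃ i j, i < j ∧ (V i, V (i + 1)) = (V j, V (j + 1)) := by
    by_contra hcon
    push Not at hcon
    have hinj : Function.Injective fun i => (V i, V (i + 1)) := by
      intro a b hab
      rcases lt_trichotomy a b with h1 | h1 | h1
      · exact absurd hab (hcon a b h1)
      · exact h1
      · exact absurd hab.symm (hcon b a h1)
    exact (Set.infinite_range_of_injective hinj) hfin2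
  rw [Prod.mk.injEq] at he
  have fwd : ∀ a b, V a = V b → V (a + 1) = V (b + 1) → V (a + 2) = V (b + 2) := by
    intro a b h1 h2
    rcases J.dich h2 with ⟨-, h3, -⟩ | ⟨h3, -, -⟩
    · exact h3
    · exact absurd (h3.symm.trans h1) (J.rods.ne_two802 b)
  have bwd : ∀ a b, V (a + 1) = V (b + 1) → V (a + 2) = V (b + 2) → V a = V b := by
    intro a b h1 h2
    rcases J.dich h1 with ⟨h3, -, -⟩ | ⟨-, h3, -⟩
    · exact h3
    · exact absurd (h2.symm.trans h3) (J.rods.ne_two802 b)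
  obtain ⟨M, rfl⟩ := Nat.exists_eq_add_of_lt hij
  -- go down to `0`
  have down : ∀ n, V n = V (n + (M + 1)) → V (n + 1) = V (n + 1 + (M + 1)) →
      V 0 = V (0 + (M + 1)) ∧ V (0 + 1) = V (0 + 1 + (M + 1)) := by
    intro n
    induction n with
    | zero => exact fun h1 h2 => ⟨h1, h2⟩
    | succ n ih =>
      intro h1 h2
      refine ih ?_ h1
      refine bwd n (n + (M + 1)) ?_ ?_
      · rw [h1]; congr 1; ring
      · rw [show n + 2 = n + 1 + 1 by ring, h2]; congr 1; ring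
  obtain ⟨d0, d1⟩ := down i (by rw [he.1]; congr 1) (by rw [he.2]; congr 1; ring)
  have up : ∀ n, V n = V (n + (M + 1)) ∧ V (n + 1) = V (n + 1 + (M + 1)) := by
    intro n
    induction n with
    | zero => exact ⟨d0, d1⟩
    | succ n ih =>
      refine ⟨ih.2, ?_⟩
      have := fwd n (n + (M + 1)) ih.1 (by rw [ih.2]; congr 1; ring)
      rw [show n + 1 + 1 = n + 2 by ring, this]; congr 1; ring
  refine ⟨M + 1, Nat.succ_pos _, fun i => ?_⟩
  rw [show i + 2 * (M + 1) = i + (M + 1) + (M + 1) by ring, ← (up (i + (M + 1))).1, ← (up i).1]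

theorem per_mul {N : ℕ} (hper : ∀ i, V (i + 2 * N) = V i) (i m : ℕ) :
    V (i + m * (2 * N)) = V i := by
  induction m with
  | zero => simp
  | succ m ih => rw [show i + (m + 1) * (2 * N) = i + m * (2 * N) + 2 * N by ring, hper, ih]

/-- alternating orientations: vertices of different parity are different -/
theorem apart (J : JCh T V ρ S C) {N : ℕ} (hN : 0 < N) (hper : ∀ i, V (i + 2 * N) = V i)
    {τ : ℝ} (hτ : ∀ i, 0 < τ * (-1) ^ i * (ρ (i + 1) - ρ i)) :
    ∀ i j, Even i → Odd j → V i ≠ V j := by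
  -- first for `i + 1 < j + 1` with different parities
  have key : ∀ i q, V (i + 1) ≠ V (i + 1 + (2 * q + 1)) := by
    intro i q h0
    obtain ⟨j, hj⟩ : ∃ j, j = i + (2 * q + 1) := ⟨_, rfl⟩
    have hpar : ∀ a b, (Even a ↔ Odd b) → ρ (a + 1) - ρ a ≠ ρ (b + 1) - ρ b := by
      intro a b hab he
      have h1 := hτ a
      have h2 := hτ b
      rw [he] at h1
      rcases Nat.even_or_odd a with ha | ha
      · rw [ha.neg_one_pow] at h1
        rw [(hab.1 ha).neg_one_pow] at h2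
        nlinarith
      · have hb : Even b := by
          rw [← Nat.not_odd_iff_even, ← hab, Nat.not_even_iff_odd]; exact ha
        rw [ha.neg_one_pow] at h1
        rw [hb.neg_one_pow] at h2
        nlinarith
    -- the reflection
    have refl : ∀ m, m ≤ q → V (i + 1 + m) = V (i + 2 * q + 2 - m) ∧
        V (i + 2 + m) = V (i + 2 * q + 1 - m) := by
      intro m
      induction m with
      | zero =>
        intro _
        refine ⟨by rw [Nat.sub_zero, add_zero, h0]; congr 1; ring, ?_⟩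
        rcases J.dich (i := i) (j := i + (2 * q + 1)) (by rw [h0]; congr 1; ring) with
          ⟨-, -, h3⟩ | ⟨-, h3, -⟩
        · refine absurd h3 (hpar _ _ ?_)
          rw [Nat.odd_add]
          constructor
          · intro h; exact iff_of_false (Nat.not_odd_iff_even.2 h)
              (Nat.not_even_iff_odd.2 ⟨q, rfl⟩)
          · intro h
            by_contra h5
            rw [Nat.not_even_iff_odd] at h5
            exact (Nat.not_even_iff_odd.2 ⟨q, rfl⟩) (h.1 h5)
        · rw [Nat.sub_zero, add_zero, h3]; congr 1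
      | succ m ih =>
        intro hm
        obtain ⟨h1, h2⟩ := ih (by omega)
        have h2' : V (i + 1 + (m + 1)) = V (i + 2 * q + 2 - (m + 1)) := by
          rw [show i + 1 + (m + 1) = i + 2 + m by ring, h2]; congr 1; omega
        refine ⟨h2', ?_⟩
        -- apply the dichotomy at `i + 2 + m`
        obtain ⟨r, hr⟩ : ∃ r, i + 2 * q + 1 - m = r + 1 := ⟨i + 2 * q - m, by omega⟩
        have e1 : V (i + 1 + m + 1) = V (r + 1) := by
          rw [show i + 1 + m + 1 = i + 2 + m by ring, h2, hr]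
        rcases J.dich e1 with ⟨h3, -, -⟩ | ⟨-, h3, -⟩
        · exfalso
          have h4 : V (i + 1 + m) = V (r + 2) := by
            rw [h1]; congr 1; omega
          exact J.rods.ne_two802 r (h4.symm.trans h3)
        · rw [show i + 2 + (m + 1) = i + 1 + m + 2 by ring, h3]; congr 1; omega
    obtain ⟨h1, h2⟩ := refl q le_rfl
    have h3 : V (i + q + 1) = V (i + q + 1 + 1) := by
      rw [show i + q + 1 = i + 1 + q by ring, h1]; congr 1; omega
    have h4 := J.rods.unit (i + q + 1)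
    rw [← h3, dist_self] at h4
    exact zero_ne_one h4
  intro i j hi hj h0
  -- move `j` far to the right, `i` by one period
  have e1 : V i = V (i + 2 * N) := (hper i).symm
  have e2 : V j = V (j + (i + 2) * (2 * N)) := (per_mul hper j (i + 2)).symm
  obtain ⟨a, ha⟩ : ∃ a, i + 2 * N = a + 1 := ⟨i + 2 * N - 1, by omega⟩
  have hlt : i + 2 * N < j + (i + 2) * (2 * N) := by nlinarith
  have hodd : Odd (j + (i + 2) * (2 * N) - (i + 2 * N)) := by
    rcases hi with ⟨x, hx⟩
    rcases hj with ⟨y, hy⟩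
    obtain ⟨P, hP⟩ : ∃ P, P = (i + 2) * N := ⟨_, rfl⟩
    have hP2 : (i + 2) * (2 * N) = 2 * P := by rw [hP]; ring
    have hP3 : i + N ≤ P := by rw [hP]; nlinarith
    refine ⟨y + P - x - N, ?_⟩
    rw [hP2]
    omega
  obtain ⟨q, hq⟩ := hodd
  refine key a q ?_
  rw [← ha, ← e1, h0, e2]
  congr 1
  omega

/-- a common colour of all full arcs is on the closed arcs -/
theorem mem_arc (h : Irr U T) (J : JCh T V ρ S C) {x : Fin k} (hx : ∀ i, x ∈ C (i + 1)) (i : ℕ) :
    ∀ θ ∈ uIcc (ρ i) (ρ (i + 1)), x ∈ T (arcPt V i θ) := by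
  have hc : Continuous fun θ : ℝ => arcPt V i θ := by
    have := continuous_cis
    unfold arcPt
    fun_prop
  have h1 : closure (uIoo (ρ i) (ρ (i + 1))) ⊆ (fun θ : ℝ => arcPt V i θ) ⁻¹' {p | x ∈ T p} := by
    refine closure_minimal (fun θ hθ => ?_) ((h.closed x).preimage hc)
    change x ∈ T (arcPt V i θ)
    rw [J.arc i θ hθ]
    exact hx i
  have h2 : closure (uIoo (ρ i) (ρ (i + 1))) = uIcc (ρ i) (ρ (i + 1)) := by
    unfold uIoo uIcc
    exact closure_Ioo (inf_lt_sup.2 (J.rods.ne i).symm).ne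
  rw [h2] at h1
  exact fun θ hθ => h1 hθ

/-- **diameters** -/
theorem diam (h : Irr U T) (J : JCh T V ρ S C) {x : Fin k} (hx : ∀ i, x ∈ C (i + 1)) (i j : ℕ)
    (hij : Even i ↔ Even j) : ∀ θ ∈ uIcc (ρ i) (ρ (i + 1)), ∀ θ' ∈ uIcc (ρ j) (ρ (j + 1)),
      dist (arcPt V i θ) (arcPt V j θ') ≤ 1 := by
  obtain ⟨p, a, b, hi, hj⟩ : ∃ p a b, i = 2 * a + p ∧ j = 2 * b + p := by
    rcases Nat.even_or_odd i with h1 | h1
    · obtain ⟨a, ha⟩ := h1
      obtain ⟨b, hb⟩ := hij.1 ⟨a, ha⟩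
      exact ⟨0, a, b, by omega, by omega⟩
    · have h2 : Odd j := by
        rw [← Nat.not_even_iff_odd, ← hij, Nat.not_even_iff_odd]; exact h1
      obtain ⟨a, ha⟩ := h1
      obtain ⟨b, hb⟩ := h2
      exact ⟨1, a, b, ha, hb⟩
  -- the curve
  obtain ⟨s, hs⟩ : ∃ s : ℕ → Set ℂ, s = fun n => arcPt V (2 * n + p) ''
    uIcc (ρ (2 * n + p)) (ρ (2 * n + p + 1)) := ⟨_, rfl⟩
  have hcont : ∀ n, Continuous fun θ : ℝ => arcPt V n θ := by
    intro n
    have := continuous_cis
    unfold arcPt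
    fun_prop
  have hpre : IsPreconnected (⋃ n, s n) := by
    refine IsPreconnected.iUnion_of_chain (fun n => ?_) fun n => ?_
    · rw [hs]
      exact isPreconnected_uIcc.image _ (hcont _).continuousOn
    · refine ⟨V (2 * n + p + 2), ?_, ?_⟩
      · rw [hs]
        exact ⟨_, right_mem_uIcc, J.rods.arc_right _⟩
      · rw [hs]
        refine ⟨ρ (2 * n + p + 2), ?_, ?_⟩
        · rw [Nat.succ_eq_succ, Nat.succ_eq_add_one, show 2 * (n + 1) + p = 2 * n + p + 2 by ring]
          exact left_mem_uIcc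
        · rw [Nat.succ_eq_succ, Nat.succ_eq_add_one, show 2 * (n + 1) + p = 2 * n + p + 2 by ring]
          exact J.rods.arc_left _
  have hsub : (⋃ n, s n) ⊆ closure (U x) := by
    intro y hy
    obtain ⟨n, hn⟩ := mem_iUnion.1 hy
    rw [hs] at hn
    obtain ⟨θ, hθ, rfl⟩ := hn
    exact h.sub _ (J.mem_arc h hx _ θ hθ)
  intro θ hθ θ' hθ'
  have m1 : arcPt V i θ ∈ ⋃ n, s n := mem_iUnion.2 ⟨a, by rw [hs, hi] at *; exact ⟨θ, hθ, rfl⟩⟩
  have m2 : arcPt V j θ' ∈ ⋃ n, s n := mem_iUnion.2 ⟨b, by rw [hs, hj] at *; exact ⟨θ', hθ', rfl⟩⟩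
  by_contra hcon
  push Not at hcon
  exact h.mx.wlemma hpre hsub m2 m1 (by rw [dist_self]; exact one_pos) hcon (hsub m2)

/-- finitely many vertices -/
theorem finite (h : Irr U T) (J : JCh T V ρ S C) {x : Fin k} (hx : ∀ i, x ∈ C (i + 1))
    (hE : ∀ R : ℝ, (range V ∩ closedBall 0 R).Finite) : (range V).Finite := by
  refine (hE (dist (V 0) 0 + 2)).subset ?_
  rintro _ ⟨n, rfl⟩
  refine ⟨⟨n, rfl⟩, ?_⟩
  rw [mem_closedBall]
  have hv : ∀ i j, (Even i ↔ Even j) → dist (V i) (V j) ≤ 1 := by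
    intro i j hij
    have := J.diam h hx i j hij _ left_mem_uIcc _ left_mem_uIcc
    rwa [J.rods.arc_left, J.rods.arc_left] at this
  rcases Nat.even_or_odd n with hn | hn
  · have h1 := hv n 0 (iff_of_true hn ⟨0, rfl⟩)
    have h2 := dist_triangle (V n) (V 0) 0
    linarith
  · have h1 := hv n 1 (iff_of_false (Nat.not_even_iff_odd.2 hn) (by decide))
    have h2 := dist_triangle (V n) (V 1) 0
    have h3 := dist_triangle (V 1) (V 0) 0
    have h4 := J.rods.unit 0
    rw [zero_add, dist_comm] at h4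
    linarith

/-- **no chain with alternating orientations and a common colour of all full arcs** -/
theorem switch (h : Irr U T) (J : JCh T V ρ S C) {x : Fin k} (hx : ∀ i, x ∈ C (i + 1))
    (hE : ∀ R : ℝ, (range V ∩ closedBall 0 R).Finite)
    (hsw : ∀ i, (ρ (i + 1) - ρ i) * (ρ (i + 2) - ρ (i + 1)) < 0) : False := by
  obtain ⟨N, hN, hper⟩ := J.closed (J.finite h hx hE)
  have hd0 : ρ (0 + 1) - ρ 0 ≠ 0 := sub_ne_zero.2 (J.rods.ne 0)
  have hτ : ∀ i, 0 < (ρ (0 + 1) - ρ 0) * (-1) ^ i * (ρ (i + 1) - ρ i) := by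
    intro i
    induction i with
    | zero =>
      rw [pow_zero, mul_one]
      exact mul_self_pos.2 hd0
    | succ i ih =>
      have h1 := hsw i
      have h3 : ((-1 : ℝ) ^ i) * (-1) ^ i = 1 := by rw [← mul_pow]; norm_num
      have h2 : ((ρ (0 + 1) - ρ 0) * (-1) ^ i * (ρ (i + 1) - ρ i)) *
          ((ρ (0 + 1) - ρ 0) * (-1) ^ (i + 1) * (ρ (i + 1 + 1) - ρ (i + 1))) =
          -((ρ (0 + 1) - ρ 0) * (ρ (0 + 1) - ρ 0)) * ((-1) ^ i * (-1) ^ i) *
            ((ρ (i + 1) - ρ i) * (ρ (i + 2) - ρ (i + 1))) := by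
        rw [pow_succ]; ring
      rw [h3, mul_one] at h2
      have h4 : 0 < (ρ (0 + 1) - ρ 0) * (ρ (0 + 1) - ρ 0) := mul_self_pos.2 hd0
      have h5 : 0 < ((ρ (0 + 1) - ρ 0) * (-1) ^ i * (ρ (i + 1) - ρ i)) *
          ((ρ (0 + 1) - ρ 0) * (-1) ^ (i + 1) * (ρ (i + 1 + 1) - ρ (i + 1))) := by
        rw [h2]; nlinarith
      exact (mul_pos_iff_of_pos_left ih).1 h5
  refine J.rods.switch_false hN (by simpa using hper 0) hτ
    (fun i j hij θ hθ θ' hθ' => J.diam h hx i j hij θ hθ θ' hθ') (J.apart hN hper hτ)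

end JCh

end Vale.Agent.P032.Six
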