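import Vale.Agent.P032.H961.QF

/-!
# P032: the chain of quasi-full points

`exists_int_chain802` : a relation with successors and predecessors has a bi-infinite chain.
`ChZ nx T V l name` : bi-infinite chain of vertices `V : ℤ → ℂ` with the links `l` and the names of the
colours (roles `0, .., 5` = `I, O, p, q, e, f`; `QF` has the order `I, O, p, q`).  `V (j + 1)` and
`V (j - 1)` are the ends of the arc of `V j`.
`QFW.exists_chZR` : a chain through every point with four colours, relative names (274): after a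
K-link the dropped colour is `e`.
-/

open Set Filter Topology Metric

noncomputable section

namespace Vale.Agent.P032.Six

open Vale.Agent.P032.S5.H767 Vale.Agent.P032.H961

/-! ### bi-infinite sequences -/

/-- a relation with successors and predecessors has a bi-infinite chain through every point -/
theorem exists_int_chain802 {S : Type*} (P : S → Prop) (R : S → S → Prop)
    (hf : ∀ s, P s → ∃ s', P s' ∧ R s s') (hb : ∀ s, P s → ∃ s', P s' ∧ R s' s) (s₀ : S)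
    (h₀ : P s₀) : ∃ f : ℤ → S, f 0 = s₀ ∧ (∀ j, P (f j)) ∧ ∀ j, R (f j) (f (j + 1)) := by
  choose nxt hP hR using hf
  choose prv hP' hR' using hb
  let N : {s // P s} → {s // P s} := fun s => ⟨nxt s.1 s.2, hP s.1 s.2⟩
  let M : {s // P s} → {s // P s} := fun s => ⟨prv s.1 s.2, hP' s.1 s.2⟩
  let F : ℤ → {s // P s} := fun j => match j with
    | Int.ofNat n => N^[n] ⟨s₀, h₀⟩
    | Int.negSucc n => M^[n + 1] ⟨s₀, h₀⟩
  refine ⟨fun j => (F j).1, rfl, fun j => (F j).2, ?_⟩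
  intro j
  rcases j with n | n
  · have h1 : Int.ofNat n + 1 = Int.ofNat (n + 1) := rfl
    rw [h1]
    show R (N^[n] ⟨s₀, h₀⟩).1 (N^[n + 1] ⟨s₀, h₀⟩).1
    rw [Function.iterate_succ_apply']
    exact hR _ _
  · rcases n with _ | n
    · have h1 : Int.negSucc 0 + 1 = Int.ofNat 0 := rfl
      rw [h1]
      exact hR' _ _
    · have h1 : Int.negSucc (n + 1) + 1 = Int.negSucc n := rfl
      rw [h1]
      show R (M^[n + 1 + 1] ⟨s₀, h₀⟩).1 (M^[n + 1] ⟨s₀, h₀⟩).1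
      rw [Function.iterate_succ_apply' M (n + 1)]
      exact hR' _ _

/-! ### names -/

/-- the roles of the next vertex, absolute names of the free letters: roles `0, .., 5` =
`I, O, p, q, e, f`, links `l = 3 * kind + letter` (`kind = 0` STAY, `1` SWITCH; `letter = 0` J,
`1` the letter `e`, `2` the letter `f`); the dropped colour takes the name of the letter -/
def nxA802 : Fin 6 → Fin 6 → Fin 6 := ![![0, 2, 3, 1, 4, 5], ![0, 2, 4, 1, 3, 5], ![0, 2, 5, 1, 4, 3],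
  ![3, 1, 0, 2, 4, 5], ![3, 1, 0, 4, 2, 5], ![3, 1, 0, 5, 4, 2]]

/-- the same with relative names: after a K-link the dropped colour is `e` -/
def nxR802 : Fin 6 → Fin 6 → Fin 6 := ![![0, 2, 3, 1, 4, 5], ![0, 2, 4, 1, 3, 5], ![0, 2, 5, 1, 3, 4],
  ![3, 1, 0, 2, 4, 5], ![3, 1, 0, 4, 2, 5], ![3, 1, 0, 5, 2, 4]]

theorem all_mem802 {a b m n e f : Fin 6} (nd : [a, b, m, n, e, f].Nodup) (i : Fin 6) :
    i = a ∨ i = b ∨ i = m ∨ i = n ∨ i = e ∨ i = f := by
  have h1 : [a, b, m, n, e, f].toFinset = Finset.univ :=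
    Finset.eq_univ_of_card _ (by rw [List.toFinset_card_of_nodup nd]; rfl)
  have h2 : i ∈ [a, b, m, n, e, f].toFinset := by rw [h1]; exact Finset.mem_univ i
  simpa using h2

/-- two orderings with the same first three letters and the same fourth -/
theorem rest802 {a b m n e f g e' f' : Fin 6} (nd : [a, b, m, n, e, f].Nodup)
    (nd' : [a, m, g, b, e', f'].Nodup) :
    (g = n ∧ (e' = e ∧ f' = f ∨ e' = f ∧ f' = e)) ∨ (g = e ∧ (e' = n ∧ f' = f ∨ e' = f ∧ f' = n)) ∨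
      (g = f ∧ (e' = n ∧ f' = e ∨ e' = e ∧ f' = n)) := by
  have hg := all_mem802 nd g
  have he := all_mem802 nd e'
  have hf := all_mem802 nd f'
  simp only [List.nodup_cons, List.mem_cons, List.not_mem_nil, or_false, not_or,
    List.nodup_nil, and_true, not_false_eq_true] at nd nd'
  obtain ⟨⟨h1, h2, h3, h4, h5⟩, ⟨h6, h7, h8, h9⟩, ⟨h10, h11, h12⟩, ⟨h13, h14⟩, h15⟩ := nd
  obtain ⟨⟨k1, k2, k3, k4, k5⟩, ⟨k6, k7, k8, k9⟩, ⟨k10, k11, k12⟩, ⟨k13, k14⟩, k15⟩ := nd'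
  rcases hg with rfl | rfl | rfl | rfl | rfl | rfl
  · exact absurd rfl k2
  · exact absurd rfl k10
  · exact absurd rfl k6
  all_goals
    rcases he with rfl | rfl | rfl | rfl | rfl | rfl <;>
    rcases hf with rfl | rfl | rfl | rfl | rfl | rfl <;> simp_all

section

variable {T : ℂ → Set (Fin 6)} {V V1 V2 : ℂ} {a b m n e f : Fin 6}

/-- the vertex `V` in the names `ν` -/
abbrev QFN802 (T : ℂ → Set (Fin 6)) (V : ℂ) (ν : Fin 6 → Fin 6) (V1 V2 : ℂ) : Prop :=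
  QF T V (ν 0) (ν 1) (ν 2) (ν 3) (ν 4) (ν 5) V1 V2

/-- **next vertex**: the six links -/
theorem next802 (H : QFW T) {ν : Fin 6 → Fin 6} (h : QFN802 T V ν V1 V2) :
    ∃ (l : Fin 6) (W : ℂ), QFN802 T V1 (fun r => ν (nxA802 l r)) W V := by
  obtain ⟨g, e', f', W, h1 | h1⟩ := H.link h
  · rcases rest802 h.nd h1.nd with ⟨rfl, h2⟩ | ⟨rfl, h2⟩ | ⟨rfl, h2⟩
    · refine ⟨0, W, ?_⟩
      show QF T V1 (ν 0) (ν 2) (ν 3) (ν 1) (ν 4) (ν 5) W V
      rcases h2 with ⟨rfl, rfl⟩ | ⟨rfl, rfl⟩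
      · exact h1
      · exact h1.swapEF
    · refine ⟨1, W, ?_⟩
      show QF T V1 (ν 0) (ν 2) (ν 4) (ν 1) (ν 3) (ν 5) W V
      rcases h2 with ⟨rfl, rfl⟩ | ⟨rfl, rfl⟩
      · exact h1
      · exact h1.swapEF
    · refine ⟨2, W, ?_⟩
      show QF T V1 (ν 0) (ν 2) (ν 5) (ν 1) (ν 4) (ν 3) W V
      rcases h2 with ⟨rfl, rfl⟩ | ⟨rfl, rfl⟩
      · exact h1.swapEF
      · exact h1
  · have nd1 : [ν 1, ν 0, ν 3, ν 2, ν 4, ν 5].Nodup := by
      have := h.nd
      refine (List.Perm.nodup_iff ?_).1 this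
      refine (List.Perm.swap (ν 1) (ν 0) _).trans ?_
      exact ((List.Perm.swap (ν 3) (ν 2) [ν 4, ν 5]).cons (ν 0)).cons (ν 1)
    have nd2 : [ν 1, ν 3, g, ν 0, e', f'].Nodup := by
      have := h1.nd
      refine (List.Perm.nodup_iff ?_).1 this
      refine (List.Perm.swap (ν 1) (ν 3) _).trans ?_
      exact ((List.Perm.swap g (ν 0) [e', f']).cons (ν 3)).cons (ν 1)
    rcases rest802 nd1 nd2 with ⟨rfl, h2⟩ | ⟨rfl, h2⟩ | ⟨rfl, h2⟩
    · refine ⟨3, W, ?_⟩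
      show QF T V1 (ν 3) (ν 1) (ν 0) (ν 2) (ν 4) (ν 5) W V
      rcases h2 with ⟨rfl, rfl⟩ | ⟨rfl, rfl⟩
      · exact h1
      · exact h1.swapEF
    · refine ⟨4, W, ?_⟩
      show QF T V1 (ν 3) (ν 1) (ν 0) (ν 4) (ν 2) (ν 5) W V
      rcases h2 with ⟨rfl, rfl⟩ | ⟨rfl, rfl⟩
      · exact h1
      · exact h1.swapEF
    · refine ⟨5, W, ?_⟩
      show QF T V1 (ν 3) (ν 1) (ν 0) (ν 5) (ν 4) (ν 2) W V
      rcases h2 with ⟨rfl, rfl⟩ | ⟨rfl, rfl⟩
      · exact h1.swapEF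
      · exact h1

/-- **previous vertex** -/
theorem prev802 (H : QFW T) {ν : Fin 6 → Fin 6} (h : QFN802 T V ν V1 V2) :
    ∃ (l : Fin 6) (W : ℂ) (μ : Fin 6 → Fin 6), QFN802 T V2 μ V W ∧ ∀ r, ν r = μ (nxA802 l r) := by
  obtain ⟨g, e', f', W, h1 | h1⟩ := H.link h.mirror
  · have nd1 : [ν 0, ν 1, ν 3, ν 2, ν 4, ν 5].Nodup := h.mirror.nd
    rcases rest802 nd1 h1.nd with ⟨rfl, h2⟩ | ⟨rfl, h2⟩ | ⟨rfl, h2⟩
    · refine ⟨0, W, ![ν 0, ν 3, ν 1, ν 2, ν 4, ν 5], ?_, ?_⟩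
      · show QF T V2 (ν 0) (ν 3) (ν 1) (ν 2) (ν 4) (ν 5) V W
        rcases h2 with ⟨rfl, rfl⟩ | ⟨rfl, rfl⟩
        · exact h1.mirror
        · exact h1.mirror.swapEF
      · intro r; fin_cases r <;> rfl
    · -- the dropped colour of `V2` is `e`
      refine ⟨1, W, ![ν 0, ν 3, ν 1, ν 4, ν 2, ν 5], ?_, ?_⟩
      · show QF T V2 (ν 0) (ν 3) (ν 1) (ν 4) (ν 2) (ν 5) V W
        rcases h2 with ⟨rfl, rfl⟩ | ⟨rfl, rfl⟩
        · exact h1.mirror
        · exact h1.mirror.swapEF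
      · intro r; fin_cases r <;> rfl
    · refine ⟨2, W, ![ν 0, ν 3, ν 1, ν 5, ν 4, ν 2], ?_, ?_⟩
      · show QF T V2 (ν 0) (ν 3) (ν 1) (ν 5) (ν 4) (ν 2) V W
        rcases h2 with ⟨rfl, rfl⟩ | ⟨rfl, rfl⟩
        · exact h1.mirror.swapEF
        · exact h1.mirror
      · intro r; fin_cases r <;> rfl
  · -- `QF T V2 (ν 2) (ν 1) (ν 0) g e' f' W V`
    have nd1 : [ν 1, ν 0, ν 2, ν 3, ν 4, ν 5].Nodup := by
      have := h.nd
      refine (List.Perm.nodup_iff ?_).1 this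
      exact List.Perm.swap (ν 1) (ν 0) _
    have nd2 : [ν 1, ν 2, g, ν 0, e', f'].Nodup := by
      have := h1.nd
      refine (List.Perm.nodup_iff ?_).1 this
      refine (List.Perm.swap (ν 1) (ν 2) _).trans ?_
      exact ((List.Perm.swap g (ν 0) [e', f']).cons (ν 2)).cons (ν 1)
    rcases rest802 nd1 nd2 with ⟨rfl, h2⟩ | ⟨rfl, h2⟩ | ⟨rfl, h2⟩
    · refine ⟨3, W, ![ν 2, ν 1, ν 3, ν 0, ν 4, ν 5], ?_, ?_⟩
      · show QF T V2 (ν 2) (ν 1) (ν 3) (ν 0) (ν 4) (ν 5) V W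
        rcases h2 with ⟨rfl, rfl⟩ | ⟨rfl, rfl⟩
        · exact h1.mirror
        · exact h1.mirror.swapEF
      · intro r; fin_cases r <;> rfl
    · refine ⟨4, W, ![ν 2, ν 1, ν 4, ν 0, ν 3, ν 5], ?_, ?_⟩
      · show QF T V2 (ν 2) (ν 1) (ν 4) (ν 0) (ν 3) (ν 5) V W
        rcases h2 with ⟨rfl, rfl⟩ | ⟨rfl, rfl⟩
        · exact h1.mirror
        · exact h1.mirror.swapEF
      · intro r; fin_cases r <;> rfl
    · refine ⟨5, W, ![ν 2, ν 1, ν 5, ν 0, ν 4, ν 3], ?_, ?_⟩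
      · show QF T V2 (ν 2) (ν 1) (ν 5) (ν 0) (ν 4) (ν 3) V W
        rcases h2 with ⟨rfl, rfl⟩ | ⟨rfl, rfl⟩
        · exact h1.mirror.swapEF
        · exact h1.mirror
      · intro r; fin_cases r <;> rfl

end

/-- **the chain**: vertices, links and names; `nx` the table of the roles of the next vertex -/
structure ChZ (nx : Fin 6 → Fin 6 → Fin 6) (T : ℂ → Set (Fin 6)) (V : ℤ → ℂ) (l : ℤ → Fin 6)
    (name : ℤ → Fin 6 → Fin 6) : Prop where
  qf : ∀ j, QF T (V j) (name j 0) (name j 1) (name j 2) (name j 3) (name j 4) (name j 5)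
    (V (j + 1)) (V (j - 1))
  nm : ∀ j r, name (j + 1) r = name j (nx (l j) r)

/-- **existence of the chain**, absolute names -/
theorem exists_chZA {T : ℂ → Set (Fin 6)} (H : QFW T) {V₀ V1 V2 : ℂ} {ν : Fin 6 → Fin 6}
    (h : QFN802 T V₀ ν V1 V2) :
    ∃ V l name, ChZ nxA802 T V l name ∧ V 0 = V₀ ∧ V 1 = V1 ∧ V (-1) = V2 ∧ name 0 = ν := by
  obtain ⟨F, h0, hP, hR⟩ := exists_int_chain802
    (S := ℂ × ℂ × ℂ × (Fin 6 → Fin 6))
    (P := fun s => QFN802 T s.1 s.2.2.2 s.2.1 s.2.2.1)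
    (R := fun s s' => s'.1 = s.2.1 ∧ s'.2.2.1 = s.1 ∧
      ∃ l : Fin 6, ∀ r, s'.2.2.2 r = s.2.2.2 (nxA802 l r))
    (by
      rintro ⟨V, V1, V2, ν⟩ hs
      obtain ⟨l, W, h1⟩ := next802 H hs
      exact ⟨(V1, W, V, fun r => ν (nxA802 l r)), h1, rfl, rfl, l, fun r => rfl⟩)
    (by
      rintro ⟨V, V1, V2, ν⟩ hs
      obtain ⟨l, W, μ, h1, h2⟩ := prev802 H hs
      exact ⟨(V2, V, W, μ), h1, rfl, rfl, l, h2⟩)
    (V₀, V1, V2, ν) h
  choose h1 h2 l hl using hR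
  refine ⟨fun j => (F j).1, l, fun j => (F j).2.2.2, ⟨?_, hl⟩, by show (F 0).1 = V₀; rw [h0],
    ?_, ?_, by show (F 0).2.2.2 = ν; rw [h0]⟩
  · intro j
    have h3 := hP j
    have h4 : (F (j + 1)).1 = (F j).2.1 := h1 j
    have h5 : (F (j - 1)).1 = (F j).2.2.1 := by
      have := h2 (j - 1)
      rw [sub_add_cancel] at this
      exact this.symm
    rw [h4, h5]
    exact h3
  · have := h1 0
    rw [h0] at this
    exact this
  · have := h2 (-1)
    rw [show (-1 : ℤ) + 1 = 0 by norm_num, h0] at this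
    exact this.symm

/-! ### relative names -/

/-- exchange of the free letters -/
def sw802 (s : Bool) : Fin 6 → Fin 6 := if s then ![0, 1, 2, 3, 5, 4] else ![0, 1, 2, 3, 4, 5]

/-- exchange of the letters `e` and `f` of a link -/
def swl802 (s : Bool) : Fin 6 → Fin 6 := if s then ![0, 2, 1, 3, 5, 4] else ![0, 1, 2, 3, 4, 5]

/-- the state after a link -/
def swn802 (l : Fin 6) (s : Bool) : Bool :=
  match l with
  | 0 => s
  | 1 => false
  | 2 => true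
  | 3 => s
  | 4 => false
  | 5 => true

theorem nx_sw802 : ∀ (s : Bool) (l r : Fin 6),
    sw802 s (nxA802 l (sw802 (swn802 l s) r)) = nxR802 (swl802 s l) r := by
  decide

theorem sw_sw802 : ∀ (s : Bool) (r : Fin 6), sw802 s (sw802 s r) = r := by
  decide

/-- a bi-infinite orbit of the states -/
theorem exists_sw802 (l : ℤ → Fin 6) : ∃ s : ℤ → Bool, ∀ j, s (j + 1) = swn802 (l j) (s j) := by
  classical
  -- the last K-link before `j` has the letter `f`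
  let P : ℤ → Prop := fun j => ∃ i < j, (l i = 2 ∨ l i = 5) ∧
    ∀ i', i < i' → i' < j → (l i' = 0 ∨ l i' = 3)
  refine ⟨fun j => decide (P j), fun j => ?_⟩
  have hl : l j = 0 ∨ l j = 1 ∨ l j = 2 ∨ l j = 3 ∨ l j = 4 ∨ l j = 5 := by
    generalize l j = x
    fin_cases x <;> simp
  have hJ : (l j = 0 ∨ l j = 3) → (P (j + 1) ↔ P j) := by
    intro h0
    constructor
    · rintro ⟨i, hi, h1, h2⟩
      rcases eq_or_lt_of_le (Int.lt_add_one_iff.1 hi) with h3 | h3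
      · subst h3
        rcases h0 with h0 | h0 <;> rw [h0] at h1 <;> exact absurd h1 (by decide)
      · exact ⟨i, h3, h1, fun i' h4 h5 => h2 i' h4 (by omega)⟩
    · rintro ⟨i, hi, h1, h2⟩
      refine ⟨i, by omega, h1, fun i' h4 h5 => ?_⟩
      rcases eq_or_lt_of_le (Int.lt_add_one_iff.1 h5) with h6 | h6
      · rw [h6]; exact h0
      · exact h2 i' h4 h6
  have hE : (l j = 1 ∨ l j = 4) → ¬ P (j + 1) := by
    rintro h0 ⟨i, hi, h1, h2⟩
    rcases eq_or_lt_of_le (Int.lt_add_one_iff.1 hi) with h3 | h3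
    · subst h3
      rcases h0 with h0 | h0 <;> rw [h0] at h1 <;> exact absurd h1 (by decide)
    · have h4 := h2 j h3 (by omega)
      rcases h0 with h0 | h0 <;> rw [h0] at h4 <;> exact absurd h4 (by decide)
  have hF : (l j = 2 ∨ l j = 5) → P (j + 1) := fun h0 =>
    ⟨j, by omega, h0, fun i' h4 h5 => by omega⟩
  rcases hl with h | h | h | h | h | h
  · rw [h]; exact decide_eq_decide.2 (hJ (Or.inl h))
  · rw [h]; exact decide_eq_false (hE (Or.inl h))
  · rw [h]; exact decide_eq_true (hF (Or.inl h))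
  · rw [h]; exact decide_eq_decide.2 (hJ (Or.inr h))
  · rw [h]; exact decide_eq_false (hE (Or.inr h))
  · rw [h]; exact decide_eq_true (hF (Or.inr h))

/-- **the chain in relative names** -/
theorem ChZ.rel802 {T : ℂ → Set (Fin 6)} {V : ℤ → ℂ} {l : ℤ → Fin 6} {name : ℤ → Fin 6 → Fin 6}
    (h : ChZ nxA802 T V l name) : ∃ s : ℤ → Bool,
      ChZ nxR802 T V (fun j => swl802 (s j) (l j)) (fun j r => name j (sw802 (s j) r)) := by
  obtain ⟨s, hs⟩ := exists_sw802 l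
  refine ⟨s, ⟨fun j => ?_, fun j r => ?_⟩⟩
  · have h1 := h.qf j
    cases hsj : s j
    · exact h1
    · exact h1.swapEF
  · show name (j + 1) (sw802 (s (j + 1)) r) = name j (sw802 (s j) (nxR802 (swl802 (s j) (l j)) r))
    rw [h.nm, hs, ← nx_sw802, sw_sw802]

/-- **existence of the chain**, relative names -/
theorem exists_chZR {T : ℂ → Set (Fin 6)} (H : QFW T) {V₀ : ℂ} (h4 : 4 ≤ (T V₀).ncard) :
    ∃ V l name, ChZ nxR802 T V l name ∧ V 0 = V₀ := by
  obtain ⟨a, b, m, n, e, f, V1, V2, hq⟩ := H.qf V₀ h4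
  obtain ⟨V, l, name, h1, h2, -, -, -⟩ := exists_chZA H (V₀ := V₀) (V1 := V1) (V2 := V2)
    (ν := ![a, b, m, n, e, f]) hq
  obtain ⟨s, h3⟩ := h1.rel802
  exact ⟨V, _, _, h3, h2⟩

end Vale.Agent.P032.Six
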