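import Vale.Agent.P032.H169.KCh
import Vale.Agent.P032.H460.ContVV
import Vale.Agent.P032.H802.ChainZ

/-!
# P032: from `ChZ` to `KCh`, the sign law, no all-SWITCH chain

* `qf_delta802` : the arc of a quasi-full point in polar form about the second end;
* `conn_unique802` : the connecting pair is unique;
* `ChZ.exists_kch` : one half of a chain `ChZ` is a `KCh`;
* `sign_stay802` / `sign_switch802` : the sign law;
* `ChZ.no_switch802` : no chain with a constant outer colour (all-SWITCH).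
-/

open Set Filter Topology Metric

noncomputable section

namespace Vale.Agent.P032.Six

open Vale.Agent.P032.S5.H767 Vale.Agent.P032.H961

variable {U : Fin 6 → Set ℂ} {T : ℂ → Set (Fin 6)} {V V1 V2 : ℂ} {a b m n e f : Fin 6}

/-! ### polar form of the arc -/

theorem pt_polar802 (V : ℂ) (s u : ℝ) :
    pt V u = V + cis ((u - s) * (Real.pi / 3)) * (pt V s - V) := by
  unfold pt
  rw [add_sub_cancel_left, ← cis_add169]
  congr 2
  ring

/-- the arc of a quasi-full point -/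
theorem qf_delta802 (q : QF0 T V a b m n e f V1 V2) : ∃ δ : ℝ, δ ≠ 0 ∧ |δ| ≤ Real.pi / 3 ∧
    V1 - V = cis δ * (V2 - V) ∧ (∀ θ ∈ uIoo 0 δ, T (V + cis θ * (V2 - V)) = {a, b}) ∧
    ∀ y, dist y V = 1 → T y = {a, b} → ∃ θ ∈ uIoo 0 δ, y = V + cis θ * (V2 - V) := by
  have hpi : (0 : ℝ) < Real.pi / 3 := by positivity
  obtain ⟨s, t, h1, h2, h3, h4, h5⟩ := q.arc
  have h6 : ∀ y, dist y V = 1 → T y = {a, b} → ∃ u ∈ Ioo s t, y = pt V u := by
    intro y hy1 hy2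
    obtain ⟨u, hu, hy⟩ := h5 y hy1 (by rw [hy2]; simp) (by rw [hy2]; simp)
    have hab : a ≠ b := q.dpt.ab
    have hc2 : (T y).ncard = 2 := by rw [hy2]; exact Set.ncard_pair hab
    have hy3 : y ≠ V1 := by
      rintro rfl; rw [q.ord1] at hc2; exact absurd hc2 (by norm_num)
    have hy4 : y ≠ V2 := by
      rintro rfl; rw [q.ord2] at hc2; exact absurd hc2 (by norm_num)
    refine ⟨u, ⟨lt_of_le_of_ne hu.1 ?_, lt_of_le_of_ne hu.2 ?_⟩, hy.symm⟩
    · rintro rfl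
      rcases h3 with h3 | h3
      · exact hy4 (hy.symm.trans h3.2.symm)
      · exact hy3 (hy.symm.trans h3.1.symm)
    · rintro rfl
      rcases h3 with h3 | h3
      · exact hy3 (hy.symm.trans h3.1.symm)
      · exact hy4 (hy.symm.trans h3.2.symm)
  rcases h3 with ⟨e1, e2⟩ | ⟨e1, e2⟩
  · -- `V2` at `s`
    refine ⟨(t - s) * (Real.pi / 3), ?_, ?_, ?_, ?_, ?_⟩
    · exact (mul_pos (by linarith) hpi).ne'
    · rw [abs_of_pos (mul_pos (by linarith) hpi)]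
      nlinarith
    · rw [e1, e2, pt_polar802 V s t]; ring
    · intro θ hθ
      rw [uIoo_of_le (mul_pos (by linarith) hpi).le] at hθ
      have h7 : θ = (θ / (Real.pi / 3) + s - s) * (Real.pi / 3) := by field_simp; ring
      rw [e2, h7, ← pt_polar802]
      refine h4 _ ⟨?_, ?_⟩
      · have := div_pos hθ.1 hpi
        linarith
      · have : θ / (Real.pi / 3) < t - s := by
          rw [div_lt_iff₀ hpi]; exact hθ.2
        linarith
    · intro y hy1 hy2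
      obtain ⟨u, hu, rfl⟩ := h6 y hy1 hy2
      refine ⟨(u - s) * (Real.pi / 3), ?_, ?_⟩
      · rw [uIoo_of_le (mul_pos (by linarith) hpi).le]
        exact ⟨mul_pos (by linarith [hu.1]) hpi, mul_lt_mul_of_pos_right (by linarith [hu.2]) hpi⟩
      · rw [e2, ← pt_polar802]
  · -- `V2` at `t`
    refine ⟨(s - t) * (Real.pi / 3), ?_, ?_, ?_, ?_, ?_⟩
    · exact (mul_neg_of_neg_of_pos (by linarith) hpi).ne
    · rw [abs_of_neg (mul_neg_of_neg_of_pos (by linarith) hpi)]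
      nlinarith
    · rw [e1, e2, pt_polar802 V t s]; ring
    · intro θ hθ
      rw [uIoo_of_ge (mul_neg_of_neg_of_pos (by linarith) hpi).le] at hθ
      have h7 : θ = (θ / (Real.pi / 3) + t - t) * (Real.pi / 3) := by field_simp; ring
      rw [e2, h7, ← pt_polar802]
      refine h4 _ ⟨?_, ?_⟩
      · have : s - t < θ / (Real.pi / 3) := by
          rw [lt_div_iff₀ hpi]; exact hθ.1
        linarith
      · have := div_neg_of_neg_of_pos hθ.2 hpi
        linarith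
    · intro y hy1 hy2
      obtain ⟨u, hu, rfl⟩ := h6 y hy1 hy2
      refine ⟨(u - t) * (Real.pi / 3), ?_, ?_⟩
      · rw [uIoo_of_ge (mul_neg_of_neg_of_pos (by linarith) hpi).le]
        exact ⟨mul_lt_mul_of_pos_right (by linarith [hu.1]) hpi,
          mul_neg_of_neg_of_pos (by linarith [hu.2]) hpi⟩
      · rw [e2, ← pt_polar802]

theorem half_mem802 {δ : ℝ} (hδ : δ ≠ 0) : δ / 2 ∈ uIoo 0 δ := by
  rcases lt_or_gt_of_ne hδ with h | h
  · rw [uIoo_of_ge h.le]; exact ⟨by linarith, by linarith⟩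
  · rw [uIoo_of_le h.le]; exact ⟨by linarith, by linarith⟩

/-- **the connecting pair is unique** -/
theorem conn_unique802 {a' b' m' n' e' f' : Fin 6} {W1 W2 : ℂ}
    (q : QF0 T V a b m n e f V1 V2) (q' : QF0 T V a' b' m' n' e' f' W1 W2) :
    ({a, b} : Set (Fin 6)) = {a', b'} := by
  by_contra hne
  have hpi := Real.pi_pos
  obtain ⟨δ, d1, d2, d3, d4, -⟩ := qf_delta802 q
  obtain ⟨δ', d1', d2', d3', d4', -⟩ := qf_delta802 q'
  have n0 : V2 - V ≠ 0 := by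
    intro h0
    have := q.dist2
    rw [dist_eq_norm, h0, norm_zero] at this
    exact zero_ne_one this
  -- the ends are the same points
  have k1 : W1 = V1 ∨ W1 = V2 := q.ord W1 q'.dist1 q'.ord1.ge
  have k2 : W2 = V1 ∨ W2 = V2 := q.ord W2 q'.dist2 q'.ord2.ge
  have h12 := q'.ne12
  have hk : cis δ = cis δ' ∧ W2 = V2 ∨ cis δ * cis δ' = 1 ∧ W2 = V1 := by
    rcases k1 with rfl | rfl <;> rcases k2 with rfl | rfl
    · exact absurd rfl h12
    · left
      refine ⟨mul_right_cancel₀ n0 (d3.symm.trans d3'), rfl⟩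
    · right
      refine ⟨mul_right_cancel₀ n0 ?_, rfl⟩
      rw [one_mul, mul_comm (cis δ), mul_assoc, ← d3]
      exact d3'.symm
    · exact absurd rfl h12
  have hab : ({a, b} : Set (Fin 6)) = {a', b'} := by
    rcases hk with ⟨h1, h2⟩ | ⟨h1, h2⟩
    · have h3 : δ = δ' := by
        refine cis_inj802 h1 ?_
        rw [abs_le] at d2 d2'
        rw [abs_lt]
        constructor <;> linarith
      have h4 := d4 (δ / 2) (half_mem802 d1)
      have h5 := d4' (δ' / 2) (half_mem802 d1')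
      rw [h2, ← h3] at h5
      exact h4.symm.trans h5
    · have h3 : δ = -δ' := by
        refine cis_inj802 ?_ ?_
        · have h4 : cis (-δ') * cis δ' = 1 := by rw [← cis_add169, neg_add_cancel, cis_zero169]
          exact mul_right_cancel₀ (right_ne_zero_of_mul_eq_one h1) (h1.trans h4.symm)
        · rw [abs_le] at d2 d2'
          rw [abs_lt]
          constructor <;> linarith
      have h4 := d4 (δ / 2) (half_mem802 d1)
      have h5 := d4' (δ' / 2) (half_mem802 d1')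
      have h6 : V + cis (δ' / 2) * (W2 - V) = V + cis (δ / 2) * (V2 - V) := by
        rw [h2, d3, ← mul_assoc, ← cis_add169]
        congr 3
        rw [h3]; ring
      rw [h6] at h5
      exact h4.symm.trans h5
  exact hne hab

/-! ### the half chain -/

section chain

variable {nx : Fin 6 → Fin 6 → Fin 6} {V : ℤ → ℂ} {l : ℤ → Fin 6} {name : ℤ → Fin 6 → Fin 6}

/-- shift of a chain -/
theorem ChZ.shift (Z : ChZ nx T V l name) (k : ℤ) :
    ChZ nx T (fun j => V (j + k)) (fun j => l (j + k)) (fun j => name (j + k)) where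
  qf := fun j => by
    have h1 := Z.qf (j + k)
    rw [show j + k + 1 = j + 1 + k by ring, show j + k - 1 = j - 1 + k by ring] at h1
    exact h1
  nm := fun j r => by
    have h1 := Z.nm (j + k) r
    rw [show j + k + 1 = j + 1 + k by ring] at h1
    exact h1

/-- **one half of a chain** -/
theorem ChZ.exists_kch (Z : ChZ nx T V l name) : ∃ ρ : ℕ → ℝ,
    KCh T (fun i : ℕ => V i) ρ (fun i : ℕ => {name i 0, name i 1}) := by
  have hq : ∀ i : ℕ, ∃ δ : ℝ, δ ≠ 0 ∧ |δ| ≤ Real.pi / 3 ∧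
      V ((i + 2 : ℕ) : ℤ) - V ((i + 1 : ℕ) : ℤ) = cis δ * (V (i : ℤ) - V ((i + 1 : ℕ) : ℤ)) ∧
      (∀ θ ∈ uIoo 0 δ, T (V ((i + 1 : ℕ) : ℤ) + cis θ * (V (i : ℤ) - V ((i + 1 : ℕ) : ℤ))) =
        {name ((i + 1 : ℕ) : ℤ) 0, name ((i + 1 : ℕ) : ℤ) 1}) ∧
      ∀ y, dist y (V ((i + 1 : ℕ) : ℤ)) = 1 →
        T y = {name ((i + 1 : ℕ) : ℤ) 0, name ((i + 1 : ℕ) : ℤ) 1} →
        ∃ θ ∈ uIoo 0 δ, y = V ((i + 1 : ℕ) : ℤ) + cis θ * (V (i : ℤ) - V ((i + 1 : ℕ) : ℤ)) := by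
    intro i
    have h1 := Z.qf ((i + 1 : ℕ) : ℤ)
    have e1 : ((i + 1 : ℕ) : ℤ) + 1 = ((i + 2 : ℕ) : ℤ) := by push_cast; ring
    have e2 : ((i + 1 : ℕ) : ℤ) - 1 = (i : ℤ) := by push_cast; ring
    rw [e1, e2] at h1
    exact qf_delta802 h1.toQF0
  choose δ hδ0 hδ1 hδ2 hδ3 hδ4 using hq
  have hstep : ∀ i : ℕ, ‖V ((i + 1 : ℕ) : ℤ) - V (i : ℤ)‖ = 1 := by
    intro i
    have h1 := (Z.qf ((i + 1 : ℕ) : ℤ)).toQF0.dist2
    have e2 : ((i + 1 : ℕ) : ℤ) - 1 = (i : ℤ) := by push_cast; ring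
    rw [e2, dist_comm, dist_eq_norm] at h1
    exact h1
  obtain ⟨θ₀, hθ₀⟩ := exists_cis (u := V ((0 + 1 : ℕ) : ℤ) - V ((0 : ℕ) : ℤ)) (hstep 0)
  obtain ⟨ρ, hρ⟩ : ∃ ρ : ℕ → ℝ, ρ = fun i => θ₀ + ∑ j ∈ Finset.range i, δ j := ⟨_, rfl⟩
  have hρ0 : ρ 0 = θ₀ := by rw [hρ]; simp
  have hρs : ∀ i, ρ (i + 1) = ρ i + δ i := by
    intro i; rw [hρ]; simp only [Finset.sum_range_succ]; ring
  have hrod : ∀ i : ℕ, V ((i + 1 : ℕ) : ℤ) - V (i : ℤ) = (-1) ^ i * cis (ρ i) := by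
    intro i
    induction i with
    | zero => rw [hρ0, hθ₀]; ring
    | succ i ih =>
      have h1 : V (i : ℤ) - V ((i + 1 : ℕ) : ℤ) = -((-1) ^ i * cis (ρ i)) := by rw [← ih]; ring
      show V ((i + 2 : ℕ) : ℤ) - V ((i + 1 : ℕ) : ℤ) = _
      rw [hδ2, h1, hρs, cis_add169, pow_succ]; ring
  -- points of the arc
  have harc : ∀ (i : ℕ) (θ : ℝ), V ((i + 1 : ℕ) : ℤ) + cis θ * (V (i : ℤ) - V ((i + 1 : ℕ) : ℤ)) =
      arcPt (fun i : ℕ => V i) i (ρ i + θ) := by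
    intro i θ
    have h1 : V (i : ℤ) - V ((i + 1 : ℕ) : ℤ) = -((-1) ^ i * cis (ρ i)) := by
      rw [← hrod i]; ring
    unfold arcPt
    rw [h1, cis_add169, pow_succ]; ring
  have huI : ∀ (i : ℕ) (θ : ℝ), ρ i + θ ∈ uIoo (ρ i) (ρ (i + 1)) ↔ θ ∈ uIoo 0 (δ i) := by
    intro i θ
    rw [hρs]
    rcases le_total 0 (δ i) with h1 | h1
    · rw [uIoo_of_le h1, uIoo_of_le (by linarith)]
      constructor <;> rintro ⟨h2, h3⟩ <;> constructor <;> linarith
    · rw [uIoo_of_ge h1, uIoo_of_ge (by linarith)]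
      constructor <;> rintro ⟨h2, h3⟩ <;> constructor <;> linarith
  refine ⟨ρ, ⟨⟨?_, ?_, ?_⟩, ?_, ?_, ?_⟩⟩
  · intro i
    show V ((i + 1 : ℕ) : ℤ) = V (i : ℤ) + (-1) ^ i * cis (ρ i)
    rw [← hrod i]; ring
  · intro i
    rw [hρs, add_sub_cancel_left]; exact hδ1 i
  · intro i
    rw [hρs]
    intro h1
    exact hδ0 i (by linarith)
  · intro i θ hθ
    have h1 := hδ3 i (θ - ρ i) ((huI i _).1 (by rw [add_sub_cancel]; exact hθ))
    rw [harc, add_sub_cancel] at h1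
    exact h1
  · intro i q hq1 hq2
    obtain ⟨θ, hθ, h1⟩ := hδ4 i q hq1 hq2
    exact ⟨ρ i + θ, (huI i θ).2 hθ, by rw [h1, harc]⟩
  · intro i j hij
    have h1 := (Z.qf (i : ℤ)).toQF0
    have h2 := (Z.qf (j : ℤ)).toQF0
    have h3 : V (i : ℤ) = V (j : ℤ) := hij
    rw [h3] at h1
    exact conn_unique802 h1 h2

/-- the colour `c` on the next arc and on the vertices: absent at points on different sides of the
first and of another point of the next arc -/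
theorem kch_swept802 (h : Irr U T) {V : ℕ → ℂ} {ρ : ℕ → ℝ} {C : ℕ → Set (Fin 6)}
    (J : KCh T V ρ C) {i : ℕ} {c : Fin 6} (hc : c ∈ C (i + 2)) {θ : ℝ}
    (hθ : θ ∈ uIoo (ρ (i + 1)) (ρ (i + 2))) {x : ℂ}
    (hx : (dist (V (i + 1)) x < 1 ∧ 1 < dist (arcPt V (i + 1) θ) x) ∨
      (1 < dist (V (i + 1)) x ∧ dist (arcPt V (i + 1) θ) x < 1)) : c ∉ T x := by
  intro hcx
  have hcont : Continuous fun θ : ℝ => arcPt V (i + 1) θ := by
    have := continuous_cis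
    unfold arcPt
    fun_prop
  have hpre : IsPreconnected (arcPt V (i + 1) '' uIcc (ρ (i + 1)) (ρ (i + 2))) :=
    isPreconnected_uIcc.image _ hcont.continuousOn
  have hsub : arcPt V (i + 1) '' uIcc (ρ (i + 1)) (ρ (i + 2)) ⊆ closure (U c) := by
    have h1 : closure (uIoo (ρ (i + 1)) (ρ (i + 2))) ⊆
        (fun θ : ℝ => arcPt V (i + 1) θ) ⁻¹' {p | c ∈ T p} := by
      refine closure_minimal (fun θ hθ => ?_) ((h.closed c).preimage hcont)
      change c ∈ T (arcPt V (i + 1) θ)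
      rw [J.arc (i + 1) θ hθ]
      exact hc
    have h2 : closure (uIoo (ρ (i + 1)) (ρ (i + 2))) = uIcc (ρ (i + 1)) (ρ (i + 2)) := by
      unfold uIoo uIcc
      exact closure_Ioo (inf_lt_sup.2 (J.rods.ne (i + 1)).symm).ne
    rw [h2] at h1
    rintro _ ⟨θ, hθ, rfl⟩
    exact h.sub _ (h1 hθ)
  have m1 : V (i + 1) ∈ arcPt V (i + 1) '' uIcc (ρ (i + 1)) (ρ (i + 2)) :=
    ⟨_, left_mem_uIcc, J.rods.arc_left (i + 1)⟩
  have m2 : arcPt V (i + 1) θ ∈ arcPt V (i + 1) '' uIcc (ρ (i + 1)) (ρ (i + 2)) :=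
    ⟨θ, ⟨hθ.1.le, hθ.2.le⟩, rfl⟩
  rcases hx with ⟨h1, h2⟩ | ⟨h1, h2⟩
  · exact h.mx.wlemma hpre hsub m1 m2 h1 h2 (h.sub x hcx)
  · exact h.mx.wlemma hpre hsub m2 m1 h2 h1 (h.sub x hcx)

/-- distance of a point of an arc and a point of the next arc -/
theorem dist_arcs802 {V : ℕ → ℂ} {ρ : ℕ → ℝ} (R : Rods V ρ) (i : ℕ) (θ θ' : ℝ) :
    dist (arcPt V i θ) (arcPt V (i + 1) θ') = ‖cis θ - cis (ρ (i + 1)) + cis θ'‖ := by
  have e : arcPt V i θ - arcPt V (i + 1) θ' =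
      (-1) ^ (i + 1) * (cis θ - cis (ρ (i + 1)) + cis θ') := by
    rw [arcPt, arcPt, R.edge (i + 1), pow_succ, pow_succ]; ring
  rw [dist_eq_norm, e, norm_npow169]

theorem mid_uIoo802 {x y : ℝ} (h : y ≠ x) : (x + y) / 2 ∈ uIoo x y := by
  rcases lt_or_gt_of_ne h with h | h
  · rw [uIoo_of_ge h.le]; exact ⟨by linarith, by linarith⟩
  · rw [uIoo_of_le h.le]; exact ⟨by linarith, by linarith⟩

/-- radial points near a point of a circle, inside and outside -/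
theorem exists_radial802 {z q : ℂ} (hq : dist q z = 1) {P : ℂ → Prop} (hP : ∀ᶠ x in 𝓝 q, P x)
    (τ : ℝ) (hτ : τ = 1 ∨ τ = -1) : ∃ x, P x ∧ 0 < τ * (dist x z - 1) := by
  have hc : ContinuousAt (fun s : ℝ => z + ((1 + τ * s : ℝ) : ℂ) * (q - z)) 0 := by fun_prop
  have ht : Tendsto (fun s : ℝ => z + ((1 + τ * s : ℝ) : ℂ) * (q - z)) (𝓝[>] 0) (𝓝 q) := by
    have h1 : Tendsto (fun s : ℝ => z + ((1 + τ * s : ℝ) : ℂ) * (q - z)) (𝓝 0)
        (𝓝 ((fun s : ℝ => z + ((1 + τ * s : ℝ) : ℂ) * (q - z)) 0)) := hc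
    have h0 : (fun s : ℝ => z + ((1 + τ * s : ℝ) : ℂ) * (q - z)) 0 = q := by simp
    rw [h0] at h1
    exact h1.mono_left nhdsWithin_le_nhds
  have e1 : ∀ᶠ s : ℝ in 𝓝[>] 0, s < 1 := mem_nhdsWithin_of_mem_nhds (Iio_mem_nhds one_pos)
  obtain ⟨s, ⟨h1, h2⟩, hs⟩ := ((ht.eventually hP).and e1).and self_mem_nhdsWithin |>.exists
  have hs' : (0 : ℝ) < s := hs
  refine ⟨_, h1, ?_⟩
  have h3 : 0 < 1 + τ * s := by rcases hτ with rfl | rfl <;> linarith
  have h4 : dist (z + ((1 + τ * s : ℝ) : ℂ) * (q - z)) z = 1 + τ * s := by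
    rw [dist_eq_norm, add_sub_cancel_left, norm_mul, ← dist_eq_norm, hq, mul_one,
      Complex.norm_real, Real.norm_eq_abs, abs_of_pos h3]
  rw [h4]
  rcases hτ with rfl | rfl <;> linarith

/-- **the sign law**: `V (i + 1)` with the inner colour `a` and the outer colour `b`.  If `a` is on
the next arc, the next arc turns in the same sense; if `b` is on the next arc, in the opposite
sense. -/
theorem sign_law802 (h : Irr U T) {V : ℕ → ℂ} {ρ : ℕ → ℝ} {C : ℕ → Set (Fin 6)}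
    (J : KCh T V ρ C) {i : ℕ} {a b : Fin 6} (hab : C (i + 1) = {a, b})
    (inn : ∀ y, dist y (V (i + 1)) = 1 → T y = {a, b} →
      ∀ᶠ x in 𝓝 y, (b ∈ T x → 1 ≤ dist x (V (i + 1))) ∧ (a ∈ T x → dist x (V (i + 1)) ≤ 1)) :
    (a ∈ C (i + 2) → 0 < (ρ (i + 1) - ρ i) * (ρ (i + 2) - ρ (i + 1))) ∧
      (b ∈ C (i + 2) → (ρ (i + 1) - ρ i) * (ρ (i + 2) - ρ (i + 1)) < 0) := by
  set θ := (ρ i + ρ (i + 1)) / 2 with hθ
  set θ' := (ρ (i + 1) + ρ (i + 2)) / 2 with hθ'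
  have m : θ ∈ uIoo (ρ i) (ρ (i + 1)) := mid_uIoo802 (J.rods.ne i)
  have m' : θ' ∈ uIoo (ρ (i + 1)) (ρ (i + 2)) := mid_uIoo802 (J.rods.ne (i + 1))
  set q := arcPt V i θ with hqdef
  have hq : dist q (V (i + 1)) = 1 := Rods.dist_arc V i θ
  have hT : T q = {a, b} := by rw [hqdef, J.arc i θ m, hab]
  have l1 := J.rods.le i
  have l2 := J.rods.le (i + 1)
  have a1 : |θ - ρ (i + 1)| ≤ Real.pi / 3 := by
    rw [hθ, abs_le]
    rw [abs_le] at l1
    constructor <;> linarith [Real.pi_pos]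
  have a2 : |ρ (i + 1) - θ'| ≤ Real.pi / 3 := by
    rw [hθ', abs_le]
    have l3 : |ρ (i + 2) - ρ (i + 1)| ≤ Real.pi / 3 := l2
    rw [abs_le] at l3
    constructor <;> linarith [Real.pi_pos]
  have hprod : (θ - ρ (i + 1)) * (ρ (i + 1) - θ') =
      ((ρ (i + 1) - ρ i) * (ρ (i + 2) - ρ (i + 1))) / 4 := by
    rw [hθ, hθ']; ring
  have hne : (ρ (i + 1) - ρ i) * (ρ (i + 2) - ρ (i + 1)) ≠ 0 :=
    mul_ne_zero (sub_ne_zero.2 (J.rods.ne i)) (sub_ne_zero.2 (J.rods.ne (i + 1)))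
  constructor
  · intro ha
    by_contra hcon
    have hneg : (ρ (i + 1) - ρ i) * (ρ (i + 2) - ρ (i + 1)) < 0 :=
      lt_of_le_of_ne (not_lt.1 hcon) hne
    -- the point of the next arc is far from `q`
    have hd : 1 < dist (arcPt V (i + 1) θ') q := by
      rw [dist_comm, hqdef, dist_arcs802 J.rods]
      exact rot3_gt169 a1 a2 (by rw [hprod]; linarith)
    have e1 : ∀ᶠ x in 𝓝 q, 1 < dist (arcPt V (i + 1) θ') x :=
      (continuous_const.dist continuous_id).continuousAt.eventually (Ioi_mem_nhds hd)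
    obtain ⟨x, ⟨⟨h1, h2⟩, h3⟩, h4⟩ := exists_radial802 hq
      (((h.nhd q).and (inn q hq hT)).and e1) (-1) (Or.inr rfl)
    have h5 : dist x (V (i + 1)) < 1 := by linarith
    obtain ⟨y, hy⟩ := h.ne x
    rcases (hT ▸ h1) hy with rfl | hyb
    · exact kch_swept802 h J ha m' (Or.inl ⟨by rw [dist_comm]; exact h5, h3⟩) hy
    · rw [mem_singleton_iff] at hyb
      subst hyb
      linarith [h2.1 hy]
  · intro hb
    by_contra hcon
    have hpos : 0 < (ρ (i + 1) - ρ i) * (ρ (i + 2) - ρ (i + 1)) :=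
      lt_of_le_of_ne (not_lt.1 hcon) hne.symm
    have hd : dist (arcPt V (i + 1) θ') q < 1 := by
      rw [dist_comm, hqdef, dist_arcs802 J.rods]
      exact rot3_lt169 a1 a2 (by rw [hprod]; linarith)
    have e1 : ∀ᶠ x in 𝓝 q, dist (arcPt V (i + 1) θ') x < 1 :=
      (continuous_const.dist continuous_id).continuousAt.eventually (Iio_mem_nhds hd)
    obtain ⟨x, ⟨⟨h1, h2⟩, h3⟩, h4⟩ := exists_radial802 hq
      (((h.nhd q).and (inn q hq hT)).and e1) 1 (Or.inl rfl)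
    have h5 : 1 < dist x (V (i + 1)) := by linarith
    obtain ⟨y, hy⟩ := h.ne x
    rcases (hT ▸ h1) hy with rfl | hyb
    · linarith [h2.2 hy]
    · rw [mem_singleton_iff] at hyb
      subst hyb
      exact kch_swept802 h J hb m' (Or.inr ⟨by rw [dist_comm]; exact h5, h3⟩) hy

/-- **sign law along a chain** -/
theorem ChZ.sign802 (h : Irr U T) (Z : ChZ nx T V l name) {ρ : ℕ → ℝ}
    (J : KCh T (fun i : ℕ => V i) ρ (fun i : ℕ => {name i 0, name i 1})) (i : ℕ) :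
    (name ((i + 2 : ℕ) : ℤ) 0 = name ((i + 1 : ℕ) : ℤ) 0 →
      0 < (ρ (i + 1) - ρ i) * (ρ (i + 2) - ρ (i + 1))) ∧
    (name ((i + 2 : ℕ) : ℤ) 1 = name ((i + 1 : ℕ) : ℤ) 1 →
      (ρ (i + 1) - ρ i) * (ρ (i + 2) - ρ (i + 1)) < 0) := by
  have h1 := sign_law802 h J (i := i) (a := name ((i + 1 : ℕ) : ℤ) 0)
    (b := name ((i + 1 : ℕ) : ℤ) 1) rfl (Z.qf ((i + 1 : ℕ) : ℤ)).inn
  refine ⟨fun h2 => h1.1 ?_, fun h2 => h1.2 ?_⟩
  · show _ ∈ ({name ((i + 2 : ℕ) : ℤ) 0, name ((i + 2 : ℕ) : ℤ) 1} : Set (Fin 6))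
    rw [h2]; exact Or.inl rfl
  · show _ ∈ ({name ((i + 2 : ℕ) : ℤ) 0, name ((i + 2 : ℕ) : ℤ) 1} : Set (Fin 6))
    rw [h2]; exact Or.inr rfl

/-- **no all-SWITCH chain**: no chain with a constant outer colour -/
theorem ChZ.no_switch802 (h : Irr U T) (Z : ChZ nx T V l name)
    (hO : ∀ j, name (j + 1) 1 = name j 1)
    (hE : ∀ R : ℝ, ({z | ∃ a b c d, DPt T z a b c d} ∩ closedBall 0 R).Finite) : False := by
  obtain ⟨ρ, J⟩ := Z.exists_kch
  have hc : ∀ i : ℕ, name (i : ℤ) 1 = name 0 1 := by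
    intro i
    induction i with
    | zero => rfl
    | succ i ih =>
      have h1 := hO (i : ℤ)
      rw [← ih, ← h1]
      push_cast
      rfl
  refine J.switch h (x := name 0 1) (fun i => ?_) (fun R => ?_) (fun i => ?_)
  · show name 0 1 ∈ ({name ((i + 1 : ℕ) : ℤ) 0, name ((i + 1 : ℕ) : ℤ) 1} : Set (Fin 6))
    rw [hc (i + 1)]; exact Or.inr rfl
  · refine (hE R).subset (inter_subset_inter_left _ ?_)
    rintro _ ⟨i, rfl⟩
    exact ⟨_, _, _, _, (Z.qf (i : ℤ)).dpt⟩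
  · refine (Z.sign802 h J i).2 ?_
    rw [hc, hc]

/-- the same with the links: all links SWITCH -/
theorem ChZ.no_switchR802 (h : Irr U T) (Z : ChZ nxR802 T V l name)
    (hl : ∀ j, l j = 3 ∨ l j = 4 ∨ l j = 5)
    (hE : ∀ R : ℝ, ({z | ∃ a b c d, DPt T z a b c d} ∩ closedBall 0 R).Finite) : False := by
  refine Z.no_switch802 h (fun j => ?_) hE
  rw [Z.nm]
  rcases hl j with h1 | h1 | h1 <;> rw [h1] <;> rfl

/-- all links STAY: the inner colour is constant and all arcs turn in the same sense -/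
theorem ChZ.stayR802 (h : Irr U T) (Z : ChZ nxR802 T V l name)
    (hl : ∀ j, l j = 0 ∨ l j = 1 ∨ l j = 2) {ρ : ℕ → ℝ}
    (J : KCh T (fun i : ℕ => V i) ρ (fun i : ℕ => {name i 0, name i 1})) :
    (∀ j, name j 0 = name 0 0) ∧
      ∀ i : ℕ, 0 < (ρ (i + 1) - ρ i) * (ρ (i + 2) - ρ (i + 1)) := by
  have h0 : ∀ j, name (j + 1) 0 = name j 0 := by
    intro j
    rw [Z.nm]
    rcases hl j with h1 | h1 | h1 <;> rw [h1] <;> rfl
  refine ⟨fun j => ?_, fun i => (Z.sign802 h J i).1 ?_⟩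
  · induction j using Int.induction_on with
    | zero => rfl
    | succ j ih => rw [h0, ih]
    | pred j ih =>
      have h1 := h0 (-(j : ℤ) - 1)
      rw [sub_add_cancel] at h1
      rw [← h1, ih]
  · have h1 := h0 ((i + 1 : ℕ) : ℤ)
    rw [← h1]
    push_cast
    congr 1

end chain

end Vale.Agent.P032.Six
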