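import Vale.Agent.P032.H961.World
import Vale.Agent.P032.H802.KOf

/-!
# P032: the chain of quasi-full points, world with invisible points

`ChainZ.lean` and `KOf.lean` over the vertex type `QI` and the world `QIW` of H961.
-/

open Set Filter Topology Metric

noncomputable section

namespace Vale.Agent.P032.Six

open Vale.Agent.P032.S5.H767 Vale.Agent.P032.H961

section

variable {T : ℂ → Set (Fin 6)} {Inv : ℂ → ℂ → Prop} {V V1 V2 : ℂ} {a b m n e f : Fin 6}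

/-- the vertex `V` in the names `ν` -/
abbrev QIN802 (T : ℂ → Set (Fin 6)) (Inv : ℂ → ℂ → Prop) (V : ℂ) (ν : Fin 6 → Fin 6) (V1 V2 : ℂ) : Prop :=
  QI T Inv V (ν 0) (ν 1) (ν 2) (ν 3) (ν 4) (ν 5) V1 V2

/-- **next vertex**: the six links -/
theorem nextI802 (H : QIW T Inv) {ν : Fin 6 → Fin 6} (h : QIN802 T Inv V ν V1 V2) :
    ∃ (l : Fin 6) (W : ℂ), QIN802 T Inv V1 (fun r => ν (nxA802 l r)) W V := by
  obtain ⟨g, e', f', W, h1 | h1⟩ := H.link h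
  · rcases rest802 h.nd h1.nd with ⟨rfl, h2⟩ | ⟨rfl, h2⟩ | ⟨rfl, h2⟩
    · refine ⟨0, W, ?_⟩
      show QI T Inv V1 (ν 0) (ν 2) (ν 3) (ν 1) (ν 4) (ν 5) W V
      rcases h2 with ⟨rfl, rfl⟩ | ⟨rfl, rfl⟩
      · exact h1
      · exact h1.swapEF
    · refine ⟨1, W, ?_⟩
      show QI T Inv V1 (ν 0) (ν 2) (ν 4) (ν 1) (ν 3) (ν 5) W V
      rcases h2 with ⟨rfl, rfl⟩ | ⟨rfl, rfl⟩
      · exact h1
      · exact h1.swapEF
    · refine ⟨2, W, ?_⟩
      show QI T Inv V1 (ν 0) (ν 2) (ν 5) (ν 1) (ν 4) (ν 3) W V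
      rcases h2 with ⟨rfl, rfl⟩ | ⟨rfl, rfl⟩
      · exact h1.swapEF
      · exact h1
  · have nd1 : [ν 1, ν 0, ν 3, ν 2, ν 4, ν 5].Nodup := by
      have := h.nd
      refine (List.Perm.nodup_iff ?_).1 this
      refine (List.Perm.swap (ν 1) (ν 0) _).trans ?_
      exact ((List.Perm.swap (ν 3) (ν 2) [ν 4, ν 5]).cons (ν 0)).cons (ν 1)
    have nd2 : [ν 1, ν 3, g, ν 0, e', f'].Nodup := by
      have := h1.nd
      refine (List.Perm.nodup_iff ?_).1 this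
      refine (List.Perm.swap (ν 1) (ν 3) _).trans ?_
      exact ((List.Perm.swap g (ν 0) [e', f']).cons (ν 3)).cons (ν 1)
    rcases rest802 nd1 nd2 with ⟨rfl, h2⟩ | ⟨rfl, h2⟩ | ⟨rfl, h2⟩
    · refine ⟨3, W, ?_⟩
      show QI T Inv V1 (ν 3) (ν 1) (ν 0) (ν 2) (ν 4) (ν 5) W V
      rcases h2 with ⟨rfl, rfl⟩ | ⟨rfl, rfl⟩
      · exact h1
      · exact h1.swapEF
    · refine ⟨4, W, ?_⟩
      show QI T Inv V1 (ν 3) (ν 1) (ν 0) (ν 4) (ν 2) (ν 5) W V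
      rcases h2 with ⟨rfl, rfl⟩ | ⟨rfl, rfl⟩
      · exact h1
      · exact h1.swapEF
    · refine ⟨5, W, ?_⟩
      show QI T Inv V1 (ν 3) (ν 1) (ν 0) (ν 5) (ν 4) (ν 2) W V
      rcases h2 with ⟨rfl, rfl⟩ | ⟨rfl, rfl⟩
      · exact h1.swapEF
      · exact h1

/-- **previous vertex** -/
theorem prevI802 (H : QIW T Inv) {ν : Fin 6 → Fin 6} (h : QIN802 T Inv V ν V1 V2) :
    ∃ (l : Fin 6) (W : ℂ) (μ : Fin 6 → Fin 6), QIN802 T Inv V2 μ V W ∧ ∀ r, ν r = μ (nxA802 l r) := by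
  obtain ⟨g, e', f', W, h1 | h1⟩ := H.link h.mirror
  · have nd1 : [ν 0, ν 1, ν 3, ν 2, ν 4, ν 5].Nodup := h.mirror.nd
    rcases rest802 nd1 h1.nd with ⟨rfl, h2⟩ | ⟨rfl, h2⟩ | ⟨rfl, h2⟩
    · refine ⟨0, W, ![ν 0, ν 3, ν 1, ν 2, ν 4, ν 5], ?_, ?_⟩
      · show QI T Inv V2 (ν 0) (ν 3) (ν 1) (ν 2) (ν 4) (ν 5) V W
        rcases h2 with ⟨rfl, rfl⟩ | ⟨rfl, rfl⟩
        · exact h1.mirror
        · exact h1.mirror.swapEF
      · intro r; fin_cases r <;> rfl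
    · -- the dropped colour of `V2` is `e`
      refine ⟨1, W, ![ν 0, ν 3, ν 1, ν 4, ν 2, ν 5], ?_, ?_⟩
      · show QI T Inv V2 (ν 0) (ν 3) (ν 1) (ν 4) (ν 2) (ν 5) V W
        rcases h2 with ⟨rfl, rfl⟩ | ⟨rfl, rfl⟩
        · exact h1.mirror
        · exact h1.mirror.swapEF
      · intro r; fin_cases r <;> rfl
    · refine ⟨2, W, ![ν 0, ν 3, ν 1, ν 5, ν 4, ν 2], ?_, ?_⟩
      · show QI T Inv V2 (ν 0) (ν 3) (ν 1) (ν 5) (ν 4) (ν 2) V W
        rcases h2 with ⟨rfl, rfl⟩ | ⟨rfl, rfl⟩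
        · exact h1.mirror.swapEF
        · exact h1.mirror
      · intro r; fin_cases r <;> rfl
  · -- `QI T Inv V2 (ν 2) (ν 1) (ν 0) g e' f' W V`
    have nd1 : [ν 1, ν 0, ν 2, ν 3, ν 4, ν 5].Nodup := by
      have := h.nd
      refine (List.Perm.nodup_iff ?_).1 this
      exact List.Perm.swap (ν 1) (ν 0) _
    have nd2 : [ν 1, ν 2, g, ν 0, e', f'].Nodup := by
      have := h1.nd
      refine (List.Perm.nodup_iff ?_).1 this
      refine (List.Perm.swap (ν 1) (ν 2) _).trans ?_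
      exact ((List.Perm.swap g (ν 0) [e', f']).cons (ν 2)).cons (ν 1)
    rcases rest802 nd1 nd2 with ⟨rfl, h2⟩ | ⟨rfl, h2⟩ | ⟨rfl, h2⟩
    · refine ⟨3, W, ![ν 2, ν 1, ν 3, ν 0, ν 4, ν 5], ?_, ?_⟩
      · show QI T Inv V2 (ν 2) (ν 1) (ν 3) (ν 0) (ν 4) (ν 5) V W
        rcases h2 with ⟨rfl, rfl⟩ | ⟨rfl, rfl⟩
        · exact h1.mirror
        · exact h1.mirror.swapEF
      · intro r; fin_cases r <;> rfl
    · refine ⟨4, W, ![ν 2, ν 1, ν 4, ν 0, ν 3, ν 5], ?_, ?_⟩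
      · show QI T Inv V2 (ν 2) (ν 1) (ν 4) (ν 0) (ν 3) (ν 5) V W
        rcases h2 with ⟨rfl, rfl⟩ | ⟨rfl, rfl⟩
        · exact h1.mirror
        · exact h1.mirror.swapEF
      · intro r; fin_cases r <;> rfl
    · refine ⟨5, W, ![ν 2, ν 1, ν 5, ν 0, ν 4, ν 3], ?_, ?_⟩
      · show QI T Inv V2 (ν 2) (ν 1) (ν 5) (ν 0) (ν 4) (ν 3) V W
        rcases h2 with ⟨rfl, rfl⟩ | ⟨rfl, rfl⟩
        · exact h1.mirror.swapEF
        · exact h1.mirror
      · intro r; fin_cases r <;> rfl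

end

/-- **the chain**: vertices, links and names; `nx` the table of the roles of the next vertex -/
structure ChI (nx : Fin 6 → Fin 6 → Fin 6) (T : ℂ → Set (Fin 6)) (Inv : ℂ → ℂ → Prop) (V : ℤ → ℂ) (l : ℤ → Fin 6)
    (name : ℤ → Fin 6 → Fin 6) : Prop where
  qf : ∀ j, QI T Inv (V j) (name j 0) (name j 1) (name j 2) (name j 3) (name j 4) (name j 5)
    (V (j + 1)) (V (j - 1))
  nm : ∀ j r, name (j + 1) r = name j (nx (l j) r)

/-- **existence of the chain**, absolute names -/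
theorem exists_chIA {T : ℂ → Set (Fin 6)} {Inv : ℂ → ℂ → Prop} (H : QIW T Inv) {V₀ V1 V2 : ℂ} {ν : Fin 6 → Fin 6}
    (h : QIN802 T Inv V₀ ν V1 V2) :
    ∃ V l name, ChI nxA802 T Inv V l name ∧ V 0 = V₀ ∧ V 1 = V1 ∧ V (-1) = V2 ∧ name 0 = ν := by
  obtain ⟨F, h0, hP, hR⟩ := exists_int_chain802
    (S := ℂ × ℂ × ℂ × (Fin 6 → Fin 6))
    (P := fun s => QIN802 T Inv s.1 s.2.2.2 s.2.1 s.2.2.1)
    (R := fun s s' => s'.1 = s.2.1 ∧ s'.2.2.1 = s.1 ∧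
      ∃ l : Fin 6, ∀ r, s'.2.2.2 r = s.2.2.2 (nxA802 l r))
    (by
      rintro ⟨V, V1, V2, ν⟩ hs
      obtain ⟨l, W, h1⟩ := nextI802 H hs
      exact ⟨(V1, W, V, fun r => ν (nxA802 l r)), h1, rfl, rfl, l, fun r => rfl⟩)
    (by
      rintro ⟨V, V1, V2, ν⟩ hs
      obtain ⟨l, W, μ, h1, h2⟩ := prevI802 H hs
      exact ⟨(V2, V, W, μ), h1, rfl, rfl, l, h2⟩)
    (V₀, V1, V2, ν) h
  choose h1 h2 l hl using hR
  refine ⟨fun j => (F j).1, l, fun j => (F j).2.2.2, ⟨?_, hl⟩, by show (F 0).1 = V₀; rw [h0],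
    ?_, ?_, by show (F 0).2.2.2 = ν; rw [h0]⟩
  · intro j
    have h3 := hP j
    have h4 : (F (j + 1)).1 = (F j).2.1 := h1 j
    have h5 : (F (j - 1)).1 = (F j).2.2.1 := by
      have := h2 (j - 1)
      rw [sub_add_cancel] at this
      exact this.symm
    rw [h4, h5]
    exact h3
  · have := h1 0
    rw [h0] at this
    exact this
  · have := h2 (-1)
    rw [show (-1 : ℤ) + 1 = 0 by norm_num, h0] at this
    exact this.symm

/-! ### relative names -/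

/-- **the chain in relative names** -/
theorem ChI.rel802 {T : ℂ → Set (Fin 6)} {Inv : ℂ → ℂ → Prop} {V : ℤ → ℂ} {l : ℤ → Fin 6} {name : ℤ → Fin 6 → Fin 6}
    (h : ChI nxA802 T Inv V l name) : ∃ s : ℤ → Bool,
      ChI nxR802 T Inv V (fun j => swl802 (s j) (l j)) (fun j r => name j (sw802 (s j) r)) := by
  obtain ⟨s, hs⟩ := exists_sw802 l
  refine ⟨s, ⟨fun j => ?_, fun j r => ?_⟩⟩
  · have h1 := h.qf j
    cases hsj : s j
    · exact h1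
    · exact h1.swapEF
  · show name (j + 1) (sw802 (s (j + 1)) r) = name j (sw802 (s j) (nxR802 (swl802 (s j) (l j)) r))
    rw [h.nm, hs, ← nx_sw802, sw_sw802]

/-- **existence of the chain**, relative names -/
theorem exists_chIR {T : ℂ → Set (Fin 6)} {Inv : ℂ → ℂ → Prop} (H : QIW T Inv) {V₀ : ℂ}
    {a b c d : Fin 6} (hV : DPt T V₀ a b c d) :
    ∃ V l name, ChI nxR802 T Inv V l name ∧ V 0 = V₀ := by
  obtain ⟨a, b, m, n, e, f, V1, V2, hq⟩ := H.qf hV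
  obtain ⟨V, l, name, h1, h2, -, -, -⟩ := exists_chIA H (V₀ := V₀) (V1 := V1) (V2 := V2)
    (ν := ![a, b, m, n, e, f]) hq
  obtain ⟨s, h3⟩ := h1.rel802
  exact ⟨V, _, _, h3, h2⟩

/-- a chain of `QF`'s is a chain of `QI`'s -/
theorem ChZ.toChI {nx : Fin 6 → Fin 6 → Fin 6} {T : ℂ → Set (Fin 6)} {Inv : ℂ → ℂ → Prop}
    {V : ℤ → ℂ} {l : ℤ → Fin 6} {name : ℤ → Fin 6 → Fin 6} (h : ChZ nx T V l name) :
    ChI nx T Inv V l name :=
  ⟨fun j => (h.qf j).toQI, h.nm⟩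

/-! ### half chains -/

/-- the arc of a quasi-full point -/
theorem qi_delta802 {T : ℂ → Set (Fin 6)} {Inv : ℂ → ℂ → Prop} {V V1 V2 : ℂ} {a b m n e f : Fin 6}
    (q : QI0 T Inv V a b m n e f V1 V2) : ∃ δ : ℝ, δ ≠ 0 ∧ |δ| ≤ Real.pi / 3 ∧
    V1 - V = cis δ * (V2 - V) ∧ (∀ θ ∈ uIoo 0 δ, T (V + cis θ * (V2 - V)) = {a, b}) ∧
    ∀ y, dist y V = 1 → T y = {a, b} → ∃ θ ∈ uIoo 0 δ, y = V + cis θ * (V2 - V) := by
  have hpi : (0 : ℝ) < Real.pi / 3 := by positivity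
  obtain ⟨s, t, h1, h2, h3, h4, h5⟩ := q.arc
  have h6 : ∀ y, dist y V = 1 → T y = {a, b} → ∃ u ∈ Ioo s t, y = pt V u := by
    intro y hy1 hy2
    obtain ⟨u, hu, hy⟩ := h5 y hy1 hy2
    have hab : a ≠ b := q.dpt.ab
    have hc2 : (T y).ncard = 2 := by rw [hy2]; exact Set.ncard_pair hab
    have hy3 : y ≠ V1 := by
      rintro rfl; rw [q.ord1] at hc2; exact absurd hc2 (by norm_num)
    have hy4 : y ≠ V2 := by
      rintro rfl; rw [q.ord2] at hc2; exact absurd hc2 (by norm_num)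
    refine ⟨u, ⟨lt_of_le_of_ne hu.1 ?_, lt_of_le_of_ne hu.2 ?_⟩, hy.symm⟩
    · rintro rfl
      rcases h3 with h3 | h3
      · exact hy4 (hy.symm.trans h3.2.symm)
      · exact hy3 (hy.symm.trans h3.1.symm)
    · rintro rfl
      rcases h3 with h3 | h3
      · exact hy3 (hy.symm.trans h3.1.symm)
      · exact hy4 (hy.symm.trans h3.2.symm)
  rcases h3 with ⟨e1, e2⟩ | ⟨e1, e2⟩
  · -- `V2` at `s`
    refine ⟨(t - s) * (Real.pi / 3), ?_, ?_, ?_, ?_, ?_⟩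
    · exact (mul_pos (by linarith) hpi).ne'
    · rw [abs_of_pos (mul_pos (by linarith) hpi)]
      nlinarith
    · rw [e1, e2, pt_polar802 V s t]; ring
    · intro θ hθ
      rw [uIoo_of_le (mul_pos (by linarith) hpi).le] at hθ
      have h7 : θ = (θ / (Real.pi / 3) + s - s) * (Real.pi / 3) := by field_simp; ring
      rw [e2, h7, ← pt_polar802]
      refine h4 _ ⟨?_, ?_⟩
      · have := div_pos hθ.1 hpi
        linarith
      · have : θ / (Real.pi / 3) < t - s := by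
          rw [div_lt_iff₀ hpi]; exact hθ.2
        linarith
    · intro y hy1 hy2
      obtain ⟨u, hu, rfl⟩ := h6 y hy1 hy2
      refine ⟨(u - s) * (Real.pi / 3), ?_, ?_⟩
      · rw [uIoo_of_le (mul_pos (by linarith) hpi).le]
        exact ⟨mul_pos (by linarith [hu.1]) hpi, mul_lt_mul_of_pos_right (by linarith [hu.2]) hpi⟩
      · rw [e2, ← pt_polar802]
  · -- `V2` at `t`
    refine ⟨(s - t) * (Real.pi / 3), ?_, ?_, ?_, ?_, ?_⟩
    · exact (mul_neg_of_neg_of_pos (by linarith) hpi).ne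
    · rw [abs_of_neg (mul_neg_of_neg_of_pos (by linarith) hpi)]
      nlinarith
    · rw [e1, e2, pt_polar802 V t s]; ring
    · intro θ hθ
      rw [uIoo_of_ge (mul_neg_of_neg_of_pos (by linarith) hpi).le] at hθ
      have h7 : θ = (θ / (Real.pi / 3) + t - t) * (Real.pi / 3) := by field_simp; ring
      rw [e2, h7, ← pt_polar802]
      refine h4 _ ⟨?_, ?_⟩
      · have : s - t < θ / (Real.pi / 3) := by
          rw [lt_div_iff₀ hpi]; exact hθ.1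
        linarith
      · have := div_neg_of_neg_of_pos hθ.2 hpi
        linarith
    · intro y hy1 hy2
      obtain ⟨u, hu, rfl⟩ := h6 y hy1 hy2
      refine ⟨(u - t) * (Real.pi / 3), ?_, ?_⟩
      · rw [uIoo_of_ge (mul_neg_of_neg_of_pos (by linarith) hpi).le]
        exact ⟨mul_lt_mul_of_pos_right (by linarith [hu.1]) hpi,
          mul_neg_of_neg_of_pos (by linarith [hu.2]) hpi⟩
      · rw [e2, ← pt_polar802]

section chain

variable {U : Fin 6 → Set ℂ} {T : ℂ → Set (Fin 6)} {Inv : ℂ → ℂ → Prop}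
  {nx : Fin 6 → Fin 6 → Fin 6} {V : ℤ → ℂ} {l : ℤ → Fin 6} {name : ℤ → Fin 6 → Fin 6}

/-- shift of a chain -/
theorem ChI.shift (Z : ChI nx T Inv V l name) (k : ℤ) :
    ChI nx T Inv (fun j => V (j + k)) (fun j => l (j + k)) (fun j => name (j + k)) where
  qf := fun j => by
    have h1 := Z.qf (j + k)
    rw [show j + k + 1 = j + 1 + k by ring, show j + k - 1 = j - 1 + k by ring] at h1
    exact h1
  nm := fun j r => by
    have h1 := Z.nm (j + k) r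
    rw [show j + k + 1 = j + 1 + k by ring] at h1
    exact h1

/-- **one half of a chain** -/
theorem ChI.exists_kch (h : Irr U T) (hw : QIW T Inv) (Z : ChI nx T Inv V l name) : ∃ ρ : ℕ → ℝ,
    KCh T (fun i : ℕ => V i) ρ (fun i : ℕ => {name i 0, name i 1}) := by
  have hq : ∀ i : ℕ, ∃ δ : ℝ, δ ≠ 0 ∧ |δ| ≤ Real.pi / 3 ∧
      V ((i + 2 : ℕ) : ℤ) - V ((i + 1 : ℕ) : ℤ) = cis δ * (V (i : ℤ) - V ((i + 1 : ℕ) : ℤ)) ∧
      (∀ θ ∈ uIoo 0 δ, T (V ((i + 1 : ℕ) : ℤ) + cis θ * (V (i : ℤ) - V ((i + 1 : ℕ) : ℤ))) =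
        {name ((i + 1 : ℕ) : ℤ) 0, name ((i + 1 : ℕ) : ℤ) 1}) ∧
      ∀ y, dist y (V ((i + 1 : ℕ) : ℤ)) = 1 →
        T y = {name ((i + 1 : ℕ) : ℤ) 0, name ((i + 1 : ℕ) : ℤ) 1} →
        ∃ θ ∈ uIoo 0 δ, y = V ((i + 1 : ℕ) : ℤ) + cis θ * (V (i : ℤ) - V ((i + 1 : ℕ) : ℤ)) := by
    intro i
    have h1 := Z.qf ((i + 1 : ℕ) : ℤ)
    have e1 : ((i + 1 : ℕ) : ℤ) + 1 = ((i + 2 : ℕ) : ℤ) := by push_cast; ring
    have e2 : ((i + 1 : ℕ) : ℤ) - 1 = (i : ℤ) := by push_cast; ring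
    rw [e1, e2] at h1
    exact qi_delta802 h1.toQI0
  choose δ hδ0 hδ1 hδ2 hδ3 hδ4 using hq
  have hstep : ∀ i : ℕ, ‖V ((i + 1 : ℕ) : ℤ) - V (i : ℤ)‖ = 1 := by
    intro i
    have h1 := (Z.qf ((i + 1 : ℕ) : ℤ)).toQI0.dist2
    have e2 : ((i + 1 : ℕ) : ℤ) - 1 = (i : ℤ) := by push_cast; ring
    rw [e2, dist_comm, dist_eq_norm] at h1
    exact h1
  obtain ⟨θ₀, hθ₀⟩ := exists_cis (u := V ((0 + 1 : ℕ) : ℤ) - V ((0 : ℕ) : ℤ)) (hstep 0)
  obtain ⟨ρ, hρ⟩ : ∃ ρ : ℕ → ℝ, ρ = fun i => θ₀ + ∑ j ∈ Finset.range i, δ j := ⟨_, rfl⟩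
  have hρ0 : ρ 0 = θ₀ := by rw [hρ]; simp
  have hρs : ∀ i, ρ (i + 1) = ρ i + δ i := by
    intro i; rw [hρ]; simp only [Finset.sum_range_succ]; ring
  have hrod : ∀ i : ℕ, V ((i + 1 : ℕ) : ℤ) - V (i : ℤ) = (-1) ^ i * cis (ρ i) := by
    intro i
    induction i with
    | zero => rw [hρ0, hθ₀]; ring
    | succ i ih =>
      have h1 : V (i : ℤ) - V ((i + 1 : ℕ) : ℤ) = -((-1) ^ i * cis (ρ i)) := by rw [← ih]; ring
      show V ((i + 2 : ℕ) : ℤ) - V ((i + 1 : ℕ) : ℤ) = _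
      rw [hδ2, h1, hρs, cis_add169, pow_succ]; ring
  -- points of the arc
  have harc : ∀ (i : ℕ) (θ : ℝ), V ((i + 1 : ℕ) : ℤ) + cis θ * (V (i : ℤ) - V ((i + 1 : ℕ) : ℤ)) =
      arcPt (fun i : ℕ => V i) i (ρ i + θ) := by
    intro i θ
    have h1 : V (i : ℤ) - V ((i + 1 : ℕ) : ℤ) = -((-1) ^ i * cis (ρ i)) := by
      rw [← hrod i]; ring
    unfold arcPt
    rw [h1, cis_add169, pow_succ]; ring
  have huI : ∀ (i : ℕ) (θ : ℝ), ρ i + θ ∈ uIoo (ρ i) (ρ (i + 1)) ↔ θ ∈ uIoo 0 (δ i) := by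
    intro i θ
    rw [hρs]
    rcases le_total 0 (δ i) with h1 | h1
    · rw [uIoo_of_le h1, uIoo_of_le (by linarith)]
      constructor <;> rintro ⟨h2, h3⟩ <;> constructor <;> linarith
    · rw [uIoo_of_ge h1, uIoo_of_ge (by linarith)]
      constructor <;> rintro ⟨h2, h3⟩ <;> constructor <;> linarith
  refine ⟨ρ, ⟨⟨?_, ?_, ?_⟩, ?_, ?_, ?_⟩⟩
  · intro i
    show V ((i + 1 : ℕ) : ℤ) = V (i : ℤ) + (-1) ^ i * cis (ρ i)
    rw [← hrod i]; ring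
  · intro i
    rw [hρs, add_sub_cancel_left]; exact hδ1 i
  · intro i
    rw [hρs]
    intro h1
    exact hδ0 i (by linarith)
  · intro i θ hθ
    have h1 := hδ3 i (θ - ρ i) ((huI i _).1 (by rw [add_sub_cancel]; exact hθ))
    rw [harc, add_sub_cancel] at h1
    exact h1
  · intro i q hq1 hq2
    obtain ⟨θ, hθ, h1⟩ := hδ4 i q hq1 hq2
    exact ⟨ρ i + θ, (huI i θ).2 hθ, by rw [h1, harc]⟩
  · intro i j hij
    have h1 := Z.qf (i : ℤ)
    have h2 := Z.qf (j : ℤ)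
    have h3 : V (i : ℤ) = V (j : ℤ) := hij
    rw [h3] at h1
    exact hw.pair_unique h h2 h1

/-- **sign law along a chain** -/
theorem ChI.sign802 (h : Irr U T) (Z : ChI nx T Inv V l name) {ρ : ℕ → ℝ}
    (J : KCh T (fun i : ℕ => V i) ρ (fun i : ℕ => {name i 0, name i 1})) (i : ℕ) :
    (name ((i + 2 : ℕ) : ℤ) 0 = name ((i + 1 : ℕ) : ℤ) 0 →
      0 < (ρ (i + 1) - ρ i) * (ρ (i + 2) - ρ (i + 1))) ∧
    (name ((i + 2 : ℕ) : ℤ) 1 = name ((i + 1 : ℕ) : ℤ) 1 →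
      (ρ (i + 1) - ρ i) * (ρ (i + 2) - ρ (i + 1)) < 0) := by
  have h1 := sign_law802 h J (i := i) (a := name ((i + 1 : ℕ) : ℤ) 0)
    (b := name ((i + 1 : ℕ) : ℤ) 1) rfl (Z.qf ((i + 1 : ℕ) : ℤ)).inn
  refine ⟨fun h2 => h1.1 ?_, fun h2 => h1.2 ?_⟩
  · show _ ∈ ({name ((i + 2 : ℕ) : ℤ) 0, name ((i + 2 : ℕ) : ℤ) 1} : Set (Fin 6))
    rw [h2]; exact Or.inl rfl
  · show _ ∈ ({name ((i + 2 : ℕ) : ℤ) 0, name ((i + 2 : ℕ) : ℤ) 1} : Set (Fin 6))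
    rw [h2]; exact Or.inr rfl

/-- **no all-SWITCH chain**: no chain with a constant outer colour -/
theorem ChI.no_switch802 (h : Irr U T) (hw : QIW T Inv) (Z : ChI nx T Inv V l name)
    (hO : ∀ j, name (j + 1) 1 = name j 1)
    (hE : ∀ R : ℝ, ({z | ∃ a b c d, DPt T z a b c d} ∩ closedBall 0 R).Finite) : False := by
  obtain ⟨ρ, J⟩ := Z.exists_kch h hw
  have hc : ∀ i : ℕ, name (i : ℤ) 1 = name 0 1 := by
    intro i
    induction i with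
    | zero => rfl
    | succ i ih =>
      have h1 := hO (i : ℤ)
      rw [← ih, ← h1]
      push_cast
      rfl
  refine J.switch h (x := name 0 1) (fun i => ?_) (fun R => ?_) (fun i => ?_)
  · show name 0 1 ∈ ({name ((i + 1 : ℕ) : ℤ) 0, name ((i + 1 : ℕ) : ℤ) 1} : Set (Fin 6))
    rw [hc (i + 1)]; exact Or.inr rfl
  · refine (hE R).subset (inter_subset_inter_left _ ?_)
    rintro _ ⟨i, rfl⟩
    exact ⟨_, _, _, _, (Z.qf (i : ℤ)).dpt⟩
  · refine (Z.sign802 h J i).2 ?_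
    rw [hc, hc]

/-- the same with the links: all links SWITCH -/
theorem ChI.no_switchR802 (h : Irr U T) (hw : QIW T Inv) (Z : ChI nxR802 T Inv V l name)
    (hl : ∀ j, l j = 3 ∨ l j = 4 ∨ l j = 5)
    (hE : ∀ R : ℝ, ({z | ∃ a b c d, DPt T z a b c d} ∩ closedBall 0 R).Finite) : False := by
  refine Z.no_switch802 h hw (fun j => ?_) hE
  rw [Z.nm]
  rcases hl j with h1 | h1 | h1 <;> rw [h1] <;> rfl

/-- all links STAY: the inner colour is constant and all arcs turn in the same sense -/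
theorem ChI.stayR802 (h : Irr U T) (Z : ChI nxR802 T Inv V l name)
    (hl : ∀ j, l j = 0 ∨ l j = 1 ∨ l j = 2) {ρ : ℕ → ℝ}
    (J : KCh T (fun i : ℕ => V i) ρ (fun i : ℕ => {name i 0, name i 1})) :
    (∀ j, name j 0 = name 0 0) ∧
      ∀ i : ℕ, 0 < (ρ (i + 1) - ρ i) * (ρ (i + 2) - ρ (i + 1)) := by
  have h0 : ∀ j, name (j + 1) 0 = name j 0 := by
    intro j
    rw [Z.nm]
    rcases hl j with h1 | h1 | h1 <;> rw [h1] <;> rfl
  refine ⟨fun j => ?_, fun i => (Z.sign802 h J i).1 ?_⟩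
  · induction j using Int.induction_on with
    | zero => rfl
    | succ j ih => rw [h0, ih]
    | pred j ih =>
      have h1 := h0 (-(j : ℤ) - 1)
      rw [sub_add_cancel] at h1
      rw [← h1, ih]
  · have h1 := h0 ((i + 1 : ℕ) : ℤ)
    rw [← h1]
    push_cast
    congr 1

end chain

end Vale.Agent.P032.Six
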