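import Vale.Agent.P032.H703.Geo
import Vale.Agent.P032.H383.Far2
import Vale.Agent.P032.S5.H80.Ray

/-!
# P032: the arc of a quasi-full vertex is shorter than 60 degrees

`Irr.no_tri802`: `z, y, p` a unit triangle, `q` a point of `S(z)` between `y` and `p` with
`T q ⊆ {a, b}`, the colour `a` on the arc of `S(y)` from `z` to `p`, the colour `b` on the arc of
`S(p)` from `z` to `y`: impossible (both colours are swept away outside `D(z)` near `q`).
-/

open Set Filter Topology Metric

noncomputable section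

namespace Vale.Agent.P032.Six

open Vale.Agent.P032.S5.H767 Vale.Agent.P032.H703

variable {k : ℕ} {U : Fin k → Set ℂ} {T : ℂ → Set (Fin k)}

/-- a colour on the arc of `S(y)` between `z` and `p` is absent outside `D(z)` near the points of
the arc of `S(z)` between `y` and `p` -/
theorem Irr.arc_swept802 (h : Irr U T) {z y p x : ℂ} {i : Fin k} (hyz : dist y z = 1)
    (hpz : dist p z = 1) (hyp : dist y p = 1)
    (hA : ∀ r, dist r y = 1 → dist r z ≤ 1 → dist r p ≤ 1 → i ∈ T r)
    (hxz : 1 < dist z x) (hxp : dist p x < 1) : i ∉ T x := by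
  have key : ∀ s t : ℝ, z = pt y s → p = pt y t → |s - t| = 1 → i ∉ T x := by
    intro s t hz hp hst hi
    refine h.mx.swept (z := y) (t1 := t * (Real.pi / 3)) (t2 := s * (Real.pi / 3)) (w := x)
      (i := i) ?_ ?_ ?_ (h.sub x hi)
    · intro r hr
      have hpi : (0 : ℝ) < Real.pi / 3 := by positivity
      obtain ⟨r', rfl⟩ : ∃ r' : ℝ, r = r' * (Real.pi / 3) := ⟨r / (Real.pi / 3), by field_simp⟩
      have hr' : r' ∈ uIcc t s := by
        rcases le_total t s with hts | hts
        · rw [uIcc_of_le hts]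
          rw [uIcc_of_le (mul_le_mul_of_nonneg_right hts hpi.le)] at hr
          exact ⟨le_of_mul_le_mul_right hr.1 hpi, le_of_mul_le_mul_right hr.2 hpi⟩
        · rw [uIcc_of_ge hts]
          rw [uIcc_of_ge (mul_le_mul_of_nonneg_right hts hpi.le)] at hr
          exact ⟨le_of_mul_le_mul_right hr.1 hpi, le_of_mul_le_mul_right hr.2 hpi⟩
      have h1 : |r' - s| ≤ 1 ∧ |r' - t| ≤ 1 := by
        rcases le_total t s with hts | hts
        · rw [uIcc_of_le hts] at hr'
          rw [abs_of_nonneg (by linarith)] at hst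
          constructor
          · rw [abs_le]; constructor <;> linarith [hr'.1, hr'.2]
          · rw [abs_le]; constructor <;> linarith [hr'.1, hr'.2]
        · rw [uIcc_of_ge hts] at hr'
          rw [abs_of_nonpos (by linarith)] at hst
          constructor
          · rw [abs_le]; constructor <;> linarith [hr'.1, hr'.2]
          · rw [abs_le]; constructor <;> linarith [hr'.1, hr'.2]
      refine h.sub _ (hA _ (dist_pt y r') ?_ ?_)
      · rw [hz]; exact H383.dist_pt_le y h1.1
      · rw [hp]; exact H383.dist_pt_le y h1.2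
    · have : y + cis (t * (Real.pi / 3)) = p := hp.symm
      rw [this]; exact hxp
    · have : y + cis (s * (Real.pi / 3)) = z := hz.symm
      rw [this]; exact hxz
  obtain ⟨φ, t | t⟩ := exists_tri (z := z) (p := y) (q := p) (by rw [dist_comm]; exact hyz)
    (by rw [dist_comm]; exact hpz) hyp
  · exact key (φ + 3) (φ + 2) t.pz.symm t.pq.symm (by norm_num)
  · exact key (φ + 4) (φ + 5) t.qz.symm t.qp.symm (by norm_num)

/-- **no Reuleaux triangle**: `z, y, p` a unit triangle, `q` on `S(z)` between `y` and `p` with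
`T q ⊆ {a, b}`, `a` on the arc of `S(y)` from `z` to `p`, `b` on the arc of `S(p)` from `z` to `y` -/
theorem Irr.no_tri802 (h : Irr U T) {z y p q : ℂ} {a b : Fin k} (hyz : dist y z = 1)
    (hpz : dist p z = 1) (hyp : dist y p = 1) (hq : dist q z = 1) (hqT : T q ⊆ {a, b})
    (hqy : dist q y < 1) (hqp : dist q p < 1)
    (hA : ∀ r, dist r y = 1 → dist r z ≤ 1 → dist r p ≤ 1 → a ∈ T r)
    (hB : ∀ r, dist r p = 1 → dist r z ≤ 1 → dist r y ≤ 1 → b ∈ T r) : False := by
  have hc : ContinuousAt (fun s : ℝ => z + ((1 + s : ℝ) : ℂ) * (q - z)) 0 := by fun_prop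
  have h0 : (fun s : ℝ => z + ((1 + s : ℝ) : ℂ) * (q - z)) 0 = q := by
    simp
  have ht : Tendsto (fun s : ℝ => z + ((1 + s : ℝ) : ℂ) * (q - z)) (𝓝[>] 0) (𝓝 q) := by
    have h1 : Tendsto (fun s : ℝ => z + ((1 + s : ℝ) : ℂ) * (q - z)) (𝓝 0)
        (𝓝 ((fun s : ℝ => z + ((1 + s : ℝ) : ℂ) * (q - z)) 0)) := hc
    rw [h0] at h1
    exact h1.mono_left nhdsWithin_le_nhds
  have e1 := ht.eventually (h.nhd q)
  have e2 : ∀ᶠ x in 𝓝 q, dist y x < 1 :=
    (continuous_const.dist continuous_id).continuousAt.eventually (Iio_mem_nhds (by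
      show dist y q < 1
      rw [dist_comm]; exact hqy))
  have e3 : ∀ᶠ x in 𝓝 q, dist p x < 1 :=
    (continuous_const.dist continuous_id).continuousAt.eventually (Iio_mem_nhds (by
      show dist p q < 1
      rw [dist_comm]; exact hqp))
  obtain ⟨s, ⟨⟨h1, h2⟩, h3⟩, hs⟩ :=
    ((e1.and (ht.eventually e2)).and (ht.eventually e3)).and self_mem_nhdsWithin |>.exists
  have hs' : (0 : ℝ) < s := hs
  set x := z + ((1 + s : ℝ) : ℂ) * (q - z) with hx
  have hxz : 1 < dist z x := by
    rw [dist_comm, dist_eq_norm, hx, add_sub_cancel_left, norm_mul, ← dist_eq_norm, hq, mul_one,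
      Complex.norm_real, Real.norm_eq_abs, abs_of_pos (by linarith)]
    linarith
  obtain ⟨i, hi⟩ := h.ne x
  rcases hqT (h1 hi) with rfl | hib
  · exact h.arc_swept802 hyz hpz hyp hA hxz h3 hi
  · rw [mem_singleton_iff] at hib
    subst hib
    exact h.arc_swept802 hpz hyz (by rw [dist_comm]; exact hyp)
      (fun r h1 h2 h3 => hB r h1 h2 h3) hxz h2 hi

end Vale.Agent.P032.Six
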