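import Vale.Agent.P032.H802.ChainI

/-!
# P032: the two ends of a quasi-full vertex at distance one

`QI0.swept802` : a colour of the connecting pair of `V1` is absent at the points outside `D(V)` and
inside `D(W)`, `V`, `W` the ends of the arc of `V1`.
`lt60_802` : the ends `V1`, `V2` of a quasi-full vertex `V` are at distance one only if both are
J-links (`T V1 = T V = T V2`) or each of them is an invisible point of the other one.
-/

open Set Filter Topology Metric

noncomputable section

namespace Vale.Agent.P032.Six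

open Vale.Agent.P032.S5.H767 Vale.Agent.P032.H961

variable {U : Fin 6 → Set ℂ} {T : ℂ → Set (Fin 6)} {Inv : ℂ → ℂ → Prop}
  {V V1 V2 W x : ℂ} {a b m n e f : Fin 6}

/-- the colours of the connecting pair of `V1` (ends `W`, `V`) at a point outside `D(V)` and inside
`D(W)` -/
theorem swept802 (h : Irr U T) (H : QI0 T Inv V1 a b m n e f W V) {c : Fin 6}
    (hc : c = a ∨ c = b) (h1 : 1 < dist V x) (h2 : dist W x < 1) : c ∉ T x := by
  obtain ⟨s, t, hst, -, hends, harc, -⟩ := H.arc
  have hcont : Continuous fun u : ℝ => pt V1 u := continuous_pt V1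
  have hsub : pt V1 '' Icc s t ⊆ closure (U c) := by
    have h3 : closure (Ioo s t) ⊆ (fun u : ℝ => pt V1 u) ⁻¹' {p | c ∈ T p} := by
      refine closure_minimal (fun u hu => ?_) ((h.closed c).preimage hcont)
      change c ∈ T (pt V1 u)
      rw [harc u hu]
      rcases hc with rfl | rfl
      · exact Or.inl rfl
      · exact Or.inr rfl
    rw [closure_Ioo hst.ne] at h3
    rintro _ ⟨u, hu, rfl⟩
    exact h.sub _ (h3 hu)
  have hpre : IsPreconnected (pt V1 '' Icc s t) := isPreconnected_Icc.image _ hcont.continuousOn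
  have m1 : V ∈ pt V1 '' Icc s t ∧ W ∈ pt V1 '' Icc s t := by
    rcases hends with ⟨e1, e2⟩ | ⟨e1, e2⟩
    · exact ⟨⟨s, ⟨le_rfl, hst.le⟩, e2.symm⟩, ⟨t, ⟨hst.le, le_rfl⟩, e1.symm⟩⟩
    · exact ⟨⟨t, ⟨hst.le, le_rfl⟩, e2.symm⟩, ⟨s, ⟨le_rfl, hst.le⟩, e1.symm⟩⟩
  intro hcx
  exact h.mx.wlemma hpre hsub m1.2 m1.1 h2 h1 (h.sub x hcx)

/-- mixed links at distance one: `α` on the arc of `V1` (ends `V2`, `V`), `β` on the arc of `V2`
(ends `V1`, `V`), `{α, β}` the connecting pair of `V` -/
theorem mixed802 (h : Irr U T) (H : QI0 T Inv V a b m n e f V1 V2)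
    {α β : Fin 6} (hαβ : ({a, b} : Set (Fin 6)) = {α, β})
    (h1 : ∀ x, 1 < dist V x → dist V2 x < 1 → α ∉ T x)
    (h2 : ∀ x, 1 < dist V x → dist V1 x < 1 → β ∉ T x) : False := by
  obtain ⟨s, t, hst, hle, hends, harc, -⟩ := H.arc
  obtain ⟨u, hu⟩ : ∃ u, u = (s + t) / 2 := ⟨_, rfl⟩
  have huI : u ∈ Ioo s t := ⟨by rw [hu]; linarith, by rw [hu]; linarith⟩
  have hq : dist (pt V u) V = 1 := dist_pt V u
  have ds : dist (pt V s) (pt V u) < 1 :=
    H383.dist_pt_lt V (abs_lt.2 ⟨by rw [hu]; linarith, by rw [hu]; linarith⟩)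
  have dt : dist (pt V t) (pt V u) < 1 :=
    H383.dist_pt_lt V (abs_lt.2 ⟨by rw [hu]; linarith, by rw [hu]; linarith⟩)
  have d12 : dist V1 (pt V u) < 1 ∧ dist V2 (pt V u) < 1 := by
    rcases hends with ⟨e1, e2⟩ | ⟨e1, e2⟩
    · rw [e1, e2]; exact ⟨dt, ds⟩
    · rw [e1, e2]; exact ⟨ds, dt⟩
  have e1 : ∀ᶠ x in 𝓝 (pt V u), dist V1 x < 1 :=
    (continuous_const.dist continuous_id).continuousAt.eventually (Iio_mem_nhds d12.1)
  have e2 : ∀ᶠ x in 𝓝 (pt V u), dist V2 x < 1 :=
    (continuous_const.dist continuous_id).continuousAt.eventually (Iio_mem_nhds d12.2)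
  obtain ⟨x, ⟨⟨k1, k2⟩, k3⟩, k4⟩ := exists_radial802 hq (((h.nhd (pt V u)).and e1).and e2) 1
    (Or.inl rfl)
  have k5 : 1 < dist V x := by rw [dist_comm]; linarith
  obtain ⟨y, hy⟩ := h.ne x
  have hy2 : y ∈ ({α, β} : Set (Fin 6)) := by
    rw [← hαβ, ← harc u huI]; exact k1 hy
  rcases hy2 with rfl | hy3
  · exact h1 x k5 k3 hy
  · rw [mem_singleton_iff] at hy3
    subst hy3
    exact h2 x k5 k2 hy

/-- **the two ends at distance one**: both are J-links, or each is invisible for the other one -/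
theorem lt60_802 (h : Irr U T) (hw : QIW T Inv) (H : QI T Inv V a b m n e f V1 V2)
    (h12 : dist V1 V2 = 1) : (T V1 = T V ∧ T V2 = T V) ∨ (Inv V1 V2 ∧ Inv V2 V1) := by
  have hnd := H.nd
  simp only [List.nodup_cons, List.mem_cons, List.not_mem_nil, or_false, not_or,
    List.nodup_nil, and_true, not_false_eq_true] at hnd
  obtain ⟨⟨hab, ham, han, hae, haf⟩, ⟨hbm, hbn, hbe, hbf⟩, ⟨hmn, hme, hmf⟩, ⟨hne, hnf⟩, hef⟩ := hnd
  have n2 : V2 ≠ V := by
    intro h0; have := H.dist2; rw [h0, dist_self] at this; exact zero_ne_one this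
  have n1 : V1 ≠ V := by
    intro h0; have := H.dist1; rw [h0, dist_self] at this; exact zero_ne_one this
  have h21 : dist V2 V1 = 1 := by rw [dist_comm]; exact h12
  obtain ⟨g, e1, f1, W, hl⟩ := hw.link H
  obtain ⟨g', e2, f2, W', hl'⟩ := hw.link H.mirror
  -- an end of the arc of `V1`
  have end1 : ∀ {α β γ δ ε φ : Fin 6}, QI T Inv V1 α β γ δ ε φ W V → V2 = W ∨ Inv V1 V2 := by
    intro α β γ δ ε φ Q
    rcases Q.ord V2 h21 H.ord2.ge with h3 | h3 | h3
    · exact Or.inl h3
    · exact absurd h3 n2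
    · exact Or.inr h3
  have end2 : ∀ {α β γ δ ε φ : Fin 6}, QI T Inv V2 α β γ δ ε φ W' V → V1 = W' ∨ Inv V2 V1 := by
    intro α β γ δ ε φ Q
    rcases Q.ord V1 h12 H.ord1.ge with h3 | h3 | h3
    · exact Or.inl h3
    · exact absurd h3 n1
    · exact Or.inr h3
  -- the colours at the other end
  have cor : ∀ {V1 W : ℂ} {α β γ δ ε φ : Fin 6}, QI T Inv V1 α β γ δ ε φ W V →
      α ∈ T W ∧ β ∈ T W := by
    intro V1 W α β γ δ ε φ Q
    have h3 := sub_of_closure h (Q.toQI0.mem1 h)
    exact ⟨h3 (Or.inl rfl), h3 (Or.inr rfl)⟩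
  rcases hl with hl | hl <;> rcases hl' with hl' | hl'
  · -- STAY, STAY: `{a, m}`, `{a, n}`
    have p1 : T V1 = {a, m, g, b} := hl.pal.trans (by
      ext i; simp only [mem_insert_iff, mem_singleton_iff])
    have p2 : T V2 = {a, n, g', b} := hl'.pal.trans (by
      ext i; simp only [mem_insert_iff, mem_singleton_iff])
    rcases end1 hl with h3 | h3
    · subst h3
      have h4 := (cor hl).2
      rw [p2] at h4
      have hg' : g' = m := by
        rcases h4 with h4 | h4 | h4 | h4
        · exact absurd h4.symm ham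
        · exact absurd h4 hmn
        · exact h4.symm
        · exact absurd (mem_singleton_iff.1 h4).symm hbm
      rcases end2 hl' with h5 | h5
      · subst h5
        have h6 := (cor hl').2
        rw [p1] at h6
        have hg : g = n := by
          rcases h6 with h6 | h6 | h6 | h6
          · exact absurd h6.symm han
          · exact absurd h6.symm hmn
          · exact h6.symm
          · exact absurd (mem_singleton_iff.1 h6).symm hbn
        left
        rw [p1, p2, hg, hg', H.pal]
        constructor <;> (ext i; simp only [mem_insert_iff, mem_singleton_iff]; tauto)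
      · exact (hw.inv h5 h12 hl (by rw [p2]; simp) (by rw [p2, hg']; simp)).elim
    · rcases end2 hl' with h5 | h5
      · subst h5
        have h6 := (cor hl').2
        exact (hw.inv h3 h21 hl' (by rw [p1]; simp) h6).elim
      · exact Or.inr ⟨h3, h5⟩
  · -- STAY, SWITCH: `{a, m}`, `{m, b}`
    exfalso
    have p1 : T V1 = {a, m, g, b} := hl.pal
    have p2 : T V2 = {m, b, a, g'} := hl'.pal
    have h3 : V2 = W := by
      rcases end1 hl with h3 | h3
      · exact h3
      · exact (hw.inv h3 h21 hl' (by rw [p1]; simp) (by rw [p1]; simp)).elim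
    have h4 : V1 = W' := by
      rcases end2 hl' with h4 | h4
      · exact h4
      · exact (hw.inv h4 h12 hl (by rw [p2]; simp) (by rw [p2]; simp)).elim
    subst h3 h4
    exact mixed802 h H.toQI0 rfl (fun x k1 k2 => swept802 h hl.toQI0 (Or.inl rfl) k1 k2)
      fun x k1 k2 => swept802 h hl'.toQI0 (Or.inr rfl) k1 k2
  · -- SWITCH, STAY: `{n, b}`, `{a, n}`
    exfalso
    have p1 : T V1 = {n, b, a, g} := hl.pal
    have p2 : T V2 = {a, n, g', b} := hl'.pal
    have h3 : V2 = W := by
      rcases end1 hl with h3 | h3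
      · exact h3
      · exact (hw.inv h3 h21 hl' (by rw [p1]; simp) (by rw [p1]; simp)).elim
    have h4 : V1 = W' := by
      rcases end2 hl' with h4 | h4
      · exact h4
      · exact (hw.inv h4 h12 hl (by rw [p2]; simp) (by rw [p2]; simp)).elim
    subst h3 h4
    exact mixed802 h H.toQI0 (Set.pair_comm a b)
      (fun x k1 k2 => swept802 h hl.toQI0 (Or.inr rfl) k1 k2)
      fun x k1 k2 => swept802 h hl'.toQI0 (Or.inl rfl) k1 k2
  · -- SWITCH, SWITCH: `{n, b}`, `{m, b}`
    have p1 : T V1 = {n, b, a, g} := hl.pal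
    have p2 : T V2 = {m, b, a, g'} := hl'.pal
    rcases end1 hl with h3 | h3
    · subst h3
      have h4 := (cor hl).1
      rw [p2] at h4
      have hg' : g' = n := by
        rcases h4 with h4 | h4 | h4 | h4
        · exact absurd h4.symm hmn
        · exact absurd h4.symm hbn
        · exact absurd h4.symm han
        · exact (mem_singleton_iff.1 h4).symm
      rcases end2 hl' with h5 | h5
      · subst h5
        have h6 := (cor hl').1
        rw [p1] at h6
        have hg : g = m := by
          rcases h6 with h6 | h6 | h6 | h6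
          · exact absurd h6 hmn
          · exact absurd h6.symm hbm
          · exact absurd h6.symm ham
          · exact (mem_singleton_iff.1 h6).symm
        left
        rw [p1, p2, hg, hg', H.pal]
        constructor <;> (ext i; simp only [mem_insert_iff, mem_singleton_iff]; tauto)
      · exact (hw.inv h5 h12 hl (by rw [p2, hg']; simp) (by rw [p2]; simp)).elim
    · rcases end2 hl' with h5 | h5
      · subst h5
        have h6 := (cor hl').1
        exact (hw.inv h3 h21 hl' h6 (by rw [p1]; simp)).elim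
      · exact Or.inr ⟨h3, h5⟩

end Vale.Agent.P032.Six
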