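import Vale.Agent.P032.S5.H80.Ray

/-!
# P032: the wedge rule (84 #11168 (W))

`dist z p = 1`, `p = z + cis θ`.  The points of `S(z)` near `p` are `z + cis (θ + A)`, the points
of `S(p)` near `z` are `z + cis θ - cis (θ + t)`.

* `Mx.wedge_in802`, `Mx.wedge_out802` : if the colour `i` is present on the whole arc
  `t ∈ [0, B]` of `S(p)`, it is absent near `z + cis (θ + A)` inside `D(z)` if `A B > 0`,
  outside if `A B < 0`;
* `Irr.wedge802` : the palette of `z + cis (θ + A)` is not contained in a set `Q` of colours which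
  are all present on such an arc.
-/

open Set Filter Topology Metric

noncomputable section

namespace Vale.Agent.P032.Six

variable {k : ℕ} {U : Fin k → Set ℂ} {T : ℂ → Set (Fin k)}

theorem wdg_sq802 (θ A B : ℝ) : ‖cis (θ + A) - cis θ + cis (θ + B)‖ ^ 2 =
    1 + 8 * (Real.sin (A / 2) * Real.sin (B / 2) * Real.cos ((A - B) / 2)) := by
  have e1 : ‖cis (θ + A) - cis θ + cis (θ + B)‖ ^ 2 =
      3 + 2 * Real.cos (A - B) - 2 * Real.cos A - 2 * Real.cos B := by
    rw [Complex.sq_norm, Complex.normSq_apply]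
    simp only [Complex.add_re, Complex.sub_re, Complex.add_im, Complex.sub_im, cis_re, cis_im]
    rw [show Real.cos (A - B) = Real.cos ((θ + A) - (θ + B)) by ring_nf,
      show Real.cos A = Real.cos ((θ + A) - θ) by ring_nf,
      show Real.cos B = Real.cos ((θ + B) - θ) by ring_nf]
    rw [Real.cos_sub, Real.cos_sub, Real.cos_sub]
    linear_combination Real.sin_sq_add_cos_sq (θ + A) + Real.sin_sq_add_cos_sq θ +
      Real.sin_sq_add_cos_sq (θ + B)
  rw [e1]
  set x := A / 2 with hx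
  set y := B / 2 with hy
  have h1 : (A - B) / 2 = x - y := by rw [hx, hy]; ring
  have h2 : A - B = 2 * (x - y) := by rw [hx, hy]; ring
  have h3 : A = 2 * x := by rw [hx]; ring
  have h4 : B = 2 * y := by rw [hy]; ring
  rw [h1, h2, h3, h4, Real.cos_two_mul, Real.cos_two_mul, Real.cos_two_mul, Real.cos_sub]
  have s1 := Real.sin_sq_add_cos_sq x
  have s2 := Real.sin_sq_add_cos_sq y
  have e2 : Real.sin x ^ 2 = 1 - Real.cos x ^ 2 := by linarith
  have e3 : Real.sin y ^ 2 = 1 - Real.cos y ^ 2 := by linarith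
  linear_combination (-4 * Real.sin x ^ 2) * e3 - 4 * (1 - Real.cos y ^ 2) * e2 + 0 * s1 + 0 * s2

theorem wdg_pos802 {A B : ℝ} (hAB : 0 < A * B) (hlt : |A| + |B| < Real.pi) :
    0 < Real.sin (A / 2) * Real.sin (B / 2) * Real.cos ((A - B) / 2) := by
  have hpi := Real.pi_pos
  have hA := abs_nonneg A
  have hB := abs_nonneg B
  have h1 := le_abs_self A
  have h2 := neg_abs_le A
  have h3 := le_abs_self B
  have h4 := neg_abs_le B
  have hc : 0 < Real.cos ((A - B) / 2) :=
    Real.cos_pos_of_mem_Ioo ⟨by linarith, by linarith⟩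
  rcases pos_and_pos_or_neg_and_neg_of_mul_pos hAB with ⟨ha, hb⟩ | ⟨ha, hb⟩
  · exact mul_pos (mul_pos (Real.sin_pos_of_pos_of_lt_pi (by linarith) (by linarith))
      (Real.sin_pos_of_pos_of_lt_pi (by linarith) (by linarith))) hc
  · exact mul_pos (mul_pos_of_neg_of_neg
      (Real.sin_neg_of_neg_of_neg_pi_lt (by linarith) (by linarith))
      (Real.sin_neg_of_neg_of_neg_pi_lt (by linarith) (by linarith))) hc

theorem wdg_neg802 {A B : ℝ} (hAB : A * B < 0) (hlt : |A| + |B| < Real.pi) :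
    Real.sin (A / 2) * Real.sin (B / 2) * Real.cos ((A - B) / 2) < 0 := by
  have hpi := Real.pi_pos
  have hA := abs_nonneg A
  have hB := abs_nonneg B
  have h1 := le_abs_self A
  have h2 := neg_abs_le A
  have h3 := le_abs_self B
  have h4 := neg_abs_le B
  have hc : 0 < Real.cos ((A - B) / 2) :=
    Real.cos_pos_of_mem_Ioo ⟨by linarith, by linarith⟩
  rcases mul_neg_iff.1 hAB with ⟨ha, hb⟩ | ⟨ha, hb⟩
  · exact mul_neg_of_neg_of_pos (mul_neg_of_pos_of_neg
      (Real.sin_pos_of_pos_of_lt_pi (by linarith) (by linarith))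
      (Real.sin_neg_of_neg_of_neg_pi_lt (by linarith) (by linarith))) hc
  · exact mul_neg_of_neg_of_pos (mul_neg_of_neg_of_pos
      (Real.sin_neg_of_neg_of_neg_pi_lt (by linarith) (by linarith))
      (Real.sin_pos_of_pos_of_lt_pi (by linarith) (by linarith))) hc

/-- the two branches, same side: distance `> 1` -/
theorem wdg_gt802 (z : ℂ) {θ A B : ℝ} (hAB : 0 < A * B) (hlt : |A| + |B| < Real.pi) :
    1 < dist (z + cis (θ + A)) (z + cis θ - cis (θ + B)) := by
  have e : z + cis (θ + A) - (z + cis θ - cis (θ + B)) = cis (θ + A) - cis θ + cis (θ + B) := by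
    ring
  rw [dist_eq_norm, e]
  have h1 := wdg_sq802 θ A B
  have h2 := wdg_pos802 hAB hlt
  have h3 := norm_nonneg (cis (θ + A) - cis θ + cis (θ + B))
  by_contra hcon
  push Not at hcon
  nlinarith

/-- the two branches, opposite sides: distance `< 1` -/
theorem wdg_lt802 (z : ℂ) {θ A B : ℝ} (hAB : A * B < 0) (hlt : |A| + |B| < Real.pi) :
    dist (z + cis (θ + A)) (z + cis θ - cis (θ + B)) < 1 := by
  have e : z + cis (θ + A) - (z + cis θ - cis (θ + B)) = cis (θ + A) - cis θ + cis (θ + B) := by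
    ring
  rw [dist_eq_norm, e]
  have h1 := wdg_sq802 θ A B
  have h2 := wdg_neg802 hAB hlt
  have h3 := norm_nonneg (cis (θ + A) - cis θ + cis (θ + B))
  by_contra hcon
  push Not at hcon
  nlinarith

theorem wdg_pi802 (z : ℂ) (θ t : ℝ) : z + cis θ + cis (θ + Real.pi + t) = z + cis θ - cis (θ + t) := by
  have h : cis (θ + Real.pi + t) = -cis (θ + t) := by
    apply Complex.ext
    · rw [Complex.neg_re, cis_re, cis_re, show θ + Real.pi + t = θ + t + Real.pi by ring,
        Real.cos_add_pi]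
    · rw [Complex.neg_im, cis_im, cis_im, show θ + Real.pi + t = θ + t + Real.pi by ring,
        Real.sin_add_pi]
  rw [h]; ring

/-- sweep by the circles around the points of the arc of `S(p)` next to `z` -/
theorem Mx.wedge_aux802 (h : Mx U) {z : ℂ} {θ B : ℝ} {i : Fin k}
    (hi : ∀ t ∈ uIcc 0 B, i ∈ Pal U (z + cis θ - cis (θ + t))) {x : ℂ}
    (hx : (dist x z < 1 ∧ 1 < dist x (z + cis θ - cis (θ + B))) ∨
      (1 < dist x z ∧ dist x (z + cis θ - cis (θ + B)) < 1)) : i ∉ Pal U x := by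
  have e0 : z + cis θ + cis (θ + Real.pi) = z := by
    have := wdg_pi802 z θ 0
    simp only [add_zero] at this
    rw [this]; ring
  have eB := wdg_pi802 z θ B
  have hJ : ∀ t ∈ uIcc (θ + Real.pi) (θ + Real.pi + B), i ∈ Pal U (z + cis θ + cis t) := by
    intro t ht
    have h1 : t - (θ + Real.pi) ∈ uIcc 0 B := by
      rw [mem_uIcc] at ht ⊢
      rcases ht with ⟨h1, h2⟩ | ⟨h1, h2⟩
      · exact Or.inl ⟨by linarith, by linarith⟩
      · exact Or.inr ⟨by linarith, by linarith⟩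
    have h2 := hi _ h1
    have h3 := wdg_pi802 z θ (t - (θ + Real.pi))
    rw [show θ + Real.pi + (t - (θ + Real.pi)) = t by ring] at h3
    rw [h3]
    exact h2
  rcases hx with ⟨h1, h2⟩ | ⟨h1, h2⟩
  · refine h.swept hJ ?_ ?_
    · rw [e0, dist_comm]; exact h1
    · rw [eB, dist_comm]; exact h2
  · refine h.swept (z := z + cis θ) (t1 := θ + Real.pi + B) (t2 := θ + Real.pi) ?_ ?_ ?_
    · rw [uIcc_comm]; exact hJ
    · rw [eB, dist_comm]; exact h2
    · rw [e0, dist_comm]; exact h1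

/-- **wedge rule**, same side: the colour `i` is absent inside `D(z)` -/
theorem Mx.wedge_in802 (h : Mx U) {z : ℂ} {θ A B : ℝ} (hAB : 0 < A * B)
    (hlt : |A| + |B| < Real.pi) {i : Fin k}
    (hi : ∀ t ∈ uIcc 0 B, i ∈ Pal U (z + cis θ - cis (θ + t))) :
    ∀ᶠ x in 𝓝 (z + cis (θ + A)), dist x z < 1 → i ∉ Pal U x := by
  have e1 : ∀ᶠ x in 𝓝 (z + cis (θ + A)), 1 < dist x (z + cis θ - cis (θ + B)) :=
    (continuous_id.dist continuous_const).continuousAt.eventually
      (Ioi_mem_nhds (wdg_gt802 z hAB hlt))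
  filter_upwards [e1] with x hx hxz
  exact h.wedge_aux802 hi (Or.inl ⟨hxz, hx⟩)

/-- **wedge rule**, opposite sides: the colour `i` is absent outside `D(z)` -/
theorem Mx.wedge_out802 (h : Mx U) {z : ℂ} {θ A B : ℝ} (hAB : A * B < 0)
    (hlt : |A| + |B| < Real.pi) {i : Fin k}
    (hi : ∀ t ∈ uIcc 0 B, i ∈ Pal U (z + cis θ - cis (θ + t))) :
    ∀ᶠ x in 𝓝 (z + cis (θ + A)), 1 < dist x z → i ∉ Pal U x := by
  have e1 : ∀ᶠ x in 𝓝 (z + cis (θ + A)), dist x (z + cis θ - cis (θ + B)) < 1 :=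
    (continuous_id.dist continuous_const).continuousAt.eventually
      (Iio_mem_nhds (wdg_lt802 z hAB hlt))
  filter_upwards [e1] with x hx hxz
  exact h.wedge_aux802 hi (Or.inr ⟨hxz, hx⟩)

/-- points on the ray from `z` through a point of `S(z)` -/
theorem tendsto_radial802 (z u : ℂ) : Tendsto (fun r : ℝ => z + (r : ℂ) * u) (𝓝 1) (𝓝 (z + u)) := by
  have : Continuous fun r : ℝ => z + (r : ℂ) * u := by fun_prop
  have h2 := this.tendsto 1
  simp only [Complex.ofReal_one, one_mul] at h2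
  exact h2

theorem dist_radial802 (z : ℂ) {t r : ℝ} (hr : 0 ≤ r) : dist (z + (r : ℂ) * cis t) z = r := by
  rw [dist_eq_norm, add_sub_cancel_left, norm_mul, norm_cis, mul_one, Complex.norm_real,
    Real.norm_of_nonneg hr]

theorem frequently_in802 (z : ℂ) (t : ℝ) : ∃ᶠ x in 𝓝 (z + cis t), dist x z < 1 := by
  have h1 : Tendsto (fun r : ℝ => z + (r : ℂ) * cis t) (𝓝[<] 1) (𝓝 (z + cis t)) :=
    (tendsto_radial802 z (cis t)).mono_left nhdsWithin_le_nhds
  refine h1.frequently (Eventually.frequently ?_)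
  have h0 : ∀ᶠ r : ℝ in 𝓝[<] 1, 0 < r :=
    nhdsWithin_le_nhds (Ioi_mem_nhds (by norm_num : (0 : ℝ) < 1))
  filter_upwards [h0, self_mem_nhdsWithin] with r hr hr1
  rw [dist_radial802 z hr.le]
  exact hr1

theorem frequently_out802 (z : ℂ) (t : ℝ) : ∃ᶠ x in 𝓝 (z + cis t), 1 < dist x z := by
  have h1 : Tendsto (fun r : ℝ => z + (r : ℂ) * cis t) (𝓝[>] 1) (𝓝 (z + cis t)) :=
    (tendsto_radial802 z (cis t)).mono_left nhdsWithin_le_nhds
  refine h1.frequently (Eventually.frequently ?_)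
  filter_upwards [self_mem_nhdsWithin] with r hr1
  rw [dist_radial802 z (by linarith [mem_Ioi.1 hr1])]
  exact hr1

/-- near a point of `S(z)` and inside `D(z)`, the palettes are not in a set of colours which are
absent there -/
theorem Irr.not_sub_in802 (h : Irr U T) {z x0 : ℂ} (hx0 : dist x0 z = 1) {Q : Set (Fin k)}
    (hQ : ∀ i ∈ Q, ∀ᶠ x in 𝓝 x0, dist x z < 1 → i ∉ Pal U x) : ¬ T x0 ⊆ Q := by
  intro hsub
  obtain ⟨t, ht⟩ := exists_cis (u := x0 - z) (by rw [← dist_eq_norm]; exact hx0)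
  have hx : x0 = z + cis t := by rw [← ht]; ring
  have hall : ∀ᶠ x in 𝓝 x0, ∀ i ∈ Q, dist x z < 1 → i ∉ Pal U x :=
    (Set.toFinite Q).eventually_all.2 hQ
  have hfr : ∃ᶠ x in 𝓝 x0, dist x z < 1 := by rw [hx]; exact frequently_in802 z t
  obtain ⟨x, hxz, hx1, hx2⟩ := (hfr.and_eventually (hall.and (h.nhd x0))).exists
  obtain ⟨i, hi⟩ := h.ne x
  exact hx1 i (hsub (hx2 hi)) hxz (h.sub x hi)

theorem Irr.not_sub_out802 (h : Irr U T) {z x0 : ℂ} (hx0 : dist x0 z = 1) {Q : Set (Fin k)}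
    (hQ : ∀ i ∈ Q, ∀ᶠ x in 𝓝 x0, 1 < dist x z → i ∉ Pal U x) : ¬ T x0 ⊆ Q := by
  intro hsub
  obtain ⟨t, ht⟩ := exists_cis (u := x0 - z) (by rw [← dist_eq_norm]; exact hx0)
  have hx : x0 = z + cis t := by rw [← ht]; ring
  have hall : ∀ᶠ x in 𝓝 x0, ∀ i ∈ Q, 1 < dist x z → i ∉ Pal U x :=
    (Set.toFinite Q).eventually_all.2 hQ
  have hfr : ∃ᶠ x in 𝓝 x0, 1 < dist x z := by rw [hx]; exact frequently_out802 z t
  obtain ⟨x, hxz, hx1, hx2⟩ := (hfr.and_eventually (hall.and (h.nhd x0))).exists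
  obtain ⟨i, hi⟩ := h.ne x
  exact hx1 i (hsub (hx2 hi)) hxz (h.sub x hi)

/-- **wedge rule for palettes**: the palette of a point of `S(z)` next to `p = z + cis θ` is not
contained in a set of colours present on a whole one-sided arc of `S(p)` at `z` -/
theorem Irr.wedge802 (h : Irr U T) {z : ℂ} {θ A B : ℝ} (hA : A ≠ 0) (hB : B ≠ 0)
    (hlt : |A| + |B| < Real.pi) {Q : Set (Fin k)}
    (hQ : ∀ t ∈ uIcc 0 B, Q ⊆ Pal U (z + cis θ - cis (θ + t))) :
    ¬ T (z + cis (θ + A)) ⊆ Q := by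
  rcases lt_or_gt_of_ne (mul_ne_zero hA hB) with h1 | h1
  · exact h.not_sub_out802 (dist_add_cis z _) fun i hi =>
      h.mx.wedge_out802 h1 hlt fun t ht => hQ t ht hi
  · exact h.not_sub_in802 (dist_add_cis z _) fun i hi =>
      h.mx.wedge_in802 h1 hlt fun t ht => hQ t ht hi

/-- the same with a palette of `T` constant on a one-sided arc of `S(p)` at `z` -/
theorem Irr.wedge_arc802 (h : Irr U T) {z : ℂ} {θ A B : ℝ} (hA : A ≠ 0) (hB : B ≠ 0)
    (hlt : |A| + |B| < Real.pi) {Q : Set (Fin k)}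
    (hQ : ∀ t ∈ uIoo 0 B, Q ⊆ T (z + cis θ - cis (θ + t))) :
    ¬ T (z + cis (θ + A)) ⊆ Q := by
  refine h.wedge802 hA hB hlt fun t ht i hi => ?_
  have hcl : IsClosed {s : ℝ | i ∈ Pal U (z + cis θ - cis (θ + s))} := by
    have hc : Continuous fun s : ℝ => z + cis θ - cis (θ + s) :=
      continuous_const.sub (continuous_cis.comp (continuous_const.add continuous_id))
    exact isClosed_closure.preimage hc
  have h1 : uIoo 0 B ⊆ {s : ℝ | i ∈ Pal U (z + cis θ - cis (θ + s))} :=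
    fun s hs => h.sub _ (hQ s hs hi)
  have h2 := closure_minimal h1 hcl
  rw [closure_uIoo (Ne.symm hB)] at h2
  exact h2 ht

end Vale.Agent.P032.Six
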