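import Vale.Agent.P032.H338.Letters
import Vale.Agent.P032.H809.Side
import Vale.Agent.P032.H802.Wedge

/-!
# P032: two neighbours on the circle of a two-pair point with both free colours (84 #11168 (S))

`z` two-pair point `{a,b} | {c,d}`, free colours `e`, `f`; exact `ab`-arcs of `S(z)` at `z + cis θ`
and at the antipode; `p`, `q` the points of `S(z)` at `θ + 60`, `θ + 120`; both carry `e` and `f`.
Then (wild, no constancy of the free letters is used) `T p = {c,d,e,f}`, `T q = {e,f}` (or the same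
with `p`, `q` exchanged), or `T p = T q = {c,d,e,f}` and `S(z)` crosses `p` from a `cd`-side to an
`ef`-side.  In particular an `(e,f) → (f,e)` swap is a mixed one.
-/

open Set Filter Topology Metric

noncomputable section

namespace Vale.Agent.P032.Six

section General

variable {k : ℕ} {U : Fin k → Set ℂ} {T : ℂ → Set (Fin k)}

theorem cis_mul802 (s t : ℝ) : cis s * cis t = cis (s + t) := by
  unfold cis
  rw [← Complex.exp_add]; congr 1; push_cast; ring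

theorem cis_add_pi802 (t : ℝ) : cis (t + Real.pi) = -cis t := by
  apply Complex.ext
  · rw [Complex.neg_re, cis_re, cis_re, Real.cos_add_pi]
  · rw [Complex.neg_im, cis_im, cis_im, Real.sin_add_pi]

theorem nsq_add802 (u v : ℝ) : ‖cis u + cis v‖ ^ 2 = 2 + 2 * Real.cos (u - v) := by
  rw [Complex.sq_norm, Complex.normSq_apply]
  simp only [Complex.add_re, Complex.add_im, cis_re, cis_im]
  rw [Real.cos_sub]
  linear_combination Real.sin_sq_add_cos_sq u + Real.sin_sq_add_cos_sq v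

theorem nsq_sub802 (u v : ℝ) : ‖cis u - cis v‖ ^ 2 = 2 - 2 * Real.cos (u - v) := by
  rw [Complex.sq_norm, Complex.normSq_apply]
  simp only [Complex.sub_re, Complex.sub_im, cis_re, cis_im]
  rw [Real.cos_sub]
  linear_combination Real.sin_sq_add_cos_sq u + Real.sin_sq_add_cos_sq v

theorem lt_one_of_sq802 {x : ℝ} (h : x ^ 2 < 1) : x < 1 := by
  by_contra hcon
  push Not at hcon
  nlinarith

theorem one_lt_of_sq802 {x : ℝ} (hx : 0 ≤ x) (h : 1 < x ^ 2) : 1 < x := by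
  by_contra hcon
  push Not at hcon
  nlinarith

/-- `60` degrees: `cis (θ + 2π/3) - cis (θ + π/3) = - cis θ` -/
theorem cis_sixty802 (θ : ℝ) :
    cis (θ + 2 * Real.pi / 3) - cis (θ + Real.pi / 3) = -cis θ := by
  have h3 : Real.cos (2 * Real.pi / 3) = -(1 / 2) := by
    rw [show 2 * Real.pi / 3 = Real.pi - Real.pi / 3 by ring, Real.cos_pi_sub,
      Real.cos_pi_div_three]
  have h4 : Real.sin (2 * Real.pi / 3) = Real.sin (Real.pi / 3) := by
    rw [show 2 * Real.pi / 3 = Real.pi - Real.pi / 3 by ring, Real.sin_pi_sub]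
  apply Complex.ext
  · rw [Complex.sub_re, Complex.neg_re, cis_re, cis_re, cis_re, Real.cos_add, Real.cos_add, h3, h4,
      Real.cos_pi_div_three]
    ring
  · rw [Complex.sub_im, Complex.neg_im, cis_im, cis_im, cis_im, Real.sin_add, Real.sin_add, h3, h4,
      Real.cos_pi_div_three]
    ring

theorem tendsto_cis802 (z : ℂ) (φ : ℝ) :
    Tendsto (fun t : ℝ => z + cis (φ + t)) (𝓝 0) (𝓝 (z + cis φ)) := by
  have : Continuous fun t : ℝ => z + cis (φ + t) :=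
    continuous_const.add (continuous_cis.comp (continuous_const.add continuous_id))
  have h2 := this.tendsto 0
  simp only [add_zero] at h2
  exact h2

theorem tendsto_cis_gt802 (z : ℂ) (φ : ℝ) :
    Tendsto (fun t : ℝ => z + cis (φ + t)) (𝓝[>] 0) (𝓝[sphere z 1] (z + cis φ)) :=
  tendsto_nhdsWithin_iff.2 ⟨(tendsto_cis802 z φ).mono_left nhdsWithin_le_nhds,
    Eventually.of_forall fun _ => dist_add_cis _ _⟩

theorem tendsto_cis_lt802 (z : ℂ) (φ : ℝ) :
    Tendsto (fun t : ℝ => z + cis (φ + t)) (𝓝[<] 0) (𝓝[sphere z 1] (z + cis φ)) :=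
  tendsto_nhdsWithin_iff.2 ⟨(tendsto_cis802 z φ).mono_left nhdsWithin_le_nhds,
    Eventually.of_forall fun _ => dist_add_cis _ _⟩

/-- both sides: the colours carried by `S(p)` on both sides of `p + cis φ` are absent from the
points of the circle about `p + cis φ` near `p` -/
theorem Mx.both_sides802 (h : Mx U) {p : ℂ} {φ A1 A2 B : ℝ} (h1 : A1 < 0) (h2 : 0 < A2)
    (hB : B ≠ 0) (hlt1 : |A1| + |B| < Real.pi) (hlt2 : |A2| + |B| < Real.pi) {i : Fin k}
    (hi : ∀ t ∈ Icc A1 A2, i ∈ Pal U (p + cis (φ + t))) :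
    i ∉ Pal U (p + cis φ - cis (φ + B)) := by
  have hJ : ∀ t ∈ uIcc (φ + A1) (φ + A2), i ∈ Pal U (p + cis t) := by
    intro t ht
    rw [uIcc_of_le (by linarith)] at ht
    have := hi (t - φ) ⟨by linarith [ht.1], by linarith [ht.2]⟩
    rwa [show φ + (t - φ) = t by ring] at this
  rcases lt_or_gt_of_ne hB with hB' | hB'
  · refine h.swept (t1 := φ + A2) (t2 := φ + A1) ?_ (wdg_lt802 p (mul_neg_of_pos_of_neg h2 hB') hlt2)
      (wdg_gt802 p (mul_pos_of_neg_of_neg h1 hB') hlt1)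
    rw [uIcc_comm]; exact hJ
  · exact h.swept hJ (wdg_lt802 p (mul_neg_of_neg_of_pos h1 hB') hlt1)
      (wdg_gt802 p (mul_pos h2 hB') hlt2)

/-- at most three colours at `q`: then `T p` has the two other colours -/
theorem Irr.swapA802 (h : Irr U T) {p q z : ℂ} {c d e f : Fin k}
    (hc : ∀ᶠ x in 𝓝 p, 1 < dist x z → c ∉ Pal U x) (hd : ∀ᶠ x in 𝓝 p, dist x z < 1 → d ∉ Pal U x)
    (Tp : T p ⊆ {c, d, e, f}) (Tq : T q ⊆ {c, d, e, f}) (eq : e ∈ T q) (fq : f ∈ T q)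
    (ep : e ∈ T p) (fp : f ∈ T p)
    (fo : ∃ᶠ x in 𝓝[sphere q 1] p, 1 < dist x z) (fi : ∃ᶠ x in 𝓝[sphere q 1] p, dist x z < 1)
    (h3 : (T q).ncard ≤ 3) : T p = {c, d, e, f} ∧ T q = {e, f} := by
  have hn : ∀ᶠ x in 𝓝[sphere q 1] p, T x ⊆ T p := mem_nhdsWithin_of_mem_nhds (h.nhd p)
  have hs : ∀ᶠ x in 𝓝[sphere q 1] p, dist x q = 1 := self_mem_nhdsWithin
  obtain ⟨x, hx, hxn, hxs, hxc⟩ :=
    (fo.and_eventually (hn.and (hs.and (mem_nhdsWithin_of_mem_nhds hc)))).exists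
  obtain ⟨y, hy, hyn, hys, hyd⟩ :=
    (fi.and_eventually (hn.and (hs.and (mem_nhdsWithin_of_mem_nhds hd)))).exists
  have hxc' : c ∉ T x := fun hh => hxc hx (h.sub x hh)
  have hyd' : d ∉ T y := fun hh => hyd hy (h.sub y hh)
  have kd : d ∈ T p ∧ d ∉ T q := by
    obtain ⟨t, ht, htq⟩ := h.not_sub' hxs h3
    rcases Tp (hxn ht) with h1 | h1 | h1 | h1
    · exact absurd (h1 ▸ ht) hxc'
    · subst h1; exact ⟨hxn ht, htq⟩
    · exact absurd (h1 ▸ eq) htq
    · rw [mem_singleton_iff] at h1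
      exact absurd (h1 ▸ fq) htq
  have kc : c ∈ T p ∧ c ∉ T q := by
    obtain ⟨t, ht, htq⟩ := h.not_sub' hys h3
    rcases Tp (hyn ht) with h1 | h1 | h1 | h1
    · subst h1; exact ⟨hyn ht, htq⟩
    · exact absurd (h1 ▸ ht) hyd'
    · exact absurd (h1 ▸ eq) htq
    · rw [mem_singleton_iff] at h1
      exact absurd (h1 ▸ fq) htq
  constructor
  · refine Subset.antisymm Tp ?_
    rintro t (rfl | rfl | rfl | ht)
    · exact kc.1
    · exact kd.1
    · exact ep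
    · rw [mem_singleton_iff] at ht; subst ht; exact fp
  · refine Subset.antisymm ?_ ?_
    · intro t ht
      rcases Tq ht with h1 | h1 | h1 | h1
      · exact absurd (h1 ▸ ht) kc.2
      · exact absurd (h1 ▸ ht) kd.2
      · exact Or.inl h1
      · exact Or.inr h1
    · rintro t (rfl | ht)
      · exact eq
      · rw [mem_singleton_iff] at ht; subst ht; exact fq

/-- a point of an exact pair arc: `T q = {e, f}`, both colours in `T p` -/
theorem Irr.arc_pair802 (h : Irr U T) {p q : ℂ} {e f : Fin k} (hpq : dist q p = 1)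
    (Tq : T q = {e, f}) (ep : e ∈ T p) (fp : f ∈ T p) : Arc T p q {e, f} := by
  refine ⟨hpq, ?_⟩
  filter_upwards [mem_nhdsWithin_of_mem_nhds (h.nhd q), self_mem_nhdsWithin] with x hx hxp
  rw [Tq] at hx
  have hxp : dist x p = 1 := hxp
  refine Subset.antisymm hx ?_
  rintro t (rfl | ht)
  · by_contra hcon
    refine h.mx.notMem' (h.mem_of_single (x := x) (i := f) fun i hi => ?_) hxp (h.sub p fp)
    rcases hx hi with h1 | h1
    · exact absurd (h1 ▸ hi) hcon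
    · exact h1
  · rw [mem_singleton_iff] at ht; subst ht
    by_contra hcon
    refine h.mx.notMem' (h.mem_of_single (x := x) (i := e) fun i hi => ?_) hxp (h.sub p ep)
    rcases hx hi with h1 | h1
    · exact h1
    · rw [mem_singleton_iff] at h1
      exact absurd (h1 ▸ hi) hcon

end General

section Six

variable {U : Fin 6 → Set ℂ} {T : ℂ → Set (Fin 6)}

/-- the splitting of `{c, d, e, f}` into two pairs, seen from `c`, `d` -/
theorem pairs_split802 {c d e f : Fin 6} {P Q : Set (Fin 6)} (hcd : c ≠ d) (hce : c ≠ e)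
    (hcf : c ≠ f) (hde : d ≠ e) (hdf : d ≠ f) (hef : e ≠ f) (hPQ : P ∪ Q = {c, d, e, f})
    (hdis : Disjoint P Q) (hP : P.ncard = 2) (hQ : Q.ncard = 2) (hc : c ∈ Q) :
    (P = {e, f} ∧ Q = {c, d}) ∨ (P = {d, e} ∧ Q = {c, f}) ∨ (P = {d, f} ∧ Q = {c, e}) := by
  have hm : ∀ i, i ∈ P ∨ i ∈ Q ↔ i = c ∨ i = d ∨ i = e ∨ i = f := by
    intro i
    have := Set.ext_iff.1 hPQ i
    simpa [Set.mem_union, mem_insert_iff, mem_singleton_iff] using this
  have hn : ∀ i, i ∈ P → i ∉ Q := fun i hi hi' => Set.disjoint_left.1 hdis hi hi'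
  have key : ∀ {R : Set (Fin 6)} {x y : Fin 6}, x ≠ y → R.ncard = 2 → x ∈ R → y ∈ R → R = {x, y} := by
    intro R x y hxy hR hx hy
    refine (Set.eq_of_subset_of_ncard_le ?_ ?_ (Set.toFinite _)).symm
    · rintro t (rfl | ht)
      · exact hx
      · rw [mem_singleton_iff] at ht; subst ht; exact hy
    · rw [hR, Set.ncard_pair hxy]
  have hd := (hm d).2 (by tauto)
  have he := (hm e).2 (by tauto)
  have hf := (hm f).2 (by tauto)
  rcases hd with hd | hd
  · rcases he with he | he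
    · have hPe := key hde hP hd he
      have hfQ : f ∈ Q := by
        rcases hf with hf | hf
        · rw [hPe] at hf
          rcases hf with h1 | h1
          · exact absurd h1.symm hdf
          · rw [mem_singleton_iff] at h1; exact absurd h1.symm hef
        · exact hf
      exact Or.inr (Or.inl ⟨hPe, key hcf hQ hc hfQ⟩)
    · have hQe := key hce hQ hc he
      have hfP : f ∈ P := by
        rcases hf with hf | hf
        · exact hf
        · rw [hQe] at hf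
          rcases hf with h1 | h1
          · exact absurd h1.symm hcf
          · rw [mem_singleton_iff] at h1; exact absurd h1.symm hef
      exact Or.inr (Or.inr ⟨key hdf hP hd hfP, hQe⟩)
  · have hQd := key hcd hQ hc hd
    have heP : e ∈ P := by
      rcases he with he | he
      · exact he
      · rw [hQd] at he
        rcases he with h1 | h1
        · exact absurd h1.symm hce
        · rw [mem_singleton_iff] at h1; exact absurd h1.symm hde
    have hfP : f ∈ P := by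
      rcases hf with hf | hf
      · exact hf
      · rw [hQd] at hf
        rcases hf with h1 | h1
        · exact absurd h1.symm hcf
        · rw [mem_singleton_iff] at h1; exact absurd h1.symm hdf
    exact Or.inl ⟨key hef hP heP hfP, hQd⟩

/-- the branches of `S(p)` at a point `q` of the same palette; `c` absent outside `D(z)`, `d`
absent inside -/
theorem swapB802 (h : Irr U T) (hmin : H338.Mn338 U T) {p q z : ℂ} {c d e f : Fin 6}
    (hcd : c ≠ d) (hce : c ≠ e) (hcf : c ≠ f) (hde : d ≠ e) (hdf : d ≠ f) (hef : e ≠ f)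
    (Tp : T p = {c, d, e, f}) (Tq : T q = {c, d, e, f})
    (hc : ∀ᶠ x in 𝓝 q, 1 < dist x z → c ∉ Pal U x) (hd : ∀ᶠ x in 𝓝 q, dist x z < 1 → d ∉ Pal U x)
    (fo : ∃ᶠ x in 𝓝[sphere p 1] q, 1 < dist x z) (fi : ∃ᶠ x in 𝓝[sphere p 1] q, dist x z < 1) :
    ∃ P Q : Set (Fin 6), ((P = {e, f} ∧ Q = {e, f}) ∨ (P = {d, e} ∧ Q = {c, f}) ∨
        (P = {d, f} ∧ Q = {c, e})) ∧
      (∀ᶠ x in 𝓝[sphere p 1] q, (1 < dist x z → P ⊆ T x) ∧ (dist x z < 1 → Q ⊆ T x)) ∧
      (∃ g, Arc T p g P) ∧ ∃ g, Arc T p g Q := by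
  have h4 : (T p).ncard = 4 := by
    rw [Tp]
    rw [Set.ncard_insert_of_notMem (by simp [hcd, hce, hcf]),
      Set.ncard_insert_of_notMem (by simp [hde, hdf]), Set.ncard_pair hef]
  obtain ⟨P, Q, hPQ, hdis, hP, hQ, h2, hall⟩ := H338.pairs_four h hmin h4
  rw [Tp] at hPQ
  have hn : ∀ᶠ x in 𝓝[sphere p 1] q, T x ⊆ T q := mem_nhdsWithin_of_mem_nhds (h.nhd q)
  have hs : ∀ᶠ x in 𝓝[sphere p 1] q, dist x p = 1 := self_mem_nhdsWithin
  -- statement for an unordered pair with `c ∈ Q`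
  have key : ∀ P Q : Set (Fin 6), P ∪ Q = {c, d, e, f} → Disjoint P Q → P.ncard = 2 →
      Q.ncard = 2 → (∀ q, dist q p = 1 → T q ⊆ T p → (T q).ncard = 2 → T q = P ∨ T q = Q) →
      (∀ y, dist y p = 1 → (∃ i ∈ T y, i ∉ T p) ∨ P ⊆ T y ∨ Q ⊆ T y) → c ∈ Q →
      ∃ P Q : Set (Fin 6), ((P = {e, f} ∧ Q = {e, f}) ∨ (P = {d, e} ∧ Q = {c, f}) ∨
        (P = {d, f} ∧ Q = {c, e})) ∧
      (∀ᶠ x in 𝓝[sphere p 1] q, (1 < dist x z → P ⊆ T x) ∧ (dist x z < 1 → Q ⊆ T x)) ∧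
      (∃ g, Arc T p g P) ∧ ∃ g, Arc T p g Q := by
    intro P Q hPQ hdis hP hQ h2 hall hcQ
    have hx : ∀ᶠ x in 𝓝[sphere p 1] q, dist x p = 1 ∧ T x ⊆ T p ∧ (P ⊆ T x ∨ Q ⊆ T x) ∧
        (1 < dist x z → c ∉ T x) ∧ (dist x z < 1 → d ∉ T x) := by
      filter_upwards [hn, hs, mem_nhdsWithin_of_mem_nhds hc, mem_nhdsWithin_of_mem_nhds hd]
        with x k1 k2 k3 k4
      rw [Tq, ← Tp] at k1
      refine ⟨k2, k1, ?_, fun k5 k6 => k3 k5 (h.sub x k6), fun k5 k6 => k4 k5 (h.sub x k6)⟩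
      rcases hall x k2 with ⟨i, k5, k6⟩ | k5
      · exact absurd (k1 k5) k6
      · exact k5
    have arc_of : ∀ {x : ℂ} {R : Set (Fin 6)}, dist x p = 1 → T x ⊆ T p →
        (∀ S : Set (Fin 6), S ⊆ T x → (S = P ∨ S = Q) → S = R) → ∃ g, Arc T p g R := by
      intro x R k1 k2 k3
      obtain ⟨g, hg, hgs, hg2⟩ := H338.exists_pair_four h h4 k1 k2
      have k4 := h2 g hg.1 (hgs.trans k2) hg2
      have k5 := k3 _ hgs k4
      rw [k5] at hg
      exact ⟨g, hg⟩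
    obtain ⟨xo, hxo, ho1, ho2, ho3, ho4, -⟩ := (fo.and_eventually hx).exists
    obtain ⟨xi, hxi, hi1, hi2, hi3, -, hi4⟩ := (fi.and_eventually hx).exists
    rcases pairs_split802 hcd hce hcf hde hdf hef hPQ hdis hP hQ hcQ with
      ⟨rfl, rfl⟩ | ⟨rfl, rfl⟩ | ⟨rfl, rfl⟩
    · refine ⟨{e, f}, {e, f}, Or.inl ⟨rfl, rfl⟩, ?_, ?_⟩
      · filter_upwards [hx] with x hx
        refine ⟨fun k => ?_, fun k => ?_⟩
        · rcases hx.2.2.1 with k1 | k1
          · exact k1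
          · exact absurd (k1 (by simp)) (hx.2.2.2.1 k)
        · rcases hx.2.2.1 with k1 | k1
          · exact k1
          · exact absurd (k1 (by simp)) (hx.2.2.2.2 k)
      · have := arc_of (R := {e, f}) ho1 ho2 (fun S hS hS' => by
          rcases hS' with k | k
          · exact k
          · subst k; exact absurd (hS (by simp)) (ho4 hxo))
        exact ⟨this, this⟩
    · refine ⟨{d, e}, {c, f}, Or.inr (Or.inl ⟨rfl, rfl⟩), ?_, ?_, ?_⟩
      · filter_upwards [hx] with x hx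
        refine ⟨fun k => ?_, fun k => ?_⟩
        · rcases hx.2.2.1 with k1 | k1
          · exact k1
          · exact absurd (k1 (by simp)) (hx.2.2.2.1 k)
        · rcases hx.2.2.1 with k1 | k1
          · exact absurd (k1 (by simp)) (hx.2.2.2.2 k)
          · exact k1
      · exact arc_of ho1 ho2 (fun S hS hS' => by
          rcases hS' with k | k
          · exact k
          · subst k; exact absurd (hS (by simp)) (ho4 hxo))
      · exact arc_of hi1 hi2 (fun S hS hS' => by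
          rcases hS' with k | k
          · subst k; exact absurd (hS (by simp)) (hi4 hxi)
          · exact k)
    · refine ⟨{d, f}, {c, e}, Or.inr (Or.inr ⟨rfl, rfl⟩), ?_, ?_, ?_⟩
      · filter_upwards [hx] with x hx
        refine ⟨fun k => ?_, fun k => ?_⟩
        · rcases hx.2.2.1 with k1 | k1
          · exact k1
          · exact absurd (k1 (by simp)) (hx.2.2.2.1 k)
        · rcases hx.2.2.1 with k1 | k1
          · exact absurd (k1 (by simp)) (hx.2.2.2.2 k)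
          · exact k1
      · exact arc_of ho1 ho2 (fun S hS hS' => by
          rcases hS' with k | k
          · exact k
          · subst k; exact absurd (hS (by simp)) (ho4 hxo))
      · exact arc_of hi1 hi2 (fun S hS hS' => by
          rcases hS' with k | k
          · subst k; exact absurd (hS (by simp)) (hi4 hxi)
          · exact k)
  have hcPQ : c ∈ P ∪ Q := by rw [hPQ]; simp
  rcases hcPQ with h1 | h1
  · exact key Q P (by rw [union_comm]; exact hPQ) hdis.symm hQ hP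
      (fun q k1 k2 k3 => (h2 q k1 k2 k3).symm) (fun y hy => by
        rcases hall y hy with k | k | k
        · exact Or.inl k
        · exact Or.inr (Or.inr k)
        · exact Or.inr (Or.inl k)) h1
  · exact key P Q hPQ hdis hP hQ h2 hall h1

end Six

/-- both free colours on both sides of `p + cis φ` on `S(p)` -/
theorem both_ef802 {k : ℕ} {U : Fin k → Set ℂ} {T : ℂ → Set (Fin k)} (h : Irr U T) {p : ℂ} {φ : ℝ}
    {i : Fin k} (h0 : i ∈ T (p + cis φ)) (h1 : ∀ᶠ t : ℝ in 𝓝[>] 0, i ∈ T (p + cis (φ + t)))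
    (h2 : ∀ᶠ t : ℝ in 𝓝[<] 0, i ∈ T (p + cis (φ + t))) :
    ∀ᶠ B : ℝ in 𝓝[>] 0, i ∉ Pal U (p + cis φ - cis (φ + B)) := by
  have hpi := Real.pi_pos
  obtain ⟨δ, hδ, hd⟩ := mem_nhdsGT_iff_exists_Ioo_subset.1 h1
  obtain ⟨δ', hδ', hd'⟩ := mem_nhdsLT_iff_exists_Ioo_subset.1 h2
  have hδ : 0 < δ := hδ
  have hδ' : δ' < 0 := hδ'
  have e0 : 0 < min (min δ (-δ')) 1 := lt_min (lt_min hδ (by linarith)) one_pos
  set η := min (min δ (-δ')) 1 / 2 with hη
  have n1 : min (min δ (-δ')) 1 ≤ δ := (min_le_left _ _).trans (min_le_left _ _)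
  have n2 : min (min δ (-δ')) 1 ≤ -δ' := (min_le_left _ _).trans (min_le_right _ _)
  have n3 : min (min δ (-δ')) 1 ≤ 1 := min_le_right _ _
  have hη0 : 0 < η := by rw [hη]; linarith
  have hpi3 := Real.pi_gt_three
  have hall : ∀ t ∈ Icc (-η) η, i ∈ Pal U (p + cis (φ + t)) := by
    intro t ht
    rcases lt_trichotomy t 0 with h3 | h3 | h3
    · exact h.sub _ (hd' ⟨by linarith [ht.1], h3⟩)
    · subst h3; rw [add_zero]; exact h.sub _ h0
    · exact h.sub _ (hd ⟨h3, by linarith [ht.2]⟩)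
  have hB1 : ∀ᶠ B : ℝ in 𝓝[>] 0, B < 1 := nhdsWithin_le_nhds (Iio_mem_nhds one_pos)
  filter_upwards [hB1, self_mem_nhdsWithin] with B hB hB0
  have hB0 : 0 < B := hB0
  refine h.mx.both_sides802 (A1 := -η) (A2 := η) (by linarith) hη0 hB0.ne' ?_ ?_ hall
  · rw [abs_neg, abs_of_pos hη0, abs_of_pos hB0]; linarith
  · rw [abs_of_pos hη0, abs_of_pos hB0]; linarith

/-- `Irr.side_split` on a parametrized circle -/
theorem split_param802 {k : ℕ} {U : Fin k → Set ℂ} {T : ℂ → Set (Fin k)} (h : Irr U T) {p : ℂ}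
    {φ : ℝ} {a b c d : Fin k} (hq : DPt T (p + cis φ) a b c d) :
    ∃ X Y : Set (Fin k), ((X = {a, c} ∧ Y = {b, d}) ∨ (X = {b, d} ∧ Y = {a, c}) ∨
        (X = {a, d} ∧ Y = {b, c}) ∨ (X = {b, c} ∧ Y = {a, d})) ∧
      (∀ᶠ t : ℝ in 𝓝[>] 0, T (p + cis (φ + t)) ⊆ X) ∧
      (∀ᶠ t : ℝ in 𝓝[<] 0, T (p + cis (φ + t)) ⊆ Y) := by
  obtain ⟨X, Y, hXY, τ, hτ, hX, hY⟩ := h.side_split hq (dist_add_cis p φ)
  have e : ∀ s : ℝ, p + (p + cis φ - p) * cis s = p + cis (φ + s) := by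
    intro s
    rw [add_sub_cancel_left, cis_mul802]
  have hX' : ∀ᶠ t : ℝ in 𝓝[>] 0, T (p + cis (φ + τ * t)) ⊆ X := by
    have : ∀ᶠ t : ℝ in 𝓝[>] 0, T (p + (p + cis φ - p) * cis (τ * t)) ⊆ X := hX
    simpa only [e] using this
  have hY' : ∀ᶠ t : ℝ in 𝓝[>] 0, T (p + cis (φ + -τ * t)) ⊆ Y := by
    have : ∀ᶠ t : ℝ in 𝓝[>] 0, T (p + (p + cis φ - p) * cis (-τ * t)) ⊆ Y := hY
    simpa only [e] using this
  have hneg : Tendsto (fun t : ℝ => -t) (𝓝[<] 0) (𝓝[>] 0) := by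
    refine tendsto_nhdsWithin_iff.2 ⟨?_, ?_⟩
    · have := (continuous_neg (G := ℝ)).tendsto 0
      rw [neg_zero] at this
      exact this.mono_left nhdsWithin_le_nhds
    · filter_upwards [self_mem_nhdsWithin] with t ht
      have ht : t < 0 := ht
      exact neg_pos.2 ht
  rcases hτ with rfl | rfl
  · refine ⟨X, Y, ?_, by simpa only [one_mul] using hX', ?_⟩
    · rcases hXY with h1 | h1
      · exact Or.inl h1
      · exact Or.inr (Or.inr (Or.inl h1))
    · have := hneg.eventually hY'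
      simpa only [neg_mul, one_mul, neg_neg] using this
  · refine ⟨Y, X, ?_, ?_, ?_⟩
    · rcases hXY with h1 | h1
      · exact Or.inr (Or.inl ⟨h1.2, h1.1⟩)
      · exact Or.inr (Or.inr (Or.inr ⟨h1.2, h1.1⟩))
    · simpa only [neg_neg, one_mul] using hY'
    · have := hneg.eventually hX'
      simpa only [neg_mul, one_mul, neg_neg] using this

theorem split_no802 {k : ℕ} {U : Fin k → Set ℂ} {T : ℂ → Set (Fin k)} (h : Irr U T) {p : ℂ}
    {φ : ℝ} {a b c d : Fin k} (hq : DPt T (p + cis φ) a b c d)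
    (hT : ∀ᶠ t : ℝ in 𝓝[>] 0, c ∈ T (p + cis (φ + t)) ∧ d ∈ T (p + cis (φ + t))) : False := by
  obtain ⟨X, Y, hXY, hX, -⟩ := split_param802 h hq
  obtain ⟨t, h1, h2, h3⟩ := (hX.and hT).exists
  have hac := hq.ac
  have had := hq.ad
  have hbc := hq.bc
  have hbd := hq.bd
  have hcd := hq.cd
  have h2 := h1 h2
  have h3 := h1 h3
  rcases hXY with ⟨rfl, -⟩ | ⟨rfl, -⟩ | ⟨rfl, -⟩ | ⟨rfl, -⟩
  · rcases h3 with h4 | h4
    · exact had h4.symm
    · exact hcd h4.symm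
  · rcases h2 with h4 | h4
    · exact hbc h4.symm
    · exact hcd h4
  · rcases h2 with h4 | h4
    · exact hac h4.symm
    · exact hcd h4
  · rcases h3 with h4 | h4
    · exact hbd h4.symm
    · exact hcd h4.symm

theorem cross802 {k : ℕ} {a b c d x y : Fin k} {X : Set (Fin k)} (hac : a ≠ c) (had : a ≠ d)
    (hbc : b ≠ c) (hbd : b ≠ d) (hab : a ≠ b) (hcd : c ≠ d)
    (hX : X = {a, c} ∨ X = {b, d} ∨ X = {a, d} ∨ X = {b, c}) (hx : x = a ∨ x = b)
    (hy : y = c ∨ y = d) (hxX : x ∈ X) (hyX : y ∈ X) : X = {x, y} := by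
  rcases hX with rfl | rfl | rfl | rfl <;> rcases hx with rfl | rfl <;> rcases hy with rfl | rfl <;>
    simp_all [pair_comm] <;> tauto

theorem split_gt802 {k : ℕ} {U : Fin k → Set ℂ} {T : ℂ → Set (Fin k)} (h : Irr U T) {p : ℂ}
    {φ : ℝ} {a b c d x y : Fin k} (hq : DPt T (p + cis φ) a b c d) (hx : x = a ∨ x = b)
    (hy : y = c ∨ y = d)
    (hT : ∀ᶠ t : ℝ in 𝓝[>] 0, x ∈ T (p + cis (φ + t)) ∧ y ∈ T (p + cis (φ + t))) :
    ∀ᶠ t : ℝ in 𝓝[>] 0, T (p + cis (φ + t)) ⊆ {x, y} := by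
  obtain ⟨X, Y, hXY, hX, -⟩ := split_param802 h hq
  obtain ⟨t, h1, h2, h3⟩ := (hX.and hT).exists
  have hX' : X = {a, c} ∨ X = {b, d} ∨ X = {a, d} ∨ X = {b, c} := by
    rcases hXY with h4 | h4 | h4 | h4
    · exact Or.inl h4.1
    · exact Or.inr (Or.inl h4.1)
    · exact Or.inr (Or.inr (Or.inl h4.1))
    · exact Or.inr (Or.inr (Or.inr h4.1))
  have := cross802 hq.ac hq.ad hq.bc hq.bd hq.ab hq.cd hX' hx hy (h1 h2) (h1 h3)
  rw [← this]; exact hX

theorem split_lt802 {k : ℕ} {U : Fin k → Set ℂ} {T : ℂ → Set (Fin k)} (h : Irr U T) {p : ℂ}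
    {φ : ℝ} {a b c d x y : Fin k} (hq : DPt T (p + cis φ) a b c d) (hx : x = a ∨ x = b)
    (hy : y = c ∨ y = d)
    (hT : ∀ᶠ t : ℝ in 𝓝[<] 0, x ∈ T (p + cis (φ + t)) ∧ y ∈ T (p + cis (φ + t))) :
    ∀ᶠ t : ℝ in 𝓝[<] 0, T (p + cis (φ + t)) ⊆ {x, y} := by
  obtain ⟨X, Y, hXY, -, hY⟩ := split_param802 h hq
  obtain ⟨t, h1, h2, h3⟩ := (hY.and hT).exists
  have hY' : Y = {a, c} ∨ Y = {b, d} ∨ Y = {a, d} ∨ Y = {b, c} := by
    rcases hXY with h4 | h4 | h4 | h4
    · exact Or.inr (Or.inl h4.2)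
    · exact Or.inl h4.2
    · exact Or.inr (Or.inr (Or.inr h4.2))
    · exact Or.inr (Or.inr (Or.inl h4.2))
  have := cross802 hq.ac hq.ad hq.bc hq.bd hq.ab hq.cd hY' hx hy (h1 h2) (h1 h3)
  rw [← this]; exact hY

theorem swap_end802 {k : ℕ} {U : Fin k → Set ℂ} {T : ℂ → Set (Fin k)} (h : Irr U T) {p : ℂ}
    {φ A B : ℝ} (hAB : A * B < 0) (hlt : |A| + |B| < Real.pi) {i j : Fin k}
    (hi : ∀ t ∈ uIcc 0 B, i ∈ Pal U (p + cis φ - cis (φ + t)))
    (hj : ∀ᶠ x in 𝓝 (p + cis (φ + A)), 1 < dist x p → j ∉ Pal U x)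
    (hT : T (p + cis (φ + A)) ⊆ {i, j}) : False := by
  refine h.not_sub_out802 (dist_add_cis p (φ + A)) (Q := {i, j}) ?_ hT
  rintro m (rfl | hm)
  · exact h.mx.wedge_out802 hAB hlt hi
  · rw [mem_singleton_iff] at hm; subst hm; exact hj

/-- sweeping by an arc of `S(z)` after `p`: its colours are absent outside `D(p)` near `q` -/
theorem inner802 {k : ℕ} {U : Fin k → Set ℂ} {T : ℂ → Set (Fin k)} (h : Irr U T) {z : ℂ} {θ : ℝ}
    {i : Fin k} (h0 : i ∈ T (z + cis (θ + Real.pi / 3)))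
    (h1 : ∀ᶠ t : ℝ in 𝓝[>] 0, i ∈ T (z + cis (θ + Real.pi / 3 + t))) :
    ∀ᶠ x in 𝓝 (z + cis (θ + 2 * Real.pi / 3)),
      1 < dist x (z + cis (θ + Real.pi / 3)) → i ∉ Pal U x := by
  have hpi := Real.pi_pos
  have hpi3 := Real.pi_gt_three
  obtain ⟨δ, hδ, hd⟩ := mem_nhdsGT_iff_exists_Ioo_subset.1 h1
  have hδ : 0 < δ := hδ
  have e0 : 0 < min δ 1 := lt_min hδ one_pos
  set η := min δ 1 / 2 with hη
  have n1 : min δ 1 ≤ δ := min_le_left _ _
  have n3 : min δ 1 ≤ 1 := min_le_right _ _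
  have hη0 : 0 < η := by rw [hη]; linarith
  have hlt : dist (z + cis (θ + 2 * Real.pi / 3)) (z + cis (θ + Real.pi / 3 + η)) < 1 := by
    rw [dist_add_left, dist_eq_norm]
    apply lt_one_of_sq802
    rw [nsq_sub802, show θ + 2 * Real.pi / 3 - (θ + Real.pi / 3 + η) = Real.pi / 3 - η by ring]
    have hc : Real.cos (Real.pi / 3) < Real.cos (Real.pi / 3 - η) := by
      refine Real.cos_lt_cos_of_nonneg_of_le_pi ?_ ?_ ?_ <;> linarith
    rw [Real.cos_pi_div_three] at hc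
    linarith
  have e1 : ∀ᶠ x in 𝓝 (z + cis (θ + 2 * Real.pi / 3)),
      dist x (z + cis (θ + Real.pi / 3 + η)) < 1 :=
    (continuous_id.dist continuous_const).continuousAt.eventually (Iio_mem_nhds hlt)
  filter_upwards [e1] with x hx hxp
  refine h.mx.swept (z := z) (t1 := θ + Real.pi / 3 + η) (t2 := θ + Real.pi / 3) ?_ ?_ ?_
  · intro t ht
    rw [uIcc_of_ge (by linarith)] at ht
    rcases eq_or_lt_of_le ht.1 with h3 | h3
    · rw [← h3]; exact h.sub _ h0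
    · have := hd (show t - (θ + Real.pi / 3) ∈ Ioo 0 δ from ⟨by linarith, by linarith [ht.2]⟩)
      have this : i ∈ T (z + cis (θ + Real.pi / 3 + (t - (θ + Real.pi / 3)))) := this
      rw [show θ + Real.pi / 3 + (t - (θ + Real.pi / 3)) = t by ring] at this
      exact h.sub _ this
  · rw [dist_comm]; exact hx
  · rw [dist_comm]; exact hxp

theorem fin_pos802 {k : ℕ} {U : Fin k → Set ℂ} {T : ℂ → Set (Fin k)} (h : Irr U T) {p : ℂ} {φ : ℝ}
    {i j : Fin k} (h0 : i ∈ T p)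
    (hB : ∀ᶠ t : ℝ in 𝓝[>] 0, i ∈ T (p + cis φ - cis (φ + t)))
    (hA : ∀ᶠ t : ℝ in 𝓝[<] 0, T (p + cis (φ + t)) ⊆ {i, j})
    (hin : ∀ᶠ x in 𝓝 (p + cis φ), 1 < dist x p → j ∉ Pal U x) : False := by
  obtain ⟨δ, hδ, hd⟩ := mem_nhdsGT_iff_exists_Ioo_subset.1 hB
  have hδ : 0 < δ := hδ
  have e0 : 0 < min δ 1 := lt_min hδ one_pos
  have n1 : min δ 1 ≤ δ := min_le_left _ _
  have n2 : min δ 1 ≤ 1 := min_le_right _ _
  have hpi3 := Real.pi_gt_three
  have hfin : ∀ᶠ t : ℝ in 𝓝[<] 0, ∀ᶠ x in 𝓝 (p + cis (φ + t)), 1 < dist x p → j ∉ Pal U x :=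
    ((tendsto_cis802 p φ).mono_left nhdsWithin_le_nhds).eventually
      (eventually_eventually_nhds.2 hin)
  have hlt1 : ∀ᶠ t : ℝ in 𝓝[<] 0, -1 < t :=
    nhdsWithin_le_nhds (Ioi_mem_nhds (by norm_num : (-1 : ℝ) < 0))
  have hall := hA.and (hfin.and (hlt1.and self_mem_nhdsWithin))
  obtain ⟨A, hA1, hA2, hA3, hA0⟩ := hall.exists
  have hA0 : A < 0 := hA0
  refine swap_end802 h (p := p) (φ := φ) (A := A) (B := min δ 1 / 2) (i := i) (j := j)
    (mul_neg_of_neg_of_pos hA0 (by linarith)) ?_ ?_ hA2 hA1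
  · rw [abs_of_neg hA0, abs_of_pos (by linarith)]; linarith
  · intro t ht
    rw [uIcc_of_le (by linarith)] at ht
    rcases eq_or_lt_of_le ht.1 with h3 | h3
    · rw [← h3, add_zero, add_sub_cancel_right]; exact h.sub _ h0
    · exact h.sub _ (hd ⟨h3, by linarith [ht.2]⟩)

theorem fin_neg802 {k : ℕ} {U : Fin k → Set ℂ} {T : ℂ → Set (Fin k)} (h : Irr U T) {p : ℂ} {φ : ℝ}
    {i j : Fin k} (h0 : i ∈ T p)
    (hB : ∀ᶠ t : ℝ in 𝓝[<] 0, i ∈ T (p + cis φ - cis (φ + t)))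
    (hA : ∀ᶠ t : ℝ in 𝓝[>] 0, T (p + cis (φ + t)) ⊆ {i, j})
    (hin : ∀ᶠ x in 𝓝 (p + cis φ), 1 < dist x p → j ∉ Pal U x) : False := by
  obtain ⟨δ, hδ, hd⟩ := mem_nhdsLT_iff_exists_Ioo_subset.1 hB
  have hδ : δ < 0 := hδ
  have e0 : 0 < min (-δ) 1 := lt_min (by linarith) one_pos
  have n1 : min (-δ) 1 ≤ -δ := min_le_left _ _
  have n2 : min (-δ) 1 ≤ 1 := min_le_right _ _
  have hpi3 := Real.pi_gt_three
  have hfin : ∀ᶠ t : ℝ in 𝓝[>] 0, ∀ᶠ x in 𝓝 (p + cis (φ + t)), 1 < dist x p → j ∉ Pal U x :=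
    ((tendsto_cis802 p φ).mono_left nhdsWithin_le_nhds).eventually
      (eventually_eventually_nhds.2 hin)
  have hgt1 : ∀ᶠ t : ℝ in 𝓝[>] 0, t < 1 := nhdsWithin_le_nhds (Iio_mem_nhds one_pos)
  have hall := hA.and (hfin.and (hgt1.and self_mem_nhdsWithin))
  obtain ⟨A, hA1, hA2, hA3, hA0⟩ := hall.exists
  have hA0 : 0 < A := hA0
  refine swap_end802 h (p := p) (φ := φ) (A := A) (B := -(min (-δ) 1 / 2)) (i := i) (j := j)
    (mul_neg_of_pos_of_neg hA0 (by linarith)) ?_ ?_ hA2 hA1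
  · rw [abs_neg, abs_of_pos hA0, abs_of_pos (by linarith)]; linarith
  · intro t ht
    rw [uIcc_of_ge (by linarith)] at ht
    rcases eq_or_lt_of_le ht.2 with h3 | h3
    · rw [h3, add_zero, add_sub_cancel_right]; exact h.sub _ h0
    · exact h.sub _ (hd ⟨by linarith [ht.1], h3⟩)

section Core

variable {U : Fin 6 → Set ℂ} {T : ℂ → Set (Fin 6)}

theorem neg_cis802 (θ : ℝ) : -cis θ = cis (θ + Real.pi) := (cis_add_pi802 θ).symm

/-- the rhombus `z`, `p`, `q`: branches of `S(p)` at `q` and of `S(q)` at `p` -/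
structure Geo802 (z p q : ℂ) (θ : ℝ) : Prop where
  qp : q = p + cis (θ + Real.pi)
  pq : p = q + cis θ
  br : ∀ t : ℝ, p + cis (θ + Real.pi) - cis (θ + Real.pi + t) = q + cis (θ + t)
  br' : ∀ t : ℝ, q + cis θ - cis (θ + t) = p + cis (θ + Real.pi + t)
  pin : ∀ᶠ t : ℝ in 𝓝[>] 0, dist (p + cis (θ + Real.pi + t)) z < 1
  pout : ∀ᶠ t : ℝ in 𝓝[<] 0, 1 < dist (p + cis (θ + Real.pi + t)) z
  qout : ∀ᶠ t : ℝ in 𝓝[>] 0, 1 < dist (q + cis (θ + t)) z
  qin : ∀ᶠ t : ℝ in 𝓝[<] 0, dist (q + cis (θ + t)) z < 1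

theorem geo802 {z p q : ℂ} {θ : ℝ} (hp : p = z + cis (θ + Real.pi / 3))
    (hq : q = z + cis (θ + 2 * Real.pi / 3)) : Geo802 z p q θ := by
  have hpi := Real.pi_pos
  have hpi3 := Real.pi_gt_three
  have hqp : q = p + cis (θ + Real.pi) := by
    have := cis_sixty802 θ
    rw [neg_cis802] at this
    rw [hp, hq, ← this]; ring
  have hpq : p = q + cis θ := by
    rw [hqp, cis_add_pi802]; ring
  have hbr : ∀ t : ℝ, p + cis (θ + Real.pi) - cis (θ + Real.pi + t) = q + cis (θ + t) := by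
    intro t
    rw [← hqp, show θ + Real.pi + t = θ + t + Real.pi by ring, cis_add_pi802]; ring
  have hbr' : ∀ t : ℝ, q + cis θ - cis (θ + t) = p + cis (θ + Real.pi + t) := by
    intro t
    rw [← hpq, show θ + Real.pi + t = θ + t + Real.pi by ring, cis_add_pi802]; ring
  have sq1 : ∀ t : ℝ, dist (p + cis (θ + Real.pi + t)) z ^ 2 =
      2 + 2 * Real.cos (2 * Real.pi / 3 + t) := by
    intro t
    rw [dist_eq_norm, hp, show z + cis (θ + Real.pi / 3) + cis (θ + Real.pi + t) - z =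
      cis (θ + Real.pi / 3) + cis (θ + Real.pi + t) by ring, nsq_add802]
    congr 2
    rw [← Real.cos_neg]; congr 1; ring
  have sq2 : ∀ t : ℝ, dist (q + cis (θ + t)) z ^ 2 = 2 + 2 * Real.cos (2 * Real.pi / 3 - t) := by
    intro t
    rw [dist_eq_norm, hq, show z + cis (θ + 2 * Real.pi / 3) + cis (θ + t) - z =
      cis (θ + 2 * Real.pi / 3) + cis (θ + t) by ring, nsq_add802]
    congr 2
    congr 1; ring
  have hc3 : Real.cos (2 * Real.pi / 3) = -(1 / 2) := by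
    rw [show 2 * Real.pi / 3 = Real.pi - Real.pi / 3 by ring, Real.cos_pi_sub,
      Real.cos_pi_div_three]
  have hgt1 : ∀ᶠ t : ℝ in 𝓝[>] 0, t < 1 := nhdsWithin_le_nhds (Iio_mem_nhds one_pos)
  have hlt1 : ∀ᶠ t : ℝ in 𝓝[<] 0, -1 < t :=
    nhdsWithin_le_nhds (Ioi_mem_nhds (by norm_num : (-1 : ℝ) < 0))
  have clt : ∀ t : ℝ, 0 < t → t < 1 → Real.cos (2 * Real.pi / 3 + t) < -(1 / 2) := by
    intro t h1 h2
    rw [← hc3]
    refine Real.cos_lt_cos_of_nonneg_of_le_pi ?_ ?_ ?_ <;> linarith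
  have cgt : ∀ t : ℝ, 0 < t → t < 1 → -(1 / 2) < Real.cos (2 * Real.pi / 3 - t) := by
    intro t h1 h2
    rw [← hc3]
    refine Real.cos_lt_cos_of_nonneg_of_le_pi ?_ ?_ ?_ <;> linarith
  refine ⟨hqp, hpq, hbr, hbr', ?_, ?_, ?_, ?_⟩
  · filter_upwards [hgt1, self_mem_nhdsWithin] with t h1 h2
    apply lt_one_of_sq802
    rw [sq1]; linarith [clt t h2 h1]
  · filter_upwards [hlt1, self_mem_nhdsWithin] with t h1 h2
    have h2 : t < 0 := h2
    apply one_lt_of_sq802 dist_nonneg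
    have := cgt (-t) (by linarith) (by linarith)
    rw [sub_neg_eq_add] at this
    rw [sq1]; linarith
  · filter_upwards [hgt1, self_mem_nhdsWithin] with t h1 h2
    apply one_lt_of_sq802 dist_nonneg
    rw [sq2]; linarith [cgt t h2 h1]
  · filter_upwards [hlt1, self_mem_nhdsWithin] with t h1 h2
    have h2 : t < 0 := h2
    apply lt_one_of_sq802
    have := clt (-t) (by linarith) (by linarith)
    rw [← sub_eq_add_neg] at this
    rw [sq2]; linarith

/-- `{e, f}` on both sides of `p + cis φ`: no colour of it next to `p` on the other circle -/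
theorem no_ef802 (h : Irr U T) {p : ℂ} {φ : ℝ} {e f : Fin 6} {R : Set (Fin 6)}
    (he : e ∈ T (p + cis φ)) (hf : f ∈ T (p + cis φ))
    (h1 : ∀ᶠ t : ℝ in 𝓝[>] 0, ({e, f} : Set (Fin 6)) ⊆ T (p + cis (φ + t)))
    (h2 : ∀ᶠ t : ℝ in 𝓝[<] 0, ({e, f} : Set (Fin 6)) ⊆ T (p + cis (φ + t)))
    (hR : e ∈ R ∨ f ∈ R)
    (h3 : ∀ᶠ t : ℝ in 𝓝[>] 0, R ⊆ T (p + cis φ - cis (φ + t))) : False := by
  rcases hR with hR | hR
  · have ke := both_ef802 h he (h1.mono fun t ht => ht (by simp)) (h2.mono fun t ht => ht (by simp))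
    obtain ⟨t, k1, k2⟩ := (ke.and h3).exists
    exact k1 (h.sub _ (k2 hR))
  · have ke := both_ef802 h hf (h1.mono fun t ht => ht (by simp)) (h2.mono fun t ht => ht (by simp))
    obtain ⟨t, k1, k2⟩ := (ke.and h3).exists
    exact k1 (h.sub _ (k2 hR))

/-- **two order-4 points**: `T p = T q = {c, d, e, f}`: the four branches -/
theorem branches802 (h : Irr U T) (hmin : H338.Mn338 U T) {z p q : ℂ} {θ : ℝ}
    (G : Geo802 z p q θ)
    {c d e f : Fin 6} (hcd : c ≠ d) (hce : c ≠ e) (hcf : c ≠ f) (hde : d ≠ e) (hdf : d ≠ f)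
    (hef : e ≠ f) (Tp : T p = {c, d, e, f}) (Tq : T q = {c, d, e, f})
    (hcp : ∀ᶠ x in 𝓝 p, 1 < dist x z → c ∉ Pal U x)
    (hdp : ∀ᶠ x in 𝓝 p, dist x z < 1 → d ∉ Pal U x)
    (hcq : ∀ᶠ x in 𝓝 q, 1 < dist x z → c ∉ Pal U x)
    (hdq : ∀ᶠ x in 𝓝 q, dist x z < 1 → d ∉ Pal U x) :
    ∃ P Q P' Q' : Set (Fin 6), ((P = {d, e} ∧ Q = {c, f}) ∨ (P = {d, f} ∧ Q = {c, e})) ∧
      ((P' = {d, e} ∧ Q' = {c, f}) ∨ (P' = {d, f} ∧ Q' = {c, e})) ∧
      (∀ᶠ t : ℝ in 𝓝[>] 0, Q ⊆ T (p + cis (θ + Real.pi + t))) ∧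
      (∀ᶠ t : ℝ in 𝓝[<] 0, P ⊆ T (p + cis (θ + Real.pi + t))) ∧
      (∀ᶠ t : ℝ in 𝓝[>] 0, P' ⊆ T (q + cis (θ + t))) ∧
      (∀ᶠ t : ℝ in 𝓝[<] 0, Q' ⊆ T (q + cis (θ + t))) ∧
      (∃ g, Arc T p g P) ∧ (∃ g, Arc T p g Q) ∧ (∃ g, Arc T q g P') ∧ ∃ g, Arc T q g Q' := by
  have hqp := G.qp
  have hpq := G.pq
  have hdqp : dist q p = 1 := by rw [hqp]; exact dist_add_cis _ _
  have hdpq : dist p q = 1 := by rw [dist_comm]; exact hdqp
  have tpg := tendsto_cis_gt802 p (θ + Real.pi)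
  have tpl := tendsto_cis_lt802 p (θ + Real.pi)
  rw [← hqp] at tpg tpl
  have tqg := tendsto_cis_gt802 q θ
  have tql := tendsto_cis_lt802 q θ
  rw [← hpq] at tqg tql
  obtain ⟨P, Q, hPQ, hbp, hg1, hg2⟩ := swapB802 h hmin hcd hce hcf hde hdf hef Tp Tq
    hcq hdq (tpl.frequently G.pout.frequently) (tpg.frequently G.pin.frequently)
  obtain ⟨P', Q', hPQ', hbq, hg3, hg4⟩ := swapB802 h hmin hcd hce hcf hde hdf hef Tq
    Tp hcp hdp (tqg.frequently G.qout.frequently) (tql.frequently G.qin.frequently)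
  -- the four branches
  have Ain : ∀ᶠ t : ℝ in 𝓝[>] 0, Q ⊆ T (p + cis (θ + Real.pi + t)) := by
    filter_upwards [tpg.eventually hbp, G.pin] with t h1 h2 using h1.2 h2
  have Aout : ∀ᶠ t : ℝ in 𝓝[<] 0, P ⊆ T (p + cis (θ + Real.pi + t)) := by
    filter_upwards [tpl.eventually hbp, G.pout] with t h1 h2 using h1.1 h2
  have Bout : ∀ᶠ t : ℝ in 𝓝[>] 0, P' ⊆ T (q + cis (θ + t)) := by
    filter_upwards [tqg.eventually hbq, G.qout] with t h1 h2 using h1.1 h2
  have Bin : ∀ᶠ t : ℝ in 𝓝[<] 0, Q' ⊆ T (q + cis (θ + t)) := by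
    filter_upwards [tql.eventually hbq, G.qin] with t h1 h2 using h1.2 h2
  have eq : e ∈ T (p + cis (θ + Real.pi)) := by rw [← hqp, Tq]; simp
  have fq : f ∈ T (p + cis (θ + Real.pi)) := by rw [← hqp, Tq]; simp
  have ep : e ∈ T (q + cis θ) := by rw [← hpq, Tp]; simp
  have fp : f ∈ T (q + cis θ) := by rw [← hpq, Tp]; simp
  have ex1 : ¬ (P = {e, f} ∧ Q = {e, f}) := by
    rintro ⟨rfl, rfl⟩
    refine no_ef802 h eq fq Ain Aout (R := P') ?_ (Bout.mono fun t ht => by rw [G.br]; exact ht)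
    rcases hPQ' with ⟨h4, -⟩ | ⟨h4, -⟩ | ⟨h4, -⟩ <;> rw [h4] <;> simp
  have ex2 : ¬ (P' = {e, f} ∧ Q' = {e, f}) := by
    rintro ⟨rfl, rfl⟩
    refine no_ef802 h ep fp Bout Bin (R := Q) ?_ (Ain.mono fun t ht => by rw [G.br']; exact ht)
    rcases hPQ with ⟨-, h4⟩ | ⟨-, h4⟩ | ⟨-, h4⟩ <;> rw [h4] <;> simp
  refine ⟨P, Q, P', Q', ?_, ?_, Ain, Aout, Bout, Bin, hg1, hg2, hg3, hg4⟩
  · rcases hPQ with h1 | h1
    · exact absurd h1 ex1
    · exact h1
  · rcases hPQ' with h1 | h1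
    · exact absurd h1 ex2
    · exact h1

theorem dpt1_802 {w : ℂ} {c d e f : Fin 6} (hcd : c ≠ d) (hce : c ≠ e) (hcf : c ≠ f)
    (hde : d ≠ e) (hdf : d ≠ f) (hef : e ≠ f) (Tw : T w = {c, d, e, f}) {P Q : Set (Fin 6)}
    (hP : P = {d, e}) (hQ : Q = {c, f}) (h1 : ∃ g, Arc T w g P) (h2 : ∃ g, Arc T w g Q) :
    DPt T w d e c f := by
  subst hP; subst hQ
  refine ⟨?_, hcd.symm, hdf, hce.symm, hef, hde, hcf, h1, h2⟩
  rw [Tw]; ext x; simp only [mem_insert_iff, mem_singleton_iff]; tauto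

/-- `T p = T q = {c, d, e, f}`: `p` is a two-pair point, its pairs are not `c d`, `e f`, and the
free colour `f` is not constant on `S(z)` after `p` -/
theorem swap44_802 (h : Irr U T) (hmin : H338.Mn338 U T) {z p q : ℂ} {θ : ℝ}
    (hp : p = z + cis (θ + Real.pi / 3)) (hq : q = z + cis (θ + 2 * Real.pi / 3))
    {c d e f : Fin 6} (hcd : c ≠ d) (hce : c ≠ e) (hcf : c ≠ f) (hde : d ≠ e) (hdf : d ≠ f)
    (hef : e ≠ f) (Tp : T p = {c, d, e, f}) (Tq : T q = {c, d, e, f})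
    (hcp : ∀ᶠ x in 𝓝 p, 1 < dist x z → c ∉ Pal U x)
    (hdp : ∀ᶠ x in 𝓝 p, dist x z < 1 → d ∉ Pal U x)
    (hcq : ∀ᶠ x in 𝓝 q, 1 < dist x z → c ∉ Pal U x)
    (hdq : ∀ᶠ x in 𝓝 q, dist x z < 1 → d ∉ Pal U x) :
    (DPt T p d e c f ∨ DPt T p d f c e) ∧
      ((∀ᶠ t : ℝ in 𝓝[>] 0, f ∈ T (z + cis (θ + Real.pi / 3 + t))) → False) := by
  have G := geo802 hp hq
  have Tp2 : T p = {c, d, f, e} := by rw [Tp, pair_comm e f]
  have Tq2 : T q = {c, d, f, e} := by rw [Tq, pair_comm e f]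
  obtain ⟨P, Q, P', Q', hPQ, hPQ', Ain, Aout, Bout, Bin, hg1, hg2, hg3, hg4⟩ :=
    branches802 h hmin G hcd hce hcf hde hdf hef Tp Tq hcp hdp hcq hdq
  refine ⟨?_, fun hfa => ?_⟩
  · rcases hPQ with ⟨hP1, hQ1⟩ | ⟨hP1, hQ1⟩
    · exact Or.inl (dpt1_802 hcd hce hcf hde hdf hef Tp hP1 hQ1 hg1 hg2)
    · exact Or.inr (dpt1_802 hcd hcf hce hdf hde hef.symm Tp2 hP1 hQ1 hg1 hg2)
  have inner := inner802 h (z := z) (θ := θ) (i := f) (by rw [← hp, Tp]; simp) hfa
  rw [← hp, ← hq, G.qp] at inner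
  have cp : c ∈ T p := by rw [Tp]; simp
  have dp : d ∈ T p := by rw [Tp]; simp
  rcases hPQ with ⟨hP1, hQ1⟩ | ⟨hP1, hQ1⟩
  · rcases hPQ' with ⟨hP2, hQ2⟩ | ⟨hP2, hQ2⟩
    · -- same pairs
      have hD := dpt1_802 hcd hce hcf hde hdf hef Tq hP2 hQ2 hg3 hg4
      rw [G.qp] at hD
      rw [hQ1] at Ain
      exact split_no802 h hD (Ain.mono fun t ht => ⟨ht (by simp), ht (by simp)⟩)
    · -- different pairs: the inner branch `c f`
      have hD := dpt1_802 hcd hcf hce hdf hde hef.symm Tq2 hP2 hQ2 hg3 hg4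
      rw [G.qp] at hD
      rw [hQ1] at Ain
      rw [hQ2] at Bin
      have hX := split_gt802 h hD (x := f) (y := c) (Or.inr rfl) (Or.inl rfl)
        (Ain.mono fun t ht => ⟨ht (by simp), ht (by simp)⟩)
      rw [pair_comm f c] at hX
      exact fin_neg802 h (i := c) (j := f) cp
        (Bin.mono fun t ht => by rw [G.br]; exact ht (by simp)) hX inner
  · rcases hPQ' with ⟨hP2, hQ2⟩ | ⟨hP2, hQ2⟩
    · -- the outer branch `d f`
      have hD := dpt1_802 hcd hce hcf hde hdf hef Tq hP2 hQ2 hg3 hg4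
      rw [G.qp] at hD
      rw [hP1] at Aout
      rw [hP2] at Bout
      have hX := split_lt802 h hD (x := d) (y := f) (Or.inl rfl) (Or.inr rfl)
        (Aout.mono fun t ht => ⟨ht (by simp), ht (by simp)⟩)
      exact fin_pos802 h (i := d) (j := f) dp
        (Bout.mono fun t ht => by rw [G.br]; exact ht (by simp)) hX inner
    · have hD := dpt1_802 hcd hcf hce hdf hde hef.symm Tq2 hP2 hQ2 hg3 hg4
      rw [G.qp] at hD
      rw [hQ1] at Ain
      exact split_no802 h hD (Ain.mono fun t ht => ⟨ht (by simp), ht (by simp)⟩)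

/-- a half branch inside `{i, j}`, `i` a colour of `T z`: the colour `j` is there -/
theorem mem_of_branch802 (h : Irr U T) {z : ℂ} {φ : ℝ} {i j : Fin 6} (hi : i ∈ T z)
    (hX : ∀ᶠ t : ℝ in 𝓝[>] 0, T (z + cis (φ + t)) ⊆ {i, j}) :
    ∀ᶠ t : ℝ in 𝓝[>] 0, j ∈ T (z + cis (φ + t)) := by
  filter_upwards [hX] with t ht
  by_contra hcon
  refine h.mx.notMem' (h.mem_of_single (x := z + cis (φ + t)) (i := i) fun m hm => ?_)
    (dist_add_cis z (φ + t)) (h.sub z hi)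
  rcases ht hm with h1 | h1
  · exact h1
  · rw [mem_singleton_iff] at h1
    exact absurd (h1 ▸ hm) hcon

/-- the swap lemma with the ray of `c` towards `p`, `q` and the ray of `d` away -/
theorem swapR802 (h : Irr U T) (hmin : H338.Mn338 U T) {z p q : ℂ} {θ : ℝ}
    {c d e f : Fin 6} (cT : c ∈ T z) (dT : d ∈ T z) (hcd : c ≠ d) (hce : c ≠ e) (hcf : c ≠ f)
    (hde : d ≠ e) (hdf : d ≠ f) (hef : e ≠ f)
    (hp : p = z + cis (θ + Real.pi / 3)) (hq : q = z + cis (θ + 2 * Real.pi / 3))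
    (Tp : T p ⊆ {c, d, e, f}) (Tq : T q ⊆ {c, d, e, f})
    (ep : e ∈ T p) (fp : f ∈ T p) (eq : e ∈ T q) (fq : f ∈ T q)
    (rc : Ray (U c) z (Complex.I * cis θ)) (rd : Ray (U d) z (-(Complex.I * cis θ))) :
    (T p = {c, d, e, f} ∧ T q = {e, f} ∧ Arc T p q {e, f}) ∨
    (T q = {c, d, e, f} ∧ T p = {e, f} ∧ Arc T q p {e, f}) ∨
    (T p = {c, d, e, f} ∧ T q = {c, d, e, f} ∧ ∃ X Y : Set (Fin 6),
      ((X = {c, d} ∧ Y = {e, f}) ∨ (X = {e, f} ∧ Y = {c, d})) ∧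
      (∀ᶠ t : ℝ in 𝓝[>] 0, T (z + cis (θ + Real.pi / 3 + t)) ⊆ X) ∧
      (∀ᶠ t : ℝ in 𝓝[<] 0, T (z + cis (θ + Real.pi / 3 + t)) ⊆ Y)) := by
  have hpi := Real.pi_pos
  have hdp : dist p z = 1 := by rw [hp]; exact dist_add_cis _ _
  have hdq : dist q z = 1 := by rw [hq]; exact dist_add_cis _ _
  have hqp := (geo802 hp hq).qp
  have hpq := (geo802 hp hq).pq
  have hdqp : dist q p = 1 := by rw [hqp]; exact dist_add_cis _ _
  have hdpq : dist p q = 1 := by rw [dist_comm]; exact hdqp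
  -- the inner product of the vertical direction with `p - z`, `q - z`
  have hip : ∀ s : ℝ, ip (Complex.I * cis θ) (cis (θ + s)) = Real.sin s := by
    intro s
    unfold ip
    simp only [Complex.mul_re, Complex.mul_im, Complex.I_re, Complex.I_im, cis_re, cis_im]
    rw [show Real.sin s = Real.sin ((θ + s) - θ) by congr 1; ring, Real.sin_sub]
    ring
  have hip' : ∀ s : ℝ, ip (-(Complex.I * cis θ)) (cis (θ + s)) = -Real.sin s := by
    intro s
    rw [← hip s]; unfold ip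
    rw [Complex.neg_re, Complex.neg_im]; ring
  have s1 : 0 < Real.sin (Real.pi / 3) :=
    Real.sin_pos_of_pos_of_lt_pi (by linarith) (by linarith)
  have s2 : 0 < Real.sin (2 * Real.pi / 3) :=
    Real.sin_pos_of_pos_of_lt_pi (by linarith) (by linarith)
  have vp : p - z = cis (θ + Real.pi / 3) := by rw [hp]; ring
  have vq : q - z = cis (θ + 2 * Real.pi / 3) := by rw [hq]; ring
  have hcp : ∀ᶠ x in 𝓝 p, 1 < dist x z → c ∉ Pal U x :=
    h.mx.far rc hdp (by rw [vp, hip]; exact s1)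
  have hcq : ∀ᶠ x in 𝓝 q, 1 < dist x z → c ∉ Pal U x :=
    h.mx.far rc hdq (by rw [vq, hip]; exact s2)
  have hdp' : ∀ᶠ x in 𝓝 p, dist x z < 1 → d ∉ Pal U x :=
    h.mx.near rd hdp (by rw [vp, hip']; linarith)
  have hdq' : ∀ᶠ x in 𝓝 q, dist x z < 1 → d ∉ Pal U x :=
    h.mx.near rd hdq (by rw [vq, hip']; linarith)
  -- frequently in and out
  have G := geo802 hp hq
  have tpg := tendsto_cis_gt802 p (θ + Real.pi)
  have tpl := tendsto_cis_lt802 p (θ + Real.pi)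
  rw [← hqp] at tpg tpl
  have tqg := tendsto_cis_gt802 q θ
  have tql := tendsto_cis_lt802 q θ
  rw [← hpq] at tqg tql
  have pin : ∃ᶠ x in 𝓝[sphere p 1] q, dist x z < 1 := tpg.frequently G.pin.frequently
  have pout : ∃ᶠ x in 𝓝[sphere p 1] q, 1 < dist x z := tpl.frequently G.pout.frequently
  have qout : ∃ᶠ x in 𝓝[sphere q 1] p, 1 < dist x z := tqg.frequently G.qout.frequently
  have qin : ∃ᶠ x in 𝓝[sphere q 1] p, dist x z < 1 := tql.frequently G.qin.frequently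
  rcases le_or_gt (T q).ncard 3 with hq3 | hq3
  · -- `|T q| ≤ 3`
    obtain ⟨k1, k2⟩ := h.swapA802 hcp hdp' Tp Tq eq fq ep fp qout qin hq3
    exact Or.inl ⟨k1, k2, h.arc_pair802 hdqp k2 ep fp⟩
  rcases le_or_gt (T p).ncard 3 with hp3 | hp3
  · obtain ⟨k1, k2⟩ := h.swapA802 hcq hdq' Tq Tp ep fp eq fq pout pin hp3
    exact Or.inr (Or.inl ⟨k1, k2, h.arc_pair802 hdpq k2 eq fq⟩)
  have hF : ({c, d, e, f} : Set (Fin 6)).ncard = 4 := by
    rw [Set.ncard_insert_of_notMem (by simp [hcd, hce, hcf]),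
      Set.ncard_insert_of_notMem (by simp [hde, hdf]), Set.ncard_pair hef]
  have Tp' : T p = {c, d, e, f} := Set.eq_of_subset_of_ncard_le Tp (by omega) (Set.toFinite _)
  have Tq' : T q = {c, d, e, f} := Set.eq_of_subset_of_ncard_le Tq (by omega) (Set.toFinite _)
  refine Or.inr (Or.inr ⟨Tp', Tq', ?_⟩)
  obtain ⟨hD, nf⟩ := swap44_802 h hmin hp hq hcd hce hcf hde hdf hef Tp' Tq' hcp hdp' hcq hdq'
  have Tp2 : T p = {c, d, f, e} := by rw [Tp', pair_comm e f]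
  have Tq2 : T q = {c, d, f, e} := by rw [Tq', pair_comm e f]
  obtain ⟨-, ne⟩ := swap44_802 h hmin hp hq hcd hcf hce hdf hde hef.symm Tp2 Tq2 hcp hdp' hcq hdq'
  rcases hD with hD | hD
  · rw [hp] at hD
    obtain ⟨X, Y, hXY, hX, hY⟩ := split_param802 h hD
    rcases hXY with ⟨rfl, rfl⟩ | ⟨rfl, rfl⟩ | ⟨rfl, rfl⟩ | ⟨rfl, rfl⟩
    · exact ⟨{c, d}, {e, f}, Or.inl ⟨rfl, rfl⟩, by rw [pair_comm c d]; exact hX, hY⟩
    · exact ⟨{e, f}, {c, d}, Or.inr ⟨rfl, rfl⟩, hX, by rw [pair_comm c d]; exact hY⟩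
    · exact (nf (mem_of_branch802 h dT hX)).elim
    · exact (ne (mem_of_branch802 h cT (by rw [pair_comm c e]; exact hX))).elim
  · rw [hp] at hD
    obtain ⟨X, Y, hXY, hX, hY⟩ := split_param802 h hD
    rcases hXY with ⟨rfl, rfl⟩ | ⟨rfl, rfl⟩ | ⟨rfl, rfl⟩ | ⟨rfl, rfl⟩
    · exact ⟨{c, d}, {e, f}, Or.inl ⟨rfl, rfl⟩, by rw [pair_comm c d]; exact hX,
        by rw [pair_comm e f]; exact hY⟩
    · exact ⟨{e, f}, {c, d}, Or.inr ⟨rfl, rfl⟩, by rw [pair_comm e f]; exact hX,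
        by rw [pair_comm c d]; exact hY⟩
    · exact (ne (mem_of_branch802 h dT hX)).elim
    · exact (nf (mem_of_branch802 h cT (by rw [pair_comm c f]; exact hX))).elim

/-- **Swap lemma** -/
theorem Irr.swap802 (h : Irr U T) (hmin : H338.Mn338 U T) {z p q : ℂ} {θ : ℝ}
    {a b c d e f : Fin 6} (hz : DPt T z a b c d) (he : e ∉ T z) (hf : f ∉ T z) (hef : e ≠ f)
    (hy : Arc T z (z + cis θ) {a, b}) (hy' : Arc T z (z + cis (θ + Real.pi)) {a, b})
    (hp : p = z + cis (θ + Real.pi / 3)) (hq : q = z + cis (θ + 2 * Real.pi / 3))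
    (ep : e ∈ T p) (fp : f ∈ T p) (eq : e ∈ T q) (fq : f ∈ T q) :
    (T p = {c, d, e, f} ∧ T q = {e, f} ∧ Arc T p q {e, f}) ∨
    (T q = {c, d, e, f} ∧ T p = {e, f} ∧ Arc T q p {e, f}) ∨
    (T p = {c, d, e, f} ∧ T q = {c, d, e, f} ∧ ∃ X Y : Set (Fin 6),
      ((X = {c, d} ∧ Y = {e, f}) ∨ (X = {e, f} ∧ Y = {c, d})) ∧
      (∀ᶠ t : ℝ in 𝓝[>] 0, T (z + cis (θ + Real.pi / 3 + t)) ⊆ X) ∧
      (∀ᶠ t : ℝ in 𝓝[<] 0, T (z + cis (θ + Real.pi / 3 + t)) ⊆ Y)) := by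
  have hpi := Real.pi_pos
  have hdp : dist p z = 1 := by rw [hp]; exact dist_add_cis _ _
  have hdq : dist q z = 1 := by rw [hq]; exact dist_add_cis _ _
  have aT : a ∈ T z := by rw [hz.pal]; simp
  have bT : b ∈ T z := by rw [hz.pal]; simp
  have cT : c ∈ T z := by rw [hz.pal]; simp
  have dT : d ∈ T z := by rw [hz.pal]; simp
  have hae : a ≠ e := fun k => he (k ▸ aT)
  have haf : a ≠ f := fun k => hf (k ▸ aT)
  have hbe : b ≠ e := fun k => he (k ▸ bT)
  have hbf : b ≠ f := fun k => hf (k ▸ bT)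
  have hce : c ≠ e := fun k => he (k ▸ cT)
  have hcf : c ≠ f := fun k => hf (k ▸ cT)
  have hde : d ≠ e := fun k => he (k ▸ dT)
  have hdf : d ≠ f := fun k => hf (k ▸ dT)
  -- all colours
  have hall : ∀ i : Fin 6, i = a ∨ i = b ∨ i = c ∨ i = d ∨ i = e ∨ i = f := by
    have hcard : ({a, b, c, d, e, f} : Finset (Fin 6)).card = 6 := by
      rw [Finset.card_insert_of_notMem (by simp [hz.ab, hz.ac, hz.ad, hae, haf]),
        Finset.card_insert_of_notMem (by simp [hz.bc, hz.bd, hbe, hbf]),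
        Finset.card_insert_of_notMem (by simp [hz.cd, hce, hcf]),
        Finset.card_insert_of_notMem (by simp [hde, hdf]), Finset.card_pair hef]
    have huniv : ({a, b, c, d, e, f} : Finset (Fin 6)) = Finset.univ :=
      Finset.eq_univ_of_card _ (by rw [hcard]; rfl)
    intro i
    have := Finset.mem_univ i
    rw [← huniv] at this
    simpa using this
  -- `T p`, `T q` miss `a`, `b`
  have npq : ∀ {w y : ℂ} {u s : ℝ}, w = z + cis u → y = z + cis s → dist y w = 1 →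
      Arc T z y {a, b} → T w ⊆ {c, d, e, f} := by
    intro w y u s hw hy1 hd hA t ht
    have key : t = a ∨ t = b → False := by
      intro ht'
      have htt : ∀ᶠ x in 𝓝[sphere z 1] y, t ∈ T x := by
        filter_upwards [hA.2] with x hx
        rw [hx]; rcases ht' with rfl | rfl <;> simp
      rcases h.third hA.1 htt hd ht with k1 | k1
      · rw [hw] at k1
        have k2 : cis u = 0 := by linear_combination k1
        have k3 := norm_cis u
        rw [k2, norm_zero] at k3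
        exact zero_ne_one k3
      · rw [hw, hy1] at k1
        have k2 : cis u = 2 * cis s := by linear_combination k1
        have k3 := norm_cis u
        rw [k2, norm_mul, norm_cis] at k3
        norm_num at k3
    rcases hall t with k | k | k | k | k | k
    · exact absurd (Or.inl k) key
    · exact absurd (Or.inr k) key
    · simp [k]
    · simp [k]
    · simp [k]
    · simp [k]
  have dist60 : ∀ u v : ℝ, Real.cos (u - v) = 1 / 2 → dist (z + cis u) (z + cis v) = 1 := by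
    intro u v huv
    rw [dist_add_left, dist_eq_norm]
    have := nsq_sub802 u v
    rw [huv] at this
    have h0 := norm_nonneg (cis u - cis v)
    nlinarith
  have Tp : T p ⊆ {c, d, e, f} := by
    refine npq hp rfl ?_ hy
    rw [hp]
    refine dist60 _ _ ?_
    rw [← Real.cos_neg, show -(θ - (θ + Real.pi / 3)) = Real.pi / 3 by ring,
      Real.cos_pi_div_three]
  have Tq : T q ⊆ {c, d, e, f} := by
    refine npq hq rfl ?_ hy'
    rw [hq]
    refine dist60 _ _ ?_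
    rw [show θ + Real.pi - (θ + 2 * Real.pi / 3) = Real.pi / 3 by ring, Real.cos_pi_div_three]
  have hvy : z + cis θ - z = cis θ := by ring
  rcases h.d0 hz.swap hy with ⟨r1, r2⟩ | ⟨r1, r2⟩
  · rw [hvy] at r1 r2
    exact swapR802 h hmin cT dT hz.cd hce hcf hde hdf hef hp hq Tp Tq ep fp eq fq r1 r2
  · rw [hvy] at r1 r2
    have hcom : ({c, d, e, f} : Set (Fin 6)) = {d, c, e, f} := by
      rw [insert_comm]
    have := swapR802 h hmin dT cT hz.cd.symm hde hdf hce hcf hef hp hq (by rw [← hcom]; exact Tp)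
      (by rw [← hcom]; exact Tq) ep fp eq fq r1 r2
    rw [hcom, pair_comm c d]
    exact this

/-- **Swap lemma, mixed form**: moreover a free colour occurs on both sides of `p` on `S(z)` -/
theorem Irr.swap_mixed802 (h : Irr U T) (hmin : H338.Mn338 U T) {z p q : ℂ} {θ : ℝ}
    {a b c d e f : Fin 6} (hz : DPt T z a b c d) (he : e ∉ T z) (hf : f ∉ T z) (hef : e ≠ f)
    (hy : Arc T z (z + cis θ) {a, b}) (hy' : Arc T z (z + cis (θ + Real.pi)) {a, b})
    (hp : p = z + cis (θ + Real.pi / 3)) (hq : q = z + cis (θ + 2 * Real.pi / 3))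
    (ep : e ∈ T p) (fp : f ∈ T p) (eq : e ∈ T q) (fq : f ∈ T q)
    (h1 : ∃ᶠ t : ℝ in 𝓝[>] 0, e ∈ T (z + cis (θ + Real.pi / 3 + t)) ∨
      f ∈ T (z + cis (θ + Real.pi / 3 + t)))
    (h2 : ∃ᶠ t : ℝ in 𝓝[<] 0, e ∈ T (z + cis (θ + Real.pi / 3 + t)) ∨
      f ∈ T (z + cis (θ + Real.pi / 3 + t))) :
    (T p = {c, d, e, f} ∧ T q = {e, f} ∧ Arc T p q {e, f}) ∨
    (T q = {c, d, e, f} ∧ T p = {e, f} ∧ Arc T q p {e, f}) := by
  have hce : c ≠ e := fun k => he (k ▸ by rw [hz.pal]; simp)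
  have hcf : c ≠ f := fun k => hf (k ▸ by rw [hz.pal]; simp)
  have hde : d ≠ e := fun k => he (k ▸ by rw [hz.pal]; simp)
  have hdf : d ≠ f := fun k => hf (k ▸ by rw [hz.pal]; simp)
  rcases h.swap802 hmin hz he hf hef hy hy' hp hq ep fp eq fq with h3 | h3 |
    ⟨-, -, X, Y, hXY, hX, hY⟩
  · exact Or.inl h3
  · exact Or.inr h3
  · exfalso
    have key : ∀ m : Fin 6, (m = e ∨ m = f) → m ∉ ({c, d} : Set (Fin 6)) := by
      rintro m (rfl | rfl) (h4 | h4)
      · exact hce h4.symm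
      · exact hde h4.symm
      · exact hcf h4.symm
      · exact hdf h4.symm
    rcases hXY with ⟨rfl, -⟩ | ⟨-, rfl⟩
    · obtain ⟨t, ht, ht2⟩ := (h1.and_eventually hX).exists
      rcases ht with h5 | h5
      · exact key e (Or.inl rfl) (ht2 h5)
      · exact key f (Or.inr rfl) (ht2 h5)
    · obtain ⟨t, ht, ht2⟩ := (h2.and_eventually hY).exists
      rcases ht with h5 | h5
      · exact key e (Or.inl rfl) (ht2 h5)
      · exact key f (Or.inr rfl) (ht2 h5)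

end Core

end Vale.Agent.P032.Six
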