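import Vale.Agent.P032.H758.Stt
import Vale.Agent.P032.H802.ChainI

/-!
# P032: the chain data `Chn758` from the chain of the world `QIW`

* `GaugeI802 T Inv f`, `QIW.exists_gauge802` : the separated pair of a vertex is the pair which does
  not connect, over `QI`.
* `ChI.chn802` : `Chn758` from `ChI`.
-/

open Set Filter Topology Metric

noncomputable section

namespace Vale.Agent.P032.Six

open Vale.Agent.P032.S5 Vale.Agent.P032.S5.H767 Vale.Agent.P032.Carr Vale.Agent.P032.H961

variable {U : Fin 6 → Set ℂ} {T : ℂ → Set (Fin 6)} {f : ℂ → Set (Fin 6)} {Inv : ℂ → ℂ → Prop}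
  {V : ℤ → ℂ} {l : ℤ → Fin 6} {name : ℤ → Fin 6 → Fin 6}

/-- the separated pair of a vertex is the pair which does not connect -/
structure GaugeI802 (T : ℂ → Set (Fin 6)) (Inv : ℂ → ℂ → Prop) (f : ℂ → Set (Fin 6)) : Prop where
  ch : ChF T f
  qf : ∀ {V V1 V2 : ℂ} {a b m n e g : Fin 6}, QI T Inv V a b m n e g V1 V2 → f V = {m, n}

theorem QIW.conn802 (h : Irr U T) (hw : QIW T Inv) {V V1 V2 V1' V2' : ℂ}
    {a b m n e g a' b' m' n' e' g' : Fin 6} (h1 : QI T Inv V a b m n e g V1 V2)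
    (h2 : QI T Inv V a' b' m' n' e' g' V1' V2') :
    ({m', n'} : Set (Fin 6)) = {m, n} ∧ ({a', b'} : Set (Fin 6)) = {a, b} := by
  have h3 := hw.pair_unique h h1 h2
  rcases h.pairs758 h1.dpt h2.dpt with h4 | h4
  · exact ⟨h4.2, h4.1⟩
  · exfalso
    have h5 : a ∈ ({m, n} : Set (Fin 6)) := by rw [← h4.1, h3]; simp
    rcases h5 with h5 | h5
    · exact h1.dpt.ac h5
    · exact h1.dpt.ad h5

theorem QIW.exists_gauge802 (h : Irr U T) (hw : QIW T Inv) : ∃ f, GaugeI802 T Inv f := by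
  classical
  let P : ℂ → Set (Fin 6) → Prop := fun V S => ∃ (a b m n e f : Fin 6) (V1 V2 : ℂ),
    QI T Inv V a b m n e f V1 V2 ∧ S = {m, n}
  let G : ℂ → Set (Fin 6) := fun V => if h1 : ∃ S, P V S then h1.choose else ∅
  have hG1 : ∀ V, (∃ S, P V S) → P V (G V) := by
    intro V h1
    have e : G V = h1.choose := dif_pos h1
    rw [e]
    exact h1.choose_spec
  have hG2 : ∀ V, (∃ a b c d, DPt T V a b c d) → P V (G V) := by
    rintro V ⟨a, b, c, d, hV⟩
    obtain ⟨a', b', m', n', e', g', V1', V2', h2⟩ := hw.qf hV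
    exact hG1 V ⟨{m', n'}, a', b', m', n', e', g', V1', V2', h2, rfl⟩
  obtain ⟨f, hf, hf2⟩ := exists_ChF T G (fun z a b c d hz => by
    obtain ⟨a', b', m', n', e', g', V1', V2', h2, h3⟩ := hG2 z ⟨a, b, c, d, hz⟩
    rw [h3]
    rcases h.pairs758 hz h2.dpt with h4 | h4
    · exact Or.inr h4.2
    · exact Or.inl h4.2)
  refine ⟨f, hf, fun {V V1 V2 a b m n e g} hV => ?_⟩
  rw [hf2 V ⟨a, b, m, n, hV.dpt⟩]
  obtain ⟨a', b', m', n', e', g', V1', V2', h2, h3⟩ := hG2 V ⟨a, b, m, n, hV.dpt⟩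
  rw [h3]
  exact (QIW.conn802 h hw hV h2).1

/-- the faces of a vertex avoid the separated pair -/
theorem GaugeI802.diff802 (G : GaugeI802 T Inv f) {V V1 V2 : ℂ} {a b m n e g : Fin 6}
    (hV : QI T Inv V a b m n e g V1 V2) : T V \ f V = {a, b} := by
  rw [G.qf hV]
  exact hV.dpt.diff758

/-- the gauge of `QIW` is a gauge of the quasi-full points -/
theorem GaugeI802.gauge758 (h : Irr U T) (hw : QIW T Inv) (G : GaugeI802 T Inv f) :
    Gauge758 T f where
  ch := G.ch
  qf := fun {V V1 V2 a b m n e g} hV => by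
    obtain ⟨a', b', m', n', e', g', V1', V2', h2⟩ := hw.qf hV.dpt
    have h3 : ({a', b'} : Set (Fin 6)) = {a, b} := by
      refine (hV.toQI0 (Inv := Inv)).pair_aux h h2.toQI0 ?_ ?_
      · rcases hV.ord V1' h2.dist1 h2.ord1.ge with h4 | h4
        · exact Or.inl h4
        · exact Or.inr h4
      · rcases hV.ord V2' h2.dist2 h2.ord2.ge with h4 | h4
        · exact Or.inl h4
        · exact Or.inr h4
    rw [G.qf h2]
    rcases h.pairs758 hV.dpt h2.dpt with h4 | h4
    · exact h4.2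
    · exfalso
      have h5 : a ∈ ({m, n} : Set (Fin 6)) := by rw [← h4.1, h3]; simp
      rcases h5 with h5 | h5
      · exact hV.dpt.ac h5
      · exact hV.dpt.ad h5

/-- **the chain data of H758 over the world with invisible points** -/
theorem ChI.chn802 {nx : Fin 6 → Fin 6 → Fin 6} (h : Irr U T) (hw : QIW T Inv)
    (hC : ChI nx T Inv V l name) (G : GaugeI802 T Inv f) : Chn758 nx T f V l name where
  inj := fun j => nodup_inj758 (hC.qf j).nd
  dpt := fun j => (hC.qf j).dpt
  gau := fun j => G.qf (hC.qf j)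
  memR := fun j => (hC.qf j).toQI0.mem1 h
  memL := fun j => (hC.qf j).toQI0.mem2 h
  conn := fun j => by
    obtain ⟨s, t, -, -, -, -, h5⟩ := (hC.qf j).toQI0.arc' h
    rw [h5]
    exact isPreconnected_Icc.image _ (S5.H767.continuous_pt _).continuousOn
  inv := fun j z hz hD hz1 hz2 t u ht hu he => by
    obtain ⟨a, b, c, d, hD⟩ := hD
    have hq := hC.qf j
    rcases hq.ord z hz hD.ncard.ge with h1 | h1 | h1
    · exact hz1 h1
    · exact hz2 h1
    · obtain ⟨a', b', m', n', e', g', V1', V2', h2⟩ := hw.qf hD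
      have h3 : ({a', b'} : Set (Fin 6)) = {name j t, name j u} := by
        rw [← he, G.diff802 h2]
      have hs : ({a', b'} : Set (Fin 6)) ⊆ T (V j) := by
        rw [h3, hq.pal]
        rintro x (rfl | rfl)
        · rcases ht with rfl | rfl <;> simp
        · rcases hu with rfl | rfl <;> simp
      exact hw.inv h1 hz h2 (hs (by simp)) (hs (by simp))
  nm := hC.nm

end Vale.Agent.P032.Six
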