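import Vale.Agent.P032.H564.IntHt
import Vale.Agent.P032.H824.Prt
import Vale.Agent.P032.H492.Branch
import Vale.Agent.P032.H169.OneArc
import Vale.Agent.P032.H961.XL2
import Vale.Agent.P032.H383.Letters
import Vale.Agent.P032.H187.Swap

/-!
# P032, row D2 of the degree theorem: no harmless end

`V = (ab | cd)` a two-pair point, `y` an end of the exact `ab`-arc of `S(V)`.  The complement of the arc
(length at least 300 degrees) has three labels: `e`, `f` (the colours outside `T V`) and the pair `cd`.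
If `y` is harmless, one of the labels `e`, `f` meets the label `cd` at most once (the partner of a
meeting point on `S(y)` has order at least four, and it is not `V`), and the heights of `H564/IntHt`
give a contradiction.

`no_harm_end802` : a limit of exact points of a pair without plain ends is not harmless, if no point of
order at least four has three points of order at least four on its unit circle.
-/

open Set Filter Topology Metric

noncomputable section

namespace Vale.Agent.P032.H564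

open Vale.Agent.P032.H180

variable {Q : ℝ → Set (Fin 3)} {a b : ℝ}

/-- **(A2)** in the form of two conclusions, normalized -/
theorem n2s802 (h : IntCov Q a b) {δ : ℝ} (hm : ∀ s ∈ Ioo a b, 0 ∈ Q s → 2 ∈ Q s → s = δ) {t : ℝ}
    (ht : a + 5 < t) (ht' : t < b) (hne : t - 5 ≠ δ) (hQ : Q t ⊆ {0}) :
    Q (t - 1) ⊆ {1} ∧ Q (t - 2) ⊆ {2} := by
  obtain ⟨M, N, H⟩ := h.exHt (u := t - 5) (v := t) (by linarith) (by linarith) ht'
  have t0 : t ∈ Icc (t - 5) t := ⟨by linarith, le_rfl⟩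
  have t1 : t - 1 ∈ Icc (t - 5) t := ⟨by linarith, by linarith⟩
  have t2 : t - 2 ∈ Icc (t - 5) t := ⟨by linarith, by linarith⟩
  have t5 : t - 5 ∈ Icc (t - 5) t := ⟨le_rfl, by linarith⟩
  have hm' : ∀ s ∈ Icc (t - 5) t, 0 ∈ Q s → 2 ∈ Q s → s = δ := fun s hs =>
    hm s ⟨by linarith [hs.1], by linarith [hs.2]⟩
  have c1 := H.chain1 hm' t0 t5
  have c2 := H.chain1 hm' t5 t0
  have r := H.r0 t0 hQ
  have r5 : M (t - 5) % 6 ≠ 5 := res02 fun hc =>
    hne (hm' _ t5 ((H.mem _ t5 0).2 hc.1) ((H.mem _ t5 2).2 hc.2))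
  have s1 := H.step (t - 5) (by linarith) (by linarith)
  have s2 := H.step (t - 4) (by linarith) (by linarith)
  have s3 := H.step (t - 3) (by linarith) (by linarith)
  have s4 := H.step (t - 2) (by linarith) (by linarith)
  have s5 := H.step (t - 1) (by linarith) (by linarith)
  rw [show t - 5 + 1 = t - 4 by ring] at s1
  rw [show t - 4 + 1 = t - 3 by ring] at s2
  rw [show t - 3 + 1 = t - 2 by ring] at s3
  rw [show t - 2 + 1 = t - 1 by ring] at s4
  rw [show t - 1 + 1 = t by ring] at s5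
  have e1 : M (t - 1) % 6 = 2 := by
    rcases lt_or_ge N 0 with hN | hN <;> omega
  have e2 : M (t - 2) % 6 = 4 := by
    rcases lt_or_ge N 0 with hN | hN <;> omega
  constructor
  · intro l hl
    have h1 := (H.mem _ t1 l).1 hl
    fin_cases l
    · simp [Res] at h1; omega
    · rfl
    · simp [Res] at h1; omega
  · intro l hl
    have h1 := (H.mem _ t2 l).1 hl
    fin_cases l
    · simp [Res] at h1; omega
    · simp [Res] at h1; omega
    · rfl

/-- **(A2)** in the form of two conclusions -/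
theorem a2s802 (h : IntCov Q a b) {l0 l1 l2 : Fin 3} {δ : ℝ} (h01 : l0 ≠ l1) (h12 : l1 ≠ l2)
    (h02 : l0 ≠ l2) (hm : ∀ s ∈ Ioo a b, l0 ∈ Q s → l2 ∈ Q s → s = δ) {t : ℝ} (ht : a + 5 < t)
    (ht' : t < b) (hne : t - 5 ≠ δ) (hQ : Q t ⊆ {l0}) :
    Q (t - 1) ⊆ {l1} ∧ Q (t - 2) ⊆ {l2} := by
  obtain ⟨k1, k2⟩ := n2s802 (h.comap _ (perm_surj h01 h12 h02)) (fun s hs h0 h2 => hm s hs h0 h2)
    ht ht' hne fun i hi => (perm_eq h01 h12 h02).1 i (hQ hi)
  have hs := perm_surj h01 h12 h02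
  constructor
  · intro i hi
    obtain ⟨j, rfl⟩ := hs i
    have : j = 1 := k1 hi
    rw [this]; rfl
  · intro i hi
    obtain ⟨j, rfl⟩ := hs i
    have : j = 2 := k2 hi
    rw [this]; rfl

end Vale.Agent.P032.H564

namespace Vale.Agent.P032.H802

open Vale.Agent.P032.Six Vale.Agent.P032.S5.H767 Vale.Agent.P032.Sweep Vale.Agent.P032.H564
  Vale.Agent.P032.H187

variable {U : Fin 6 → Set ℂ} {T : ℂ → Set (Fin 6)} {V y : ℂ} {a b c d e f g : Fin 6}
  {s₀ σ al u : ℝ} {A P : Set (Fin 6)}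

open Classical in
/-- the label of a palette -/
def labD (e f : Fin 6) (P : Set (Fin 6)) : Fin 3 :=
  if e ∈ P then 0 else if f ∈ P then 1 else 2

theorem labD_zero (h : labD e f P = 0) : e ∈ P := by
  unfold labD at h
  split_ifs at h with h1 h2
  · exact h1
  · exact absurd h (by decide)
  · exact absurd h (by decide)

theorem labD_one (h : labD e f P = 1) : f ∈ P := by
  unfold labD at h
  split_ifs at h with h1 h2
  · exact absurd h (by decide)
  · exact h2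
  · exact absurd h (by decide)

theorem labD_two (h : labD e f P = 2) : e ∉ P ∧ f ∉ P := by
  unfold labD at h
  split_ifs at h with h1 h2
  · exact absurd h (by decide)
  · exact absurd h (by decide)
  · exact ⟨h1, h2⟩

/-- the colours of a label -/
def colD (c d e f : Fin 6) : Fin 3 → Set (Fin 6) := ![{e}, {f}, {c, d}]

theorem colD_ne (l : Fin 3) : (colD c d e f l).Nonempty := by
  fin_cases l
  · exact ⟨e, rfl⟩
  · exact ⟨f, rfl⟩
  · exact ⟨c, by simp [colD]⟩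

/-- the labels at the direction `s₀ + σ u` -/
def QD (T : ℂ → Set (Fin 6)) (V : ℂ) (e f : Fin 6) (s₀ σ u : ℝ) : Set (Fin 3) :=
  {l | s₀ + σ * u ∈ closure (Oc T V (labD e f) l)}

/-- the frame: `V = (ab | cd)`, `y = V + e(s₀)` an end of the exact `ab`-arc `s₀ + σ (0, al)` -/
structure FrD (U : Fin 6 → Set ℂ) (T : ℂ → Set (Fin 6)) (V y : ℂ) (a b c d e f : Fin 6)
    (s₀ σ al : ℝ) : Prop where
  irr : Irr U T
  dpt : DPt T V a b c d
  all : ∀ i, i ∉ T V → i = e ∨ i = f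
  eV : e ∉ T V
  fV : f ∉ T V
  ef : e ≠ f
  sg : σ = 1 ∨ σ = -1
  al0 : 0 < al
  al1 : al ≤ 1
  yy : pt V s₀ = y
  noab : ∀ u ∈ Ioo al 6, T (pt V (s₀ + σ * u)) ≠ {a, b}
  le3 : ∀ u ∈ Ioo al 6, (T (pt V (s₀ + σ * u))).ncard ≤ 3

/-- at most two points of order at least four on `S(y)` -/
def N3 (T : ℂ → Set (Fin 6)) (y : ℂ) : Prop :=
  ∀ y1 y2 y3, dist y1 y = 1 → dist y2 y = 1 → dist y3 y = 1 → 4 ≤ (T y1).ncard →
    4 ≤ (T y2).ncard → 4 ≤ (T y3).ncard → y1 = y2 ∨ y1 = y3 ∨ y2 = y3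

namespace FrD

variable (F : FrD U T V y a b c d e f s₀ σ al)

include F

theorem pick (hu : u ∈ Ioo al 6) {l : Fin 3} (hl : l ∈ QD T V e f s₀ σ u) {p : ℝ → Prop}
    (hp : ∀ᶠ v in 𝓝 u, p v) :
    ∃ v ∈ Ioo al 6, s₀ + σ * v ∈ Oc T V (labD e f) l ∧ p v := by
  have h1 : Tendsto (fun s : ℝ => σ * (s - s₀)) (𝓝 (s₀ + σ * u)) (𝓝 u) := by
    have hc : Continuous fun s : ℝ => σ * (s - s₀) := by fun_prop
    have h2 := hc.tendsto (s₀ + σ * u)
    have h3 : σ * (s₀ + σ * u - s₀) = u := by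
      rcases F.sg with rfl | rfl <;> ring
    rwa [h3] at h2
  have hI : ∀ᶠ v in 𝓝 u, v ∈ Ioo al 6 := Ioo_mem_nhds hu.1 hu.2
  obtain ⟨s, hs, h4, h5⟩ := ((mem_closure_iff_frequently.1 hl).and_eventually
    (h1.eventually (hI.and hp))).exists
  refine ⟨σ * (s - s₀), h4, ?_, h5⟩
  have h6 : s₀ + σ * (σ * (s - s₀)) = s := by rcases F.sg with rfl | rfl <;> ring
  rwa [h6]

theorem near (u : ℝ) : ∀ᶠ v in 𝓝 u, T (pt V (s₀ + σ * v)) ⊆ T (pt V (s₀ + σ * u)) := by
  have hc : Continuous fun v : ℝ => pt V (s₀ + σ * v) := (continuous_pt V).comp (by fun_prop)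
  exact (hc.tendsto u).eventually (F.irr.nhd _)

theorem neary (u : ℝ) : ∀ᶠ v in 𝓝 u, T (pt y (s₀ + σ * v)) ⊆ T (pt y (s₀ + σ * u)) := by
  have hc : Continuous fun v : ℝ => pt y (s₀ + σ * v) := (continuous_pt y).comp (by fun_prop)
  exact (hc.tendsto u).eventually (F.irr.nhd _)

/-- the palette of the label `cd` -/
theorem gen2 (hu : u ∈ Ioo al 6) (hs : s₀ + σ * u ∈ Oc T V (labD e f) 2) :
    T (pt V (s₀ + σ * u)) = {c, d} := by
  obtain ⟨h1, h2⟩ := hs
  obtain ⟨h3, h4⟩ := labD_two h2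
  have hsub : T (pt V (s₀ + σ * u)) ⊆ T V := by
    intro i hi
    by_contra hcon
    rcases F.all i hcon with rfl | rfl
    · exact h3 hi
    · exact h4 hi
  have hc := (pair_four F.irr F.dpt.ncard h1 hsub).1
  rcases F.irr.pair_of_subT (F.irr.twoPairs F.dpt) (dist_pt V (s₀ + σ * u)) hsub with h5 | h5
  · exact absurd (Set.eq_of_subset_of_ncard_le h5 (by rw [hc, Set.ncard_pair F.dpt.ab])
      (Set.toFinite _)).symm (F.noab u hu)
  · exact (Set.eq_of_subset_of_ncard_le h5 (by rw [hc, Set.ncard_pair F.dpt.cd])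
      (Set.toFinite _)).symm

theorem gen (hu : u ∈ Ioo al 6) {l : Fin 3} (hs : s₀ + σ * u ∈ Oc T V (labD e f) l) :
    colD c d e f l ⊆ T (pt V (s₀ + σ * u)) := by
  fin_cases l
  · intro i hi
    have : i = e := hi
    rw [this]
    exact labD_zero hs.2
  · intro i hi
    have : i = f := hi
    rw [this]
    exact labD_one hs.2
  · have := F.gen2 hu hs
    rw [this]
    exact Subset.rfl

theorem col (hu : u ∈ Ioo al 6) {l : Fin 3} (hl : l ∈ QD T V e f s₀ σ u) :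
    colD c d e f l ⊆ T (pt V (s₀ + σ * u)) := by
  obtain ⟨v, hv, h1, h2⟩ := F.pick hu hl (F.near u)
  exact (F.gen hv h1).trans h2

theorem ne (u : ℝ) : (QD T V e f s₀ σ u).Nonempty := by
  have h1 : (univ : Set ℝ) ⊆ ⋃ l, closure (Oc T V (labD e f) l) := by
    have h2 : IsClosed (⋃ l, closure (Oc T V (labD e f) l)) :=
      isClosed_iUnion_of_finite fun l => isClosed_closure
    have h3 := (Lc_dense F.irr V).mono
      (s₂ := ⋃ l, closure (Oc T V (labD e f) l)) fun v hv =>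
      mem_iUnion.2 ⟨labD e f (T (pt V v)), subset_closure ⟨hv, rfl⟩⟩
    rw [← h2.closure_eq, h3.closure_eq]
  obtain ⟨l, hl⟩ := mem_iUnion.1 (h1 (mem_univ (s₀ + σ * u)))
  exact ⟨l, hl⟩

theorem usc (u : ℝ) : ∀ᶠ v in 𝓝 u, QD T V e f s₀ σ v ⊆ QD T V e f s₀ σ u := by
  have hc : Continuous fun v : ℝ => s₀ + σ * v := by fun_prop
  have h1 : ∀ l : Fin 3, ∀ᶠ v in 𝓝 u, l ∈ QD T V e f s₀ σ v → l ∈ QD T V e f s₀ σ u := by
    intro l
    by_cases hl : l ∈ QD T V e f s₀ σ u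
    · exact Eventually.of_forall fun _ _ => hl
    · have h2 : IsClosed {v | l ∈ QD T V e f s₀ σ v} := isClosed_closure.preimage hc
      filter_upwards [h2.isOpen_compl.mem_nhds hl] with v hv hv'
      exact absurd hv' hv
  filter_upwards [Filter.eventually_all.2 h1] with v hv l hl using hv l hl

/-- at an angle of `Lc` there is one label -/
theorem one {l : Fin 3} (hs : s₀ + σ * u ∈ Oc T V (labD e f) l) : QD T V e f s₀ σ u ⊆ {l} := by
  intro m hm
  have h1 := (cl_Oc_Lc hs.1).1 hm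
  rw [hs.2] at h1
  exact h1.symm

theorem nu (hu : u ∈ Ioo al 6) : ∃ l, l ∉ QD T V e f s₀ σ u := by
  by_contra hcon
  push Not at hcon
  have h0 := F.col hu (hcon 0)
  have h1 := F.col hu (hcon 1)
  have h2 := F.col hu (hcon 2)
  have h3 : ({e, f, c, d} : Set (Fin 6)) ⊆ T (pt V (s₀ + σ * u)) := by
    rintro i (rfl | rfl | hi)
    · exact h0 rfl
    · exact h1 rfl
    · exact h2 hi
  have h4 := Set.ncard_le_ncard h3 (Set.toFinite _)
  have hcV : c ∈ T V := by rw [F.dpt.pal]; simp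
  have hdV : d ∈ T V := by rw [F.dpt.pal]; simp
  have k1 : e ≠ c := fun h => F.eV (h ▸ hcV)
  have k2 : e ≠ d := fun h => F.eV (h ▸ hdV)
  have k3 : f ≠ c := fun h => F.fV (h ▸ hcV)
  have k4 : f ≠ d := fun h => F.fV (h ▸ hdV)
  have h5 : ({e, f, c, d} : Set (Fin 6)).ncard = 4 := by
    rw [Set.ncard_insert_of_notMem, Set.ncard_insert_of_notMem, Set.ncard_pair F.dpt.cd]
    · simp only [mem_insert_iff, mem_singleton_iff, not_or]; exact ⟨k3, k4⟩
    · simp only [mem_insert_iff, mem_singleton_iff, not_or]; exact ⟨F.ef, k1, k2⟩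
  have h6 := F.le3 u hu
  omega

/-- a label which is not `l` at a neighbour -/
theorem nbr {u' : ℝ} (hu : u ∈ Ioo al 6) (hu' : u' ∈ Ioo al 6) (h1 : u' = u + 1 ∨ u' = u - 1)
    {l : Fin 3} (hl : l ∈ QD T V e f s₀ σ u) : ∃ m ∈ QD T V e f s₀ σ u', m ≠ l := by
  have hc : Continuous fun v : ℝ => v + (u' - u) := by fun_prop
  have h2 : Tendsto (fun v : ℝ => v + (u' - u)) (𝓝 u) (𝓝 u') := by
    have := hc.tendsto u
    rwa [show u + (u' - u) = u' by ring] at this
  have hI : ∀ᶠ v in 𝓝 u', v ∈ Ioo al 6 := Ioo_mem_nhds hu'.1 hu'.2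
  obtain ⟨v, hv, h3, h4, h5⟩ := F.pick hu hl
    ((h2.eventually (F.usc u')).and (h2.eventually hI))
  obtain ⟨m, hm⟩ := F.ne (v + (u' - u))
  refine ⟨m, h4 hm, ?_⟩
  rintro rfl
  have k1 := F.gen hv h3
  have k2 := F.col h5 hm
  obtain ⟨i, hi⟩ := colD_ne (c := c) (d := d) (e := e) (f := f) m
  -- the two points are at 60 degrees
  have k3 : s₀ + σ * (v + (u' - u)) = s₀ + σ * v + 1 ∨
      s₀ + σ * v = s₀ + σ * (v + (u' - u)) + 1 := by
    rcases F.sg with rfl | rfl <;> rcases h1 with rfl | rfl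
    · left; ring
    · right; ring
    · right; ring
    · left; ring
  rcases k3 with k3 | k3
  · have k4 := dj_sixty F.irr h3.1
    rw [← k3] at k4
    exact Set.disjoint_left.1 k4 (k1 hi) (k2 hi)
  · have k4 := dj_sixty' F.irr (s := s₀ + σ * (v + (u' - u))) (by rw [← k3]; exact h3.1)
    rw [← k3] at k4
    exact Set.disjoint_left.1 k4 (k2 hi) (k1 hi)

/-- two neighbours do not have two common labels -/
theorem two {u' : ℝ} (hu : u ∈ Ioo al 6) (hu' : u' ∈ Ioo al 6) (h1 : u' = u + 1 ∨ u' = u - 1)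
    {l m : Fin 3} (hlm : l ≠ m) (hl : l ∈ QD T V e f s₀ σ u) (hm : m ∈ QD T V e f s₀ σ u)
    (hl' : l ∈ QD T V e f s₀ σ u') (hm' : m ∈ QD T V e f s₀ σ u') : False := by
  have c1 := F.col hu hl
  have c2 := F.col hu hm
  have c3 := F.col hu' hl'
  have c4 := F.col hu' hm'
  have hd : dist (pt V (s₀ + σ * u)) (pt V (s₀ + σ * u')) = 1 := by
    rcases F.sg with rfl | rfl <;> rcases h1 with rfl | rfl
    · rw [show s₀ + 1 * (u + 1) = s₀ + 1 * u + 1 by ring]
      exact dist_pt_one _ _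
    · rw [show s₀ + 1 * u = s₀ + 1 * (u - 1) + 1 by ring, dist_comm]
      exact dist_pt_one _ _
    · rw [show s₀ + -1 * u = s₀ + -1 * (u + 1) + 1 by ring, dist_comm]
      exact dist_pt_one _ _
    · rw [show s₀ + -1 * (u - 1) = s₀ + -1 * u + 1 by ring]
      exact dist_pt_one _ _
  have hcV : c ∈ T V := by rw [F.dpt.pal]; simp
  have hdV : d ∈ T V := by rw [F.dpt.pal]; simp
  -- three common colours
  have key : ∀ z : Fin 6, z ≠ c → z ≠ d → c ∈ T (pt V (s₀ + σ * u)) →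
      d ∈ T (pt V (s₀ + σ * u)) → z ∈ T (pt V (s₀ + σ * u)) → c ∈ T (pt V (s₀ + σ * u')) →
      d ∈ T (pt V (s₀ + σ * u')) → z ∈ T (pt V (s₀ + σ * u')) → False := by
    intro z z1 z2 x1 x2 x3 x4 x5 x6
    obtain ⟨x, hx, hx', hT, -⟩ := third187 F.irr hd (F.le3 u hu) (F.le3 u' hu') F.dpt.cd x1 x2 x4 x5
    rw [hT] at x3
    rcases x3 with x3 | x3 | x3
    · exact z1 x3
    · exact z2 x3
    · rw [mem_singleton_iff] at x3
      exact hx' (x3 ▸ x6)
  have k1 : e ≠ c := fun h => F.eV (h ▸ hcV)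
  have k2 : e ≠ d := fun h => F.eV (h ▸ hdV)
  have k3 : f ≠ c := fun h => F.fV (h ▸ hcV)
  have k4 : f ≠ d := fun h => F.fV (h ▸ hdV)
  have hef : e ∈ T (pt V (s₀ + σ * u)) → f ∈ T (pt V (s₀ + σ * u)) →
      e ∈ T (pt V (s₀ + σ * u')) → f ∈ T (pt V (s₀ + σ * u')) → False := by
    intro x1 x2 x3 x4
    obtain ⟨x, hx, hx', hT, hX⟩ := third187 F.irr hd (F.le3 u hu) (F.le3 u' hu') F.ef x1 x2 x3 x4
    obtain ⟨t1, t2⟩ := S5.H767.tri (z := V) (y := pt V (s₀ + σ * u)) (y' := pt V (s₀ + σ * u'))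
      (dist_pt _ _) (dist_pt _ _)
    have h5 : x ∉ T V := fun hxV => hX V (dist_pt _ _) t1 t2 (F.irr.sub V hxV)
    rcases F.all x h5 with rfl | rfl
    · exact hx' x3
    · exact hx' x4
  fin_cases l <;> fin_cases m
  · exact hlm rfl
  · exact hef (c1 rfl) (c2 rfl) (c3 rfl) (c4 rfl)
  · exact key e k1 k2 (c2 (Or.inl rfl)) (c2 (Or.inr rfl)) (c1 rfl) (c4 (Or.inl rfl))
      (c4 (Or.inr rfl)) (c3 rfl)
  · exact hef (c2 rfl) (c1 rfl) (c4 rfl) (c3 rfl)
  · exact hlm rfl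
  · exact key f k3 k4 (c2 (Or.inl rfl)) (c2 (Or.inr rfl)) (c1 rfl) (c4 (Or.inl rfl))
      (c4 (Or.inr rfl)) (c3 rfl)
  · exact key e k1 k2 (c1 (Or.inl rfl)) (c1 (Or.inr rfl)) (c2 rfl) (c3 (Or.inl rfl))
      (c3 (Or.inr rfl)) (c4 rfl)
  · exact key f k3 k4 (c1 (Or.inl rfl)) (c1 (Or.inr rfl)) (c2 rfl) (c3 (Or.inl rfl))
      (c3 (Or.inr rfl)) (c4 rfl)
  · exact hlm rfl

theorem incl {u' : ℝ} (hu : u ∈ Ioo al 6) (hu' : u' ∈ Ioo al 6) (h1 : u' = u + 1 ∨ u' = u - 1) :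
    ¬ QD T V e f s₀ σ u ⊆ QD T V e f s₀ σ u' := by
  intro hs
  obtain ⟨l, hl⟩ := F.ne u
  obtain ⟨m, hm, hml⟩ := F.nbr hu' hu (by rcases h1 with rfl | rfl <;> [right; left] <;> ring)
    (hs hl)
  exact F.two hu hu' h1 hml hm hl (hs hm) (hs hl)

/-- **the labels on the complement of the arc** -/
theorem cov : IntCov (QD T V e f s₀ σ) al 6 where
  ne := fun t _ => F.ne t
  nu := fun _ ht => F.nu ht
  usc := fun t _ => F.usc t
  inc := fun t h1 h2 => F.incl ⟨h1, by linarith⟩ ⟨by linarith, h2⟩ (Or.inl rfl)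
  inc' := fun t h1 h2 => F.incl (u := t + 1) ⟨by linarith, h2⟩ ⟨h1, by linarith⟩
    (Or.inr (by ring))

/-! ### The rhombus points -/

theorem yV : dist y V = 1 := by rw [← F.yy]; exact dist_pt _ _

theorem Vy : dist V y = 1 := by rw [dist_comm]; exact F.yV

theorem shift (s : ℝ) : pt V s + y - V = pt y s := by unfold pt; ring

theorem six : pt V (s₀ + σ * 6) = y := by
  rw [← F.yy]
  rcases F.sg with rfl | rfl
  · rw [show s₀ + 1 * 6 = s₀ + 6 by ring, pt_six]
  · rw [← pt_six V (s₀ + -1 * 6)]; congr 1; ring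

theorem back : pt y (s₀ + σ * 3) = V := by
  have h1 : pt y (s₀ + 3) = V := by
    rw [← F.shift, pt_three, F.yy]; ring
  rcases F.sg with rfl | rfl
  · rw [show s₀ + 1 * 3 = s₀ + 3 by ring, h1]
  · rw [← pt_six y (s₀ + -1 * 3), show s₀ + -1 * 3 + 6 = s₀ + 3 by ring, h1]

theorem apex : pt V (s₀ + σ * 1) = pt y (s₀ + σ * 2) := by
  rw [← F.shift]
  rcases F.sg with rfl | rfl
  · have h1 := pt_sum V s₀
    rw [F.yy] at h1
    rw [show s₀ + 1 * 1 = s₀ + 1 by ring, show s₀ + 1 * 2 = s₀ + 2 by ring]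
    linear_combination -h1
  · have h1 := pt_sum V (s₀ - 2)
    rw [show s₀ - 2 + 2 = s₀ by ring, F.yy, show s₀ - 2 + 1 = s₀ - 1 by ring] at h1
    rw [show s₀ + -1 * 1 = s₀ - 1 by ring, show s₀ + -1 * 2 = s₀ - 2 by ring]
    linear_combination -h1

theorem apex' : pt V (s₀ + σ * 5) = pt y (s₀ + σ * 4) := by
  rw [← F.shift]
  rcases F.sg with rfl | rfl
  · have h1 := pt_sum V (s₀ + 4)
    rw [show s₀ + 4 + 2 = s₀ + 6 by ring, pt_six, F.yy, show s₀ + 4 + 1 = s₀ + 5 by ring] at h1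
    rw [show s₀ + 1 * 5 = s₀ + 5 by ring, show s₀ + 1 * 4 = s₀ + 4 by ring]
    linear_combination -h1
  · have h1 := pt_sum V (s₀ - 6)
    rw [show s₀ - 6 + 2 = s₀ - 4 by ring, show s₀ - 6 + 1 = s₀ - 5 by ring,
      ← pt_six V (s₀ - 6), show s₀ - 6 + 6 = s₀ by ring, F.yy] at h1
    rw [show s₀ + -1 * 5 = s₀ - 5 by ring, show s₀ + -1 * 4 = s₀ - 4 by ring]
    linear_combination -h1

theorem inj {u' : ℝ} (hu : 0 < u) (hu6 : u < 6) (hu' : 0 < u') (hu6' : u' < 6) {z : ℂ}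
    (h : pt z (s₀ + σ * u) = pt z (s₀ + σ * u')) : u = u' := by
  obtain ⟨n, hn⟩ := pt_eq169 h
  have h1 : σ * (u - u') = 6 * n := by linear_combination hn
  have h2 : (n : ℝ) < 1 ∧ (-1 : ℝ) < n := by
    rcases F.sg with rfl | rfl <;> constructor <;> linarith
  have h3 : n = 0 := by
    have h4 : n < 1 := by exact_mod_cast h2.1
    have h5 : -1 < n := by exact_mod_cast h2.2
    omega
  rw [h3] at h1
  rcases F.sg with rfl | rfl
  · push_cast at h1; linarith
  · push_cast at h1; linarith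

theorem ne_y (hu : 0 < u) (hu6 : u < 6) : pt V (s₀ + σ * u) ≠ y := by
  intro h
  rw [← F.yy] at h
  obtain ⟨n, hn⟩ := pt_eq169 h
  have h1 : σ * u = 6 * n := by linear_combination hn
  have h2 : (n : ℝ) < 1 ∧ (-1 : ℝ) < n := by
    rcases F.sg with rfl | rfl <;> constructor <;> linarith
  have h3 : n = 0 := by
    have h4 : n < 1 := by exact_mod_cast h2.1
    have h5 : -1 < n := by exact_mod_cast h2.2
    omega
  rw [h3] at h1
  rcases F.sg with rfl | rfl
  · push_cast at h1; linarith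
  · push_cast at h1; linarith

theorem ne_anti (hu : 0 < u) (hu6 : u < 6) (hu3 : u ≠ 3) : pt V (s₀ + σ * u + 3) ≠ y := by
  intro h
  have h1 : pt V (s₀ + σ * u) = pt V (s₀ + σ * 3) := by
    rw [pt_three] at h
    have h2 : pt V (s₀ + σ * 3) = 2 * V - y := by
      rw [← F.yy]
      rcases F.sg with rfl | rfl
      · rw [show s₀ + 1 * 3 = s₀ + 3 by ring, pt_three]
      · rw [← pt_six V (s₀ + -1 * 3), show s₀ + -1 * 3 + 6 = s₀ + 3 by ring, pt_three]
    rw [h2]; linear_combination -h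
  exact hu3 (F.inj hu hu6 (by norm_num) (by norm_num) h1)

/-- the partner at a direction near `u` -/
theorem pick3 (hu : u ∈ Ioo al 6) {l : Fin 3} (hl : l ∈ QD T V e f s₀ σ u) :
    ∃ v ∈ Ioo al 6, s₀ + σ * v ∈ Oc T V (labD e f) l ∧
      T (pt y (s₀ + σ * v)) ⊆ T (pt y (s₀ + σ * u)) ∧
      Disjoint (T (pt V (s₀ + σ * v))) (T (pt y (s₀ + σ * v))) := by
  have hI : ∀ᶠ v in 𝓝 u, v ∈ Ioo al 6 := Ioo_mem_nhds hu.1 hu.2
  obtain ⟨v, hv, h1, h2⟩ := F.pick hu hl (eventually_eventually_nhds.2 ((F.neary u).and hI))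
  have hc : Continuous fun v : ℝ => s₀ + σ * v := by fun_prop
  have h3 : ∀ᶠ v' in 𝓝 v, s₀ + σ * v' ∈ Oc T V (labD e f) l :=
    (hc.tendsto v).eventually ((Oc_open V (labD e f) l).mem_nhds h1)
  have h4 : ∃ᶠ v' in 𝓝 v, v' ∈ ({3} : Set ℝ)ᶜ :=
    mem_closure_iff_frequently.1 ((dense_compl_singleton (3 : ℝ)) v)
  obtain ⟨v', h5, ⟨h6, h7⟩, h8⟩ := (h4.and_eventually (h2.and h3)).exists
  have h9 : v' ≠ 3 := h5
  have h0 : 0 < v' := F.al0.trans h7.1
  exact ⟨v', h7, h8, h6, dj_prod F.irr F.Vy h8.1 (F.ne_y h0 h7.2) (F.ne_anti h0 h7.2 h9)⟩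

/-- **a meeting point of a label `g` with the label `cd`** -/
theorem meet {l : Fin 3} (hcl : colD c d e f l = {g}) (hg : g ∉ T V)
    (H : ∀ w, dist w y = 1 → g ∈ T w ∨ c ∈ T w ∨ d ∈ T w) (hu : u ∈ Ioo al 6)
    (h2 : 2 ∈ QD T V e f s₀ σ u) (hl : l ∈ QD T V e f s₀ σ u) :
    4 ≤ (T (pt y (s₀ + σ * u))).ncard ∧ pt y (s₀ + σ * u) ≠ V := by
  have hcV : c ∈ T V := by rw [F.dpt.pal]; simp
  have hdV : d ∈ T V := by rw [F.dpt.pal]; simp
  obtain ⟨v, hv, v1, v2, v3⟩ := F.pick3 hu h2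
  obtain ⟨w, hw, w1, w2, w3⟩ := F.pick3 hu hl
  have hgy : g ∈ T (pt y (s₀ + σ * u)) := by
    have k := F.gen2 hv v1
    rw [k] at v3
    rcases H _ (dist_pt y (s₀ + σ * v)) with h3 | h3 | h3
    · exact v2 h3
    · exact absurd h3 (Set.disjoint_left.1 v3 (by simp))
    · exact absurd h3 (Set.disjoint_left.1 v3 (by simp))
  have hcd : c ∈ T (pt y (s₀ + σ * u)) ∨ d ∈ T (pt y (s₀ + σ * u)) := by
    have k := F.gen hw w1
    rw [hcl] at k
    rcases H _ (dist_pt y (s₀ + σ * w)) with h3 | h3 | h3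
    · exact absurd h3 (Set.disjoint_left.1 w3 (k rfl))
    · exact Or.inl (w2 h3)
    · exact Or.inr (w2 h3)
  have hne : pt y (s₀ + σ * u) ≠ V := fun h => hg (h ▸ hgy)
  refine ⟨?_, hne⟩
  have c2 := F.col hu h2
  have cl := F.col hu hl
  rw [hcl] at cl
  have hgc : g ≠ c := fun h => hg (h ▸ hcV)
  have hgd : g ≠ d := fun h => hg (h ▸ hdV)
  have hT : ({g, c, d} : Set (Fin 6)) = T (pt V (s₀ + σ * u)) := by
    refine Set.eq_of_subset_of_ncard_le ?_ ?_ (Set.toFinite _)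
    · rintro i (rfl | rfl | hi)
      · exact cl rfl
      · exact c2 (Or.inl rfl)
      · exact c2 (Or.inr hi)
    · have h3 : ({g, c, d} : Set (Fin 6)).ncard = 3 :=
        Set.ncard_eq_three.2 ⟨g, c, d, hgc, hgd, F.dpt.cd, rfl⟩
      rw [h3]
      exact F.le3 u hu
  have h0 : 0 < u := F.al0.trans hu.1
  have hx1 : pt V (s₀ + σ * u) ≠ y := F.ne_y h0 hu.2
  have hx2 : pt V (s₀ + σ * u) + y ≠ 2 * V := by
    intro h3
    apply hne
    rw [← F.shift]
    linear_combination h3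
  rcases hcd with hc | hd
  · have := four_of_two824 (p := g) (q := c) (r := d) F.irr F.yV (dist_pt V (s₀ + σ * u)) hx1 hx2
      (by rw [hT]) (by rw [F.shift]; exact hgy) (by rw [F.shift]; exact hc) hdV
    rwa [F.shift] at this
  · have := four_of_two824 (p := g) (q := d) (r := c) F.irr F.yV (dist_pt V (s₀ + σ * u)) hx1 hx2
      (by rw [← hT]; intro i hi; simp only [mem_insert_iff, mem_singleton_iff] at hi ⊢; tauto)
      (by rw [F.shift]; exact hgy) (by rw [F.shift]; exact hd) hcV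
    rwa [F.shift] at this

theorem uniq (hn : N3 T y) {u' : ℝ} (hu : 0 < u) (hu6 : u < 6) (hu' : 0 < u')
    (hu6' : u' < 6) (h1 : 4 ≤ (T (pt y (s₀ + σ * u))).ncard ∧ pt y (s₀ + σ * u) ≠ V)
    (h2 : 4 ≤ (T (pt y (s₀ + σ * u'))).ncard ∧ pt y (s₀ + σ * u') ≠ V) : u = u' := by
  rcases hn V _ _ F.Vy (dist_pt y (s₀ + σ * u)) (dist_pt y (s₀ + σ * u')) F.dpt.ncard.ge h1.1
    h2.1 with h3 | h3 | h3
  · exact absurd h3.symm h1.2
  · exact absurd h3.symm h2.2
  · exact F.inj hu hu6 hu' hu6' h3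

/-- the second point of order at least four on `S(y)`, for an arc of 60 degrees -/
theorem two_of (hal : al = 1) (hend : 4 ≤ (T (pt V (s₀ + σ * al))).ncard) :
    4 ≤ (T (pt y (s₀ + σ * 2))).ncard ∧ pt y (s₀ + σ * 2) ≠ V := by
  rw [hal, F.apex] at hend
  refine ⟨hend, ?_⟩
  rw [← F.apex]
  intro h
  have := dist_pt V (s₀ + σ * 1)
  rw [h, dist_self] at this
  exact zero_ne_one this

/-- near the other end of the complement -/
theorem end6 : ∀ᶠ v in 𝓝[<] (6 : ℝ), T (pt V (s₀ + σ * v)) ⊆ T y := by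
  have h := F.near 6
  rw [F.six] at h
  exact mem_nhdsWithin_of_mem_nhds h

/-- the existence of `δ` -/
theorem delta (hn : N3 T y) {p : ℝ → Prop}
    (hp : ∀ s ∈ Ioo al 6, p s → 4 ≤ (T (pt y (s₀ + σ * s))).ncard ∧ pt y (s₀ + σ * s) ≠ V) :
    ∃ δ, ∀ s ∈ Ioo al 6, p s → s = δ := by
  by_cases h : ∃ s ∈ Ioo al 6, p s
  · obtain ⟨s, hs, h1⟩ := h
    refine ⟨s, fun t ht h2 => ?_⟩
    exact F.uniq hn (F.al0.trans ht.1) ht.2 (F.al0.trans hs.1) hs.2 (hp t ht h2) (hp s hs h1)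
  · push Not at h
    exact ⟨0, fun s hs h1 => absurd h1 (h s hs)⟩

/-- **an arc of 60 degrees** -/
theorem false_one (hn : N3 T y) (hal : al = 1) (hend : 4 ≤ (T (pt V (s₀ + σ * al))).ncard)
    {l0 l1 : Fin 3} (h01 : l0 ≠ l1) (h12 : l1 ≠ 2) (h02 : l0 ≠ 2)
    (hp : ∀ s ∈ Ioo al 6, l0 ∈ QD T V e f s₀ σ s → 2 ∈ QD T V e f s₀ σ s →
      4 ≤ (T (pt y (s₀ + σ * s))).ncard ∧ pt y (s₀ + σ * s) ≠ V) : False := by
  have h2 := F.two_of hal hend
  refine a4 F.cov h01 h12 h02 (c := 2) (fun s hs hc => ?_) (by linarith [F.al1]) (by norm_num)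
  have hs' : s ∈ Ioo al 6 := ⟨by linarith [hs.1, F.al1], hs.2⟩
  have := F.uniq hn (by linarith [hs.1]) hs.2 (by norm_num) (by norm_num) (hp s hs' hc.1 hc.2) h2
  exact absurd this (ne_of_gt hs.1)

/-- **case (i)** -/
theorem case_i (hn : N3 T y) (hend : 4 ≤ (T (pt V (s₀ + σ * al))).ncard)
    (hA : Six.Harm T y A) (hcA : c ∈ A) (hTy : ∀ i, i ∉ T y → i = d ∨ i = f) (hd : d ∉ T y)
    (hf : f ∉ T y) : False := by
  have H : ∀ w, dist w y = 1 → f ∈ T w ∨ c ∈ T w ∨ d ∈ T w := by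
    intro w hw
    by_cases hs : T w ⊆ T y
    · exact Or.inr (Or.inl (hA.h1 w hw hs hcA))
    · obtain ⟨i, hi, hi'⟩ := not_subset.1 hs
      rcases hTy i hi' with rfl | rfl
      · exact Or.inr (Or.inr hi)
      · exact Or.inl hi
  have hp : ∀ s ∈ Ioo al 6, 1 ∈ QD T V e f s₀ σ s → 2 ∈ QD T V e f s₀ σ s →
      4 ≤ (T (pt y (s₀ + σ * s))).ncard ∧ pt y (s₀ + σ * s) ≠ V := fun s hs h1 h2 =>
    F.meet (l := 1) rfl F.fV H hs h2 h1
  rcases lt_or_eq_of_le F.al1 with hal | hal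
  · obtain ⟨δ, hδ⟩ := F.delta hn (p := fun s => 1 ∈ QD T V e f s₀ σ s ∧ 2 ∈ QD T V e f s₀ σ s)
      fun s hs h => hp s hs h.1 h.2
    have h1 : ∀ᶠ t in 𝓝[<] (6 : ℝ), t ∈ Ioo (al + 5) 6 := Ioo_mem_nhdsLT (by linarith)
    obtain ⟨t, h2, h3⟩ := (h1.and F.end6).exists
    have ht : t ∈ Ioo al 6 := ⟨by linarith [h2.1], h2.2⟩
    refine a1 F.cov (l0 := 1) (l1 := 0) (l2 := 2) (by decide) (by decide) (by decide)
      (fun s hs h4 h5 => hδ s hs ⟨h4, h5⟩) h2.1 h2.2 fun l hl => ?_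
    have h4 := (F.col ht hl).trans h3
    fin_cases l
    · rfl
    · exact absurd (h4 rfl) hf
    · exact absurd (h4 (Or.inr rfl)) hd
  · exact F.false_one hn hal hend (l0 := 1) (l1 := 0) (by decide) (by decide) (by decide) hp

/-- **cases (ii) and (iii)** -/
theorem case_ii (hn : N3 T y) (hend : 4 ≤ (T (pt V (s₀ + σ * al))).ncard)
    (hA : Six.Harm T y A) (heA : e ∈ A) (hTy : T y = {a, b, e, f}) : False := by
  have hcV : c ∈ T V := by rw [F.dpt.pal]; simp
  have hdV : d ∈ T V := by rw [F.dpt.pal]; simp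
  have ece : e ≠ c := fun h => F.eV (h ▸ hcV)
  have ede : e ≠ d := fun h => F.eV (h ▸ hdV)
  have fce : f ≠ c := fun h => F.fV (h ▸ hcV)
  have fde : f ≠ d := fun h => F.fV (h ▸ hdV)
  have hcy : c ∉ T y := by
    rw [hTy]
    simp only [mem_insert_iff, mem_singleton_iff, not_or]
    exact ⟨F.dpt.ac.symm, F.dpt.bc.symm, ece.symm, fce.symm⟩
  have hdy : d ∉ T y := by
    rw [hTy]
    simp only [mem_insert_iff, mem_singleton_iff, not_or]
    exact ⟨F.dpt.ad.symm, F.dpt.bd.symm, ede.symm, fde.symm⟩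
  have hall : ∀ i, i ∉ T y → i = c ∨ i = d := by
    intro i hi
    rw [hTy] at hi
    simp only [mem_insert_iff, mem_singleton_iff, not_or] at hi
    by_cases hiV : i ∈ T V
    · rw [F.dpt.pal] at hiV
      rcases hiV with h | h | h | h
      · exact absurd h hi.1
      · exact absurd h hi.2.1
      · exact Or.inl h
      · exact Or.inr h
    · rcases F.all i hiV with h | h
      · exact absurd h hi.2.2.1
      · exact absurd h hi.2.2.2
  have HA : ∀ w, dist w y = 1 → A ⊆ T w ∨ c ∈ T w ∨ d ∈ T w := by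
    intro w hw
    by_cases hs : T w ⊆ T y
    · exact Or.inl (hA.h1 w hw hs)
    · obtain ⟨i, hi, hi'⟩ := not_subset.1 hs
      rcases hall i hi' with rfl | rfl
      · exact Or.inr (Or.inl hi)
      · exact Or.inr (Or.inr hi)
  have H : ∀ w, dist w y = 1 → e ∈ T w ∨ c ∈ T w ∨ d ∈ T w := fun w hw =>
    (HA w hw).imp_left fun h => h heA
  have hp : ∀ s ∈ Ioo al 6, 0 ∈ QD T V e f s₀ σ s → 2 ∈ QD T V e f s₀ σ s →
      4 ≤ (T (pt y (s₀ + σ * s))).ncard ∧ pt y (s₀ + σ * s) ≠ V := fun s hs h1 h2 =>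
    F.meet (l := 0) rfl F.eV H hs h2 h1
  by_cases hfA : f ∈ A
  · -- case (iii)
    have H' : ∀ w, dist w y = 1 → f ∈ T w ∨ c ∈ T w ∨ d ∈ T w := fun w hw =>
      (HA w hw).imp_left fun h => h hfA
    obtain ⟨δ, hδ⟩ := F.delta hn (p := fun s => 2 ∈ QD T V e f s₀ σ s ∧
      (0 ∈ QD T V e f s₀ σ s ∨ 1 ∈ QD T V e f s₀ σ s)) fun s hs h => by
        rcases h.2 with h1 | h1
        · exact hp s hs h1 h.1
        · exact F.meet (l := 1) rfl F.fV H' hs h.1 h1
    exact a3 F.cov (l0 := 0) (l1 := 1) (l2 := 2) (by decide) (by decide) (by decide)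
      (fun s hs h4 h5 => hδ s hs ⟨h4, h5⟩) (by linarith [F.al1])
  -- case (ii)
  obtain ⟨x, hxA, hxe⟩ : ∃ x ∈ A, x ≠ e := by
    by_contra hcon
    push Not at hcon
    have h1 : A ⊆ {e} := fun i hi => hcon i hi
    have h2 := Set.ncard_le_ncard h1 (Set.toFinite _)
    rw [hA.cardA, Set.ncard_singleton] at h2
    omega
  have hxV : x ∈ T V := by
    have h1 := hA.sub hxA
    rw [hTy] at h1
    rw [F.dpt.pal]
    rcases h1 with h | h | h | h
    · simp [h]
    · simp [h]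
    · exact absurd h hxe
    · rw [mem_singleton_iff] at h; exact absurd (h ▸ hxA) hfA
  rcases lt_or_eq_of_le F.al1 with hal | hal
  swap
  · exact F.false_one hn hal hend (l0 := 0) (l1 := 1) (by decide) (by decide) (by decide) hp
  obtain ⟨δ, hδ⟩ := F.delta hn (p := fun s => 0 ∈ QD T V e f s₀ σ s ∧ 2 ∈ QD T V e f s₀ σ s)
    fun s hs h => hp s hs h.1 h.2
  have h1 : ∀ᶠ t in 𝓝[<] (6 : ℝ), t ∈ Ioo (al + 5) 6 := Ioo_mem_nhdsLT (by linarith)
  -- near the end only the label `e`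
  have h2 : ∀ᶠ t in 𝓝[<] (6 : ℝ), QD T V e f s₀ σ t ⊆ {0} := by
    filter_upwards [h1, F.end6, self_mem_nhdsWithin,
      eventually_eventually_nhdsWithin.2 F.end6] with t ht h3 ht6 h3'
    have ht' : t ∈ Ioo al 6 := ⟨by linarith [ht.1], ht.2⟩
    have no2 : (2 : Fin 3) ∉ QD T V e f s₀ σ t := fun h =>
      hcy (h3 (F.col ht' h (Or.inl rfl)))
    have no1 : (1 : Fin 3) ∉ QD T V e f s₀ σ t := by
      intro h
      have hI : ∀ᶠ v in 𝓝 t, v ∈ Ioo (al + 5) 6 := Ioo_mem_nhds ht.1 ht.2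
      obtain ⟨v, hv, h4, h5⟩ := F.pick ht' h hI
      exact a1 F.cov (l0 := 0) (l1 := 1) (l2 := 2) (by decide) (by decide) (by decide)
        (fun s hs h4 h5 => hδ s hs ⟨h4, h5⟩) h5.1 h5.2 (F.one h4)
    intro l hl
    fin_cases l
    · rfl
    · exact absurd hl no1
    · exact absurd hl no2
  -- `t` near `6`
  have hne : ∀ᶠ t in 𝓝[<] (6 : ℝ), t - 5 ≠ δ := by
    by_cases hδ1 : δ = 1
    · filter_upwards [self_mem_nhdsWithin] with t ht
      have ht : t < 6 := ht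
      rw [hδ1]
      exact ne_of_lt (by linarith)
    · have hc : Continuous fun t : ℝ => t - 5 := by fun_prop
      have : ∀ᶠ t in 𝓝 (6 : ℝ), t - 5 ≠ δ := by
        refine (hc.tendsto 6).eventually_ne ?_
        intro h; apply hδ1; rw [← h]; norm_num
      exact mem_nhdsWithin_of_mem_nhds this
  have h3 : ∀ᶠ t in 𝓝[<] (6 : ℝ), QD T V e f s₀ σ (t - 1) ⊆ {1} ∧
      QD T V e f s₀ σ (t - 2) ⊆ {2} := by
    filter_upwards [h1, h2, hne] with t ht hQ hd
    exact a2s802 F.cov (l0 := 0) (l1 := 1) (l2 := 2) (by decide) (by decide) (by decide)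
      (fun s hs h4 h5 => hδ s hs ⟨h4, h5⟩) ht.1 ht.2 hd hQ
  -- the apex
  have l5 : Tendsto (fun t : ℝ => t - 1) (𝓝[<] (6 : ℝ)) (𝓝 5) := by
    have hc : Continuous fun t : ℝ => t - 1 := by fun_prop
    have := (hc.tendsto 6).mono_left (nhdsWithin_le_nhds (s := Iio (6 : ℝ)))
    rwa [show (6 : ℝ) - 1 = 5 by norm_num] at this
  have l4 : Tendsto (fun t : ℝ => t - 2) (𝓝[<] (6 : ℝ)) (𝓝 4) := by
    have hc : Continuous fun t : ℝ => t - 2 := by fun_prop
    have := (hc.tendsto 6).mono_left (nhdsWithin_le_nhds (s := Iio (6 : ℝ)))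
    rwa [show (6 : ℝ) - 2 = 4 by norm_num] at this
  have hfp : f ∈ T (pt V (s₀ + σ * 5)) := by
    obtain ⟨t, ⟨ht, h4, -⟩, h5⟩ := ((h1.and h3).and (l5.eventually (F.near 5))).exists
    obtain ⟨l, hl⟩ := F.ne (t - 1)
    have hl1 : l = 1 := h4 hl
    rw [hl1] at hl
    exact h5 (F.col ⟨by linarith [ht.1], by linarith [ht.2]⟩ hl rfl)
  have hAp : A ⊆ T (pt V (s₀ + σ * 5)) := by
    rw [F.apex']
    obtain ⟨t, ⟨ht, -, h4⟩, h5⟩ := ((h1.and h3).and (l4.eventually
      (eventually_eventually_nhds.2 (F.neary 4)))).exists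
    have ht2 : t - 2 ∈ Ioo al 6 := ⟨by linarith [ht.1], by linarith [ht.2]⟩
    obtain ⟨l, hl⟩ := F.ne (t - 2)
    have hl1 : l = 2 := h4 hl
    rw [hl1] at hl
    obtain ⟨v, hv, v1, v2, v3⟩ := F.pick3 ht2 hl
    rw [F.gen2 hv v1] at v3
    have h6 : T (pt y (s₀ + σ * (t - 2))) ⊆ T (pt y (s₀ + σ * 4)) := h5.self_of_nhds
    rcases HA _ (dist_pt y (s₀ + σ * v)) with h7 | h7 | h7
    · exact h7.trans (v2.trans h6)
    · exact absurd h7 (Set.disjoint_left.1 v3 (by simp))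
    · exact absurd h7 (Set.disjoint_left.1 v3 (by simp))
  have h5m : (5 : ℝ) ∈ Ioo al 6 := ⟨by linarith, by norm_num⟩
  have hTp : T (pt V (s₀ + σ * 5)) ⊆ T y := by
    have h4 : insert f A = T (pt V (s₀ + σ * 5)) := by
      refine Set.eq_of_subset_of_ncard_le (insert_subset hfp hAp) ?_ (Set.toFinite _)
      rw [Set.ncard_insert_of_notMem hfA (Set.toFinite _), hA.cardA]
      exact F.le3 5 h5m
    rw [← h4]
    refine insert_subset ?_ hA.sub
    rw [hTy]; simp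
  have hpy : dist (pt V (s₀ + σ * 5)) y = 1 := by rw [F.apex']; exact dist_pt _ _
  have hev : ∀ᶠ w in 𝓝[sphere y 1] (pt V (s₀ + σ * 5)), x ∈ T w := by
    filter_upwards [mem_nhdsWithin_of_mem_nhds (F.irr.nhd (pt V (s₀ + σ * 5))),
      self_mem_nhdsWithin] with w h4 h5
    exact hA.h1 w h5 (h4.trans hTp) hxA
  obtain ⟨k1, k2⟩ := S5.H767.tri (z := V) (y := pt V (s₀ + σ * 5)) (y' := y) (dist_pt _ _) F.yV
  exact line_free F.irr hpy hev (dist_pt V (s₀ + σ * 5)) k1 k2 (F.irr.sub V hxV)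

end FrD

/-! ### The row -/

/-- **D2: an end of an exact arc of a pair without plain ends is not harmless** -/
theorem no_harm_end802 (hdf : DF U T)
    (h3 : ∀ z y1 y2 y3, 4 ≤ (T z).ncard → dist y1 z = 1 → dist y2 z = 1 → dist y3 z = 1 →
      4 ≤ (T y1).ncard → 4 ≤ (T y2).ncard → 4 ≤ (T y3).ncard → y1 = y2 ∨ y1 = y3 ∨ y2 = y3) :
    ∀ V a b c d, DPt T V a b c d → H383.Pf T V a b → ∀ y ∈ closure (H383.XA T V a b),
      ∀ A, ¬ Six.Harm T y A := by
  intro V a b c d hV hp y hy A hA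
  have h := hdf.irr
  -- the two other colours
  obtain ⟨e, f, hef, hc2⟩ := Set.ncard_eq_two.1 (show ((T V)ᶜ).ncard = 2 by
    rw [Set.ncard_compl, hV.ncard]; simp)
  have hall : ∀ i, i ∉ T V → i = e ∨ i = f := fun i hi => by
    have : i ∈ (T V)ᶜ := hi
    rw [hc2] at this
    exact this
  have heV : e ∉ T V := by
    have : e ∈ (T V)ᶜ := by rw [hc2]; simp
    exact this
  have hfV : f ∉ T V := by
    have : f ∈ (T V)ᶜ := by rw [hc2]; simp
    exact this
  have haV : a ∈ T V := by rw [hV.pal]; simp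
  have hbV : b ∈ T V := by rw [hV.pal]; simp
  have hcV : c ∈ T V := by rw [hV.pal]; simp
  have hdV : d ∈ T V := by rw [hV.pal]; simp
  have hne : ∀ {i j : Fin 6}, i ∈ T V → j ∉ T V → i ≠ j := fun h1 h2 h3 => h2 (h3 ▸ h1)
  have hnd : [a, b, c, d, e, f].Nodup := by
    simp only [List.nodup_cons, List.mem_cons, List.not_mem_nil, or_false, not_or,
      List.nodup_nil, and_true, not_false_eq_true]
    exact ⟨⟨hV.ab, hV.ac, hV.ad, hne haV heV, hne haV hfV⟩,
      ⟨hV.bc, hV.bd, hne hbV heV, hne hbV hfV⟩, ⟨hV.cd, hne hcV heV, hne hcV hfV⟩,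
      ⟨hne hdV heV, hne hdV hfV⟩, hef⟩
  obtain ⟨hyV, hay, hby, hpal⟩ := H961.xl2' hdf hV hnd hp hy
  have hVy : dist V y = 1 := by rw [dist_comm]; exact hyV
  have hn : N3 T y := fun y1 y2 y3 => h3 y y1 y2 y3 hA.card.ge
  -- the frame
  obtain ⟨s, t, hst, hst1, hI, hex, hs, ht, hord⟩ := one_arc169 h hV hp
    fun y1 y2 y3 => h3 V y1 y2 y3 hV.ncard.ge
  have hfr : ∃ s₀ σ al, FrD U T V y a b c d e f s₀ σ al ∧
      4 ≤ (T (pt V (s₀ + σ * al))).ncard := by
    have hint : ∀ n : ℤ, (n : ℝ) ≤ -1 ∨ (n : ℝ) = 0 ∨ (1 : ℝ) ≤ n := by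
      intro n
      rcases lt_trichotomy n 0 with h1 | h1 | h1
      · left; exact_mod_cast (by omega : n ≤ -1)
      · right; left; exact_mod_cast h1
      · right; right; exact_mod_cast (by omega : 1 ≤ n)
    rcases hord y hyV hA.card.ge with hys | hyt
    · refine ⟨s, 1, t - s, ⟨h, hV, hall, heV, hfV, hef, Or.inl rfl, by linarith, by linarith,
        hys.symm, fun u hu hT => ?_, fun u hu => ?_⟩, ?_⟩
      · obtain ⟨w, hw, hw'⟩ := hex _ (dist_pt V (s + 1 * u)) hT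
        obtain ⟨n, hn'⟩ := pt_eq169 hw'
        have k1 := hu.1
        have k2 := hu.2
        have k3 := hw.1
        have k4 := hw.2
        rcases hint n with h5 | h5 | h5 <;> linarith
      · by_contra hcon
        push Not at hcon
        have k1 := hu.1
        have k2 := hu.2
        rcases hord _ (dist_pt V (s + 1 * u)) hcon with h6 | h6
        · obtain ⟨n, hn'⟩ := pt_eq169 h6
          rcases hint n with h5 | h5 | h5 <;> linarith
        · obtain ⟨n, hn'⟩ := pt_eq169 h6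
          rcases hint n with h5 | h5 | h5 <;> linarith
      · rw [show s + 1 * (t - s) = t by ring]
        exact ht.1
    · refine ⟨t, -1, t - s, ⟨h, hV, hall, heV, hfV, hef, Or.inr rfl, by linarith, by linarith,
        hyt.symm, fun u hu hT => ?_, fun u hu => ?_⟩, ?_⟩
      · obtain ⟨w, hw, hw'⟩ := hex _ (dist_pt V (t + -1 * u)) hT
        obtain ⟨n, hn'⟩ := pt_eq169 hw'
        have k1 := hu.1
        have k2 := hu.2
        have k3 := hw.1
        have k4 := hw.2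
        rcases hint n with h5 | h5 | h5 <;> linarith
      · by_contra hcon
        push Not at hcon
        have k1 := hu.1
        have k2 := hu.2
        rcases hord _ (dist_pt V (t + -1 * u)) hcon with h6 | h6
        · obtain ⟨n, hn'⟩ := pt_eq169 h6
          rcases hint n with h5 | h5 | h5 <;> linarith
        · obtain ⟨n, hn'⟩ := pt_eq169 h6
          rcases hint n with h5 | h5 | h5 <;> linarith
      · rw [show t + -1 * (t - s) = s by ring]
        exact hs.1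
  obtain ⟨s₀, σ, al, F, hend⟩ := hfr
  have hyE : y ∈ closure (Ex T V {a, b}) := by
    rw [← H961.xa_eq h hV]; exact hy
  -- the frame with the names changed
  have Fef : FrD U T V y a b c d f e s₀ σ al :=
    ⟨h, hV, fun i hi => (hall i hi).symm, hfV, heV, hef.symm, F.sg, F.al0, F.al1, F.yy, F.noab,
      F.le3⟩
  have Fcd : FrD U T V y a b d c e f s₀ σ al :=
    ⟨h, hV.swap34, hall, heV, hfV, hef, F.sg, F.al0, F.al1, F.yy, F.noab, F.le3⟩
  have Fce : FrD U T V y a b d c f e s₀ σ al :=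
    ⟨h, hV.swap34, fun i hi => (hall i hi).symm, hfV, heV, hef.symm, F.sg, F.al0, F.al1, F.yy,
      F.noab, F.le3⟩
  -- case (i)
  have ci : ∀ {c d e f : Fin 6}, FrD U T V y a b c d e f s₀ σ al → T y = {a, b, c, e} →
      False := by
    intro c d e f F hT
    have hcV : c ∈ T V := by rw [F.dpt.pal]; simp
    have hdV : d ∈ T V := by rw [F.dpt.pal]; simp
    have hcA : c ∈ A := by
      rcases (h.end_harm492 F.dpt hVy hT hyE hA).1 with rfl | rfl <;> simp
    refine F.case_i hn hend hA hcA ?_ ?_ ?_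
    · intro i hi
      rw [hT] at hi
      simp only [mem_insert_iff, mem_singleton_iff, not_or] at hi
      by_cases hiV : i ∈ T V
      · rw [F.dpt.pal] at hiV
        rcases hiV with h | h | h | h
        · exact absurd h hi.1
        · exact absurd h hi.2.1
        · exact absurd h hi.2.2.1
        · exact Or.inl h
      · rcases F.all i hiV with h | h
        · exact absurd h hi.2.2.2
        · exact Or.inr h
    · rw [hT]
      simp only [mem_insert_iff, mem_singleton_iff, not_or]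
      exact ⟨F.dpt.ad.symm, F.dpt.bd.symm, F.dpt.cd.symm, hne hdV F.eV⟩
    · rw [hT]
      simp only [mem_insert_iff, mem_singleton_iff, not_or]
      exact ⟨(hne haV F.fV).symm, (hne hbV F.fV).symm, (hne hcV F.fV).symm, F.ef.symm⟩
  rcases hpal with hpal | ⟨-, hpal⟩
  · have := hA.card
    rw [hpal, Set.ncard_pair hV.ab] at this
    omega
  rcases hpal with (hT | (hT | hT) | (hT | hT)) | hT
  · exact h.no_harm_J492 hV hVy (by rw [hT, hV.pal]) hA
  · exact ci F hT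
  · exact ci Fef hT
  · exact ci Fcd hT
  · exact ci Fce hT
  · -- `T y = {a, b, e, f}`
    by_cases he : e ∈ A
    · exact F.case_ii hn hend hA he hT
    by_cases hf : f ∈ A
    · exact Fef.case_ii hn hend hA hf (by
        rw [hT]; ext i; simp only [mem_insert_iff, mem_singleton_iff]; tauto)
    have hAab : A = {a, b} := by
      refine Set.eq_of_subset_of_ncard_le (fun i hi => ?_)
        (by rw [hA.cardA, Set.ncard_pair hV.ab]) (Set.toFinite _)
      have h5 := hA.sub hi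
      rw [hT] at h5
      rcases h5 with h5 | h5 | h5 | h5
      · exact Or.inl h5
      · exact Or.inr h5
      · exact absurd (h5 ▸ hi) he
      · rw [mem_singleton_iff] at h5; exact absurd (h5 ▸ hi) hf
    rw [hAab] at hA
    exact h.not_harm492 hV.ab hyE hA

end Vale.Agent.P032.H802
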