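import Vale.Agent.P032.H802.Rods

/-!
# P032: components of an open set along arcs and at corners

`out c` is the outside of the unit disc about `c`.  A component `K` of `G` *lives at* a germ
(filter) `l` if `K ∈ l`.
-/

open Set Filter Topology Metric Vale.Agent.P032.Six

noncomputable section

namespace Vale.Agent.P032.H802

/-- outside of the unit disc about `c` -/
def out (c : ℂ) : Set ℂ := {w | 1 < dist w c}

theorem mem_out {c w : ℂ} : w ∈ out c ↔ 1 < dist w c := Iff.rfl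

theorem isOpen_out (c : ℂ) : IsOpen (out c) :=
  isOpen_lt continuous_const (continuous_id.dist continuous_const)

/-- `K` is a component of `G` -/
def Cmp (G K : Set ℂ) : Prop := ∃ g ∈ G, K = connectedComponentIn G g

theorem Cmp.sub {G K : Set ℂ} (h : Cmp G K) : K ⊆ G := by
  obtain ⟨g, -, rfl⟩ := h
  exact connectedComponentIn_subset G g

theorem Cmp.preconnected {G K : Set ℂ} (h : Cmp G K) : IsPreconnected K := by
  obtain ⟨g, -, rfl⟩ := h
  exact isPreconnected_connectedComponentIn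

theorem Cmp.absorb {G K P : Set ℂ} (h : Cmp G K) (hP : IsPreconnected P) (hPG : P ⊆ G)
    (hne : (P ∩ K).Nonempty) : P ⊆ K := by
  obtain ⟨g, -, rfl⟩ := h
  obtain ⟨x, hxP, hxK⟩ := hne
  rw [connectedComponentIn_eq hxK]
  exact hP.subset_connectedComponentIn hxP hPG

theorem Cmp.eq {G K K' : Set ℂ} (h : Cmp G K) (h' : Cmp G K') (hne : (K ∩ K').Nonempty) :
    K = K' := by
  refine Subset.antisymm (h'.absorb h.preconnected h.sub hne) (h.absorb h'.preconnected h'.sub ?_)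
  rwa [inter_comm]

theorem Cmp.eq_of_germ {G K K' : Set ℂ} (h : Cmp G K) (h' : Cmp G K') {l : Filter ℂ} [l.NeBot]
    (hK : K ∈ l) (hK' : K' ∈ l) : K = K' :=
  h.eq h' (l.nonempty_of_mem (inter_mem hK hK'))

/-- a preconnected subset living at a germ gives a component living there -/
theorem exists_cmp {G P : Set ℂ} (hP : IsPreconnected P) (hPG : P ⊆ G) {l : Filter ℂ} [l.NeBot]
    (hl : P ∈ l) : ∃ K, Cmp G K ∧ K ∈ l ∧ P ⊆ K := by
  obtain ⟨g, hg⟩ := l.nonempty_of_mem hl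
  have h1 : P ⊆ connectedComponentIn G g := hP.subset_connectedComponentIn hg hPG
  exact ⟨_, ⟨g, hPG hg, rfl⟩, mem_of_superset hl h1, h1⟩

/-- (F1): a preconnected set without unit distance has diameter at most one -/
theorem dist_le_of_free {K : Set ℂ} (hK : IsPreconnected K)
    (hfree : ∀ x ∈ K, ∀ y ∈ K, dist x y ≠ 1) :
    ∀ x ∈ closure K, ∀ y ∈ closure K, dist x y ≤ 1 := by
  have h1 : ∀ x ∈ K, ∀ y ∈ K, dist x y ≤ 1 := by
    intro x hx y hy
    by_contra hcon
    push Not at hcon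
    have hc : ContinuousOn (fun q => dist x q) K := by fun_prop
    obtain ⟨q, hq, hq1⟩ := hK.intermediate_value hx hy hc
      (show (1 : ℝ) ∈ Icc (dist x x) (dist x y) from ⟨by rw [dist_self]; norm_num, hcon.le⟩)
    exact hfree x hx q hq hq1
  intro x hx y hy
  have h2 : ∀ y ∈ K, ∀ x ∈ closure K, dist x y ≤ 1 := by
    intro y hy
    exact closure_minimal (fun x hx => h1 x hx y hy)
      (isClosed_le (continuous_id.dist continuous_const) continuous_const)
  exact closure_minimal (fun y hy => h2 y hy x hx)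
    (isClosed_le (continuous_const.dist continuous_id) continuous_const) hy

/-- (F2): a preconnected set which misses the circle about `c` and has a point outside is outside -/
theorem sub_out {K : Set ℂ} (hK : IsPreconnected K) {c y : ℂ} (hfree : ∀ x ∈ K, dist x c ≠ 1)
    (hy : y ∈ K) (hyc : 1 < dist y c) : K ⊆ out c := by
  intro x hx
  by_contra hcon
  rw [mem_out, not_lt] at hcon
  have hc : ContinuousOn (fun q => dist q c) K := by fun_prop
  obtain ⟨q, hq, hq1⟩ := hK.intermediate_value hx hy hc ⟨hcon, hyc.le⟩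
  exact hfree q hq hq1

theorem notMem_closure_of_sub_out {K : Set ℂ} {c : ℂ} (h : K ⊆ out c) : c ∉ closure K := by
  intro hc
  obtain ⟨x, hx, hxc⟩ := Metric.mem_closure_iff.1 hc 1 one_pos
  have h1 := h hx
  rw [mem_out, dist_comm] at h1
  linarith

/-! ### germs along an arc -/

theorem norm_cis_mul {u : ℂ} (hu : ‖u‖ = 1) (t : ℝ) : ‖cis t * u‖ = 1 := by
  rw [norm_mul, norm_cis, hu, one_mul]

theorem dist_polar {c u : ℂ} (hu : ‖u‖ = 1) {r : ℝ} (hr : 0 ≤ r) (t : ℝ) :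
    dist (c + (r : ℂ) * (cis t * u)) c = r := by
  rw [dist_eq_norm, add_sub_cancel_left, norm_mul, norm_cis_mul hu, mul_one, Complex.norm_real,
    Real.norm_of_nonneg hr]

/-- the outer germ at a point of a circle is not trivial -/
theorem neBot_out {c u : ℂ} (hu : ‖u‖ = 1) (t : ℝ) : (𝓝[out c] (c + cis t * u)).NeBot := by
  rw [← mem_closure_iff_nhdsWithin_neBot]
  have hc : Continuous fun r : ℝ => c + (r : ℂ) * (cis t * u) := by fun_prop
  have h1 : Tendsto (fun r : ℝ => c + (r : ℂ) * (cis t * u)) (𝓝[>] 1) (𝓝 (c + cis t * u)) := by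
    have h2 := (hc.tendsto 1).mono_left (nhdsWithin_le_nhds (s := Ioi (1 : ℝ)))
    simpa using h2
  refine mem_closure_of_tendsto h1 ?_
  filter_upwards [self_mem_nhdsWithin] with r hr
  have hr : (1 : ℝ) < r := hr
  rw [mem_out, dist_polar hu (by linarith)]
  exact hr

/-- the polar rectangles are a basis of the outer germ -/
theorem polar_mem {c u : ℂ} (hu : ‖u‖ = 1) {σ : ℝ} (hσ : σ * σ = 1) {t : ℝ} {N : Set (ℝ × ℝ)}
    (hN : N ∈ 𝓝 (t, (1 : ℝ))) :
    (fun x : ℝ × ℝ => c + (x.2 : ℂ) * (cis (σ * x.1) * u)) '' (N ∩ univ ×ˢ Ioi 1) ∈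
      𝓝[out c] (c + cis (σ * t) * u) := by
  have hu0 : u ≠ 0 := by
    intro h0; rw [h0, norm_zero] at hu; exact zero_ne_one hu
  have hcis : cis (σ * t) ≠ 0 := by
    intro h0
    have := norm_cis (σ * t)
    rw [h0, norm_zero] at this
    exact zero_ne_one this
  -- polar coordinates
  have hF : Tendsto (fun w : ℂ => (t + σ * Complex.arg ((w - c) / (cis (σ * t) * u)), ‖w - c‖))
      (𝓝 (c + cis (σ * t) * u)) (𝓝 (t, (1 : ℝ))) := by
    have h1 : Tendsto (fun w : ℂ => (w - c) / (cis (σ * t) * u)) (𝓝 (c + cis (σ * t) * u))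
        (𝓝 1) := by
      have hc : Continuous fun w : ℂ => (w - c) / (cis (σ * t) * u) := by fun_prop
      have h2 := hc.tendsto (c + cis (σ * t) * u)
      rwa [add_sub_cancel_left, div_self (mul_ne_zero hcis hu0)] at h2
    have h3 : Tendsto (fun w : ℂ => Complex.arg ((w - c) / (cis (σ * t) * u)))
        (𝓝 (c + cis (σ * t) * u)) (𝓝 0) := by
      have h4 := (Complex.continuousAt_arg (x := 1) Complex.one_mem_slitPlane).tendsto.comp h1
      rwa [Complex.arg_one] at h4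
    have h5 : Tendsto (fun w : ℂ => t + σ * Complex.arg ((w - c) / (cis (σ * t) * u)))
        (𝓝 (c + cis (σ * t) * u)) (𝓝 t) := by
      have := (h3.const_mul σ).const_add t
      rwa [mul_zero, add_zero] at this
    have h6 : Tendsto (fun w : ℂ => ‖w - c‖) (𝓝 (c + cis (σ * t) * u)) (𝓝 1) := by
      have hc : Continuous fun w : ℂ => ‖w - c‖ := by fun_prop
      have h7 := hc.tendsto (c + cis (σ * t) * u)
      rwa [add_sub_cancel_left, norm_cis_mul hu] at h7
    exact h5.prodMk_nhds h6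
  filter_upwards [mem_nhdsWithin_of_mem_nhds (hF hN), self_mem_nhdsWithin] with w hw hw1
  refine ⟨_, ⟨hw, mem_univ _, ?_⟩, ?_⟩
  · change 1 < ‖w - c‖
    rw [← dist_eq_norm]; exact hw1
  · change c + ((‖w - c‖ : ℝ) : ℂ) *
      (cis (σ * (t + σ * Complex.arg ((w - c) / (cis (σ * t) * u)))) * u) = w
    have h8 : σ * (t + σ * Complex.arg ((w - c) / (cis (σ * t) * u))) =
        σ * t + Complex.arg ((w - c) / (cis (σ * t) * u)) := by
      linear_combination (Complex.arg ((w - c) / (cis (σ * t) * u))) * hσ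
    have h9 : ∀ a b : ℝ, cis (a + b) = cis a * cis b := by
      intro a b
      rw [cis, cis, cis, Complex.ofReal_add, add_mul, Complex.exp_add]
    have h10 : (‖w - c‖ : ℝ) = ‖(w - c) / (cis (σ * t) * u)‖ := by
      rw [norm_div, norm_cis_mul hu, div_one]
    rw [h8, h9]
    have h11 : ((‖w - c‖ : ℝ) : ℂ) * cis (Complex.arg ((w - c) / (cis (σ * t) * u))) =
        (w - c) / (cis (σ * t) * u) := by
      rw [h10, cis]
      exact Complex.norm_mul_exp_arg_mul_I _
    have h12 : c + ((‖w - c‖ : ℝ) : ℂ) *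
        (cis (σ * t) * cis (Complex.arg ((w - c) / (cis (σ * t) * u))) * u) =
        c + (((‖w - c‖ : ℝ) : ℂ) * cis (Complex.arg ((w - c) / (cis (σ * t) * u)))) *
          (cis (σ * t) * u) := by ring
    rw [h12, h11, div_mul_cancel₀ _ (mul_ne_zero hcis hu0)]
    ring

/-- local collars -/
theorem collar_local {G : Set ℂ} {c u : ℂ} (hu : ‖u‖ = 1) {σ : ℝ} (hσ : σ * σ = 1) {t0 : ℝ}
    (h : ∀ᶠ w in 𝓝 (c + cis (σ * t0) * u), 1 < dist w c → w ∈ G) :
    ∃ P, IsPreconnected P ∧ P ⊆ G ∧ ∀ᶠ t in 𝓝 t0, P ∈ 𝓝[out c] (c + cis (σ * t) * u) := by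
  have hc : Continuous fun x : ℝ × ℝ => c + (x.2 : ℂ) * (cis (σ * x.1) * u) := by
    have := continuous_cis
    fun_prop
  have h1 : Tendsto (fun x : ℝ × ℝ => c + (x.2 : ℂ) * (cis (σ * x.1) * u)) (𝓝 (t0, (1 : ℝ)))
      (𝓝 (c + cis (σ * t0) * u)) := by
    have := hc.tendsto (t0, (1 : ℝ))
    simpa using this
  obtain ⟨δ, hδ, hball⟩ := Metric.eventually_nhds_iff.1 (h1.eventually h)
  refine ⟨(fun x : ℝ × ℝ => c + (x.2 : ℂ) * (cis (σ * x.1) * u)) ''
    (Ioo (t0 - δ) (t0 + δ) ×ˢ Ioo 1 (1 + δ)),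
    (isPreconnected_Ioo.prod isPreconnected_Ioo).image _ hc.continuousOn, ?_, ?_⟩
  · rintro _ ⟨⟨t, r⟩, ⟨ht, hr⟩, rfl⟩
    simp only [mem_Ioo] at ht hr
    refine hball ?_ ?_
    · rw [Prod.dist_eq, max_lt_iff]
      constructor
      · rw [Real.dist_eq, abs_lt]; constructor <;> linarith
      · rw [Real.dist_eq, abs_lt]; constructor <;> linarith
    · simp only
      rw [dist_polar hu (by linarith)]
      exact hr.1
  · have h2 : ∀ᶠ t in 𝓝 t0, t ∈ Ioo (t0 - δ) (t0 + δ) :=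
      Ioo_mem_nhds (by linarith) (by linarith)
    filter_upwards [h2] with t ht
    have hN : Ioo (t0 - δ) (t0 + δ) ×ˢ Ioo (0 : ℝ) (1 + δ) ∈ 𝓝 (t, (1 : ℝ)) :=
      prod_mem_nhds (Ioo_mem_nhds ht.1 ht.2) (Ioo_mem_nhds one_pos (by linarith))
    refine mem_of_superset (polar_mem (c := c) hu hσ hN) (image_mono ?_)
    rintro ⟨t', r⟩ ⟨⟨ht', hr⟩, -, hr1⟩
    exact ⟨ht', hr1, hr.2⟩

/-- one component along an open arc -/
theorem collar_cmp {G : Set ℂ} {c u : ℂ} (hu : ‖u‖ = 1) {σ : ℝ} (hσ : σ * σ = 1) {α β : ℝ}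
    (hαβ : α < β)
    (h : ∀ t ∈ Ioo α β, ∀ᶠ w in 𝓝 (c + cis (σ * t) * u), 1 < dist w c → w ∈ G) :
    ∃ K, Cmp G K ∧ ∀ t ∈ Ioo α β, K ∈ 𝓝[out c] (c + cis (σ * t) * u) := by
  have hmid : (α + β) / 2 ∈ Ioo α β := ⟨by linarith, by linarith⟩
  have hnb : ∀ t : ℝ, (𝓝[out c] (c + cis (σ * t) * u)).NeBot := fun t => neBot_out hu _
  obtain ⟨P1, hP1, hP1G, hP1e⟩ := collar_local hu hσ (h _ hmid)
  obtain ⟨K, hK, hKl, -⟩ := exists_cmp hP1 hP1G hP1e.self_of_nhds
  refine ⟨K, hK, fun t ht => ?_⟩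
  have key : ∀ t0 ∈ Ioo α β, ∀ᶠ t in 𝓝 t0,
      (K ∈ 𝓝[out c] (c + cis (σ * t0) * u) ↔ K ∈ 𝓝[out c] (c + cis (σ * t) * u)) := by
    intro t0 ht0
    obtain ⟨P, hP, hPG, hPe⟩ := collar_local hu hσ (h _ ht0)
    have h0 := hPe.self_of_nhds
    filter_upwards [hPe] with t ht'
    constructor
    · intro h1
      exact mem_of_superset ht' (hK.absorb hP hPG
        ((hnb t0).nonempty_of_mem (inter_mem h0 h1)))
    · intro h1
      exact mem_of_superset h0 (hK.absorb hP hPG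
        ((hnb t).nonempty_of_mem (inter_mem ht' h1)))
  have h2 := (isPreconnected_Ioo (a := α) (b := β)).induction₂'
    (fun x y => (K ∈ 𝓝[out c] (c + cis (σ * x) * u) ↔ K ∈ 𝓝[out c] (c + cis (σ * y) * u)))
    (fun x hx => by
      filter_upwards [mem_nhdsWithin_of_mem_nhds (key x hx)] with y hy
      exact ⟨hy, hy.symm⟩)
    (fun x y z _ _ _ h1 h2 => h1.trans h2) hmid ht
  exact h2.1 hKl

/-! ### germs at a corner -/

/-- scalar product -/
def dot (a b : ℂ) : ℝ := a.re * b.re + a.im * b.im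

theorem norm_sq_eq_dot (a : ℂ) : ‖a‖ ^ 2 = dot a a := by
  rw [← Complex.normSq_eq_norm_sq, Complex.normSq_apply, dot]

theorem dot_le (a b : ℂ) : |dot a b| ≤ ‖a‖ * ‖b‖ := by
  apply abs_le_of_sq_le_sq _ (by positivity)
  rw [mul_pow, norm_sq_eq_dot, norm_sq_eq_dot, dot, dot, dot]
  nlinarith [sq_nonneg (a.re * b.im - a.im * b.re)]

theorem dot_add_left (a b c : ℂ) : dot (a + b) c = dot a c + dot b c := by
  simp only [dot, Complex.add_re, Complex.add_im]; ring

theorem dot_add_right (a b c : ℂ) : dot a (b + c) = dot a b + dot a c := by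
  simp only [dot, Complex.add_re, Complex.add_im]; ring

theorem dot_smul_right (a b : ℂ) (s : ℝ) : dot a (s • b) = s * dot a b := by
  simp only [dot, Complex.real_smul, Complex.mul_re, Complex.mul_im, Complex.ofReal_re,
    Complex.ofReal_im]; ring

theorem dot_comm (a b : ℂ) : dot a b = dot b a := by
  simp only [dot]; ring

theorem one_lt_norm_of_dot {a x : ℂ} (ha : ‖a‖ = 1) (h : 1 < dot x a) : 1 < ‖x‖ := by
  have h1 := dot_le x a
  rw [ha, mul_one] at h1
  exact lt_of_lt_of_le h ((le_abs_self _).trans h1)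

theorem norm_sq_add_smul (x n : ℂ) (s : ℝ) :
    ‖x + s • n‖ ^ 2 = ‖x‖ ^ 2 + 2 * s * dot x n + s ^ 2 * ‖n‖ ^ 2 := by
  rw [norm_sq_eq_dot, norm_sq_eq_dot, norm_sq_eq_dot]
  simp only [dot, Complex.add_re, Complex.add_im, Complex.real_smul, Complex.mul_re,
    Complex.mul_im, Complex.ofReal_re, Complex.ofReal_im]
  ring

/-- moving away from a circle -/
theorem away {x n : ℂ} (hx : 1 < ‖x‖) (h : 0 ≤ dot x n) {s : ℝ} (hs : 0 ≤ s) :
    1 < ‖x + s • n‖ := by
  have h1 := norm_sq_add_smul x n s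
  have h2 : 0 ≤ s * dot x n := mul_nonneg hs h
  nlinarith [norm_nonneg x, norm_nonneg (x + s • n), sq_nonneg (s * ‖n‖)]

/-- the points pushed away from both circles -/
theorem pushed {a n v : ℂ} (ha : ‖a‖ = 1) {κ s : ℝ} (han : dot a n = κ)
    (hv : ‖v‖ < s * κ) : 1 < ‖a + (s • n + v)‖ := by
  refine one_lt_norm_of_dot ha ?_
  have h1 := dot_le v a
  rw [ha, mul_one] at h1
  have h2 := (abs_le.1 h1).1
  have h3 : dot a a = 1 := by rw [← norm_sq_eq_dot, ha]; norm_num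
  rw [dot_add_left, dot_add_left, h3, dot_comm (s • n), dot_smul_right, han]
  linarith

/-- sector at a corner -/
theorem corner_local {G : Set ℂ} {c p q : ℂ} (hp : dist c p = 1) (hq : dist c q = 1)
    (hne : p + q ≠ 2 * c) (h : ∀ᶠ w in 𝓝 c, 1 < dist w p → 1 < dist w q → w ∈ G) :
    ∃ P, IsPreconnected P ∧ P ⊆ G ∧ P ∈ 𝓝[out p ∩ out q] c := by
  rw [dist_eq_norm] at hp hq
  obtain ⟨n, hn⟩ : ∃ n, n = (c - p) + (c - q) := ⟨_, rfl⟩
  have hn0 : n ≠ 0 := by
    intro h0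
    apply hne
    rw [h0] at hn
    linear_combination hn
  have hnn : 0 < ‖n‖ := norm_pos_iff.2 hn0
  obtain ⟨κ, hκ⟩ : ∃ κ, κ = ‖n‖ ^ 2 / 2 := ⟨_, rfl⟩
  have hκ0 : 0 < κ := by rw [hκ]; positivity
  have hap : dot (c - p) n = κ := by
    have h1 : ‖n‖ ^ 2 = 2 + 2 * dot (c - p) (c - q) := by
      rw [hn, norm_sq_eq_dot, dot_add_left, dot_add_right, dot_add_right, ← norm_sq_eq_dot,
        ← norm_sq_eq_dot, hp, hq, dot_comm (c - q)]
      ring
    rw [hκ, h1, hn, dot_add_right, ← norm_sq_eq_dot, hp]; ring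
  have haq : dot (c - q) n = κ := by
    have h1 : ‖n‖ ^ 2 = 2 + 2 * dot (c - p) (c - q) := by
      rw [hn, norm_sq_eq_dot, dot_add_left, dot_add_right, dot_add_right, ← norm_sq_eq_dot,
        ← norm_sq_eq_dot, hp, hq, dot_comm (c - q)]
      ring
    rw [hκ, h1, hn, dot_add_right, ← norm_sq_eq_dot, hq, dot_comm (c - q)]; ring
  obtain ⟨ε, hε, hball⟩ := Metric.eventually_nhds_iff.1 h
  obtain ⟨σ, hσ⟩ : ∃ σ, σ = ε / (2 * ‖n‖) := ⟨_, rfl⟩
  have hσ0 : 0 < σ := by rw [hσ]; positivity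
  have hσn : σ * ‖n‖ = ε / 2 := by rw [hσ]; field_simp
  obtain ⟨ρ, hρ⟩ : ∃ ρ, ρ = min (‖n‖ / 2) (min (σ * κ) (ε / 2)) := ⟨_, rfl⟩
  have hρ0 : 0 < ρ := by
    rw [hρ]
    exact lt_min (by positivity) (lt_min (by positivity) (by positivity))
  have hρ1 : ρ ≤ ‖n‖ / 2 := hρ ▸ min_le_left _ _
  have hρ2 : ρ ≤ σ * κ := hρ ▸ (min_le_right _ _).trans (min_le_left _ _)
  have hρ3 : ρ ≤ ε / 2 := hρ ▸ (min_le_right _ _).trans (min_le_right _ _)
  -- facts for one circle
  have fact1 : ∀ p, ‖c - p‖ = 1 → dot (c - p) n = κ → ∀ w, dist w c < ρ → 1 < dist w p →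
      ∀ s : ℝ, 0 ≤ s → 1 < dist (w + s • n) p := by
    intro p _ hd w hw hwp s hs
    rw [dist_eq_norm] at hw hwp ⊢
    have h1 : w + s • n - p = (w - p) + s • n := by ring
    rw [h1]
    refine away hwp ?_ hs
    have h2 : w - p = (c - p) + (w - c) := by ring
    rw [h2, dot_add_left, hd]
    have h3 := (abs_le.1 (dot_le (w - c) n)).1
    have h4 : ‖w - c‖ * ‖n‖ ≤ ρ * ‖n‖ := mul_le_mul_of_nonneg_right hw.le hnn.le
    have h5 : ρ * ‖n‖ ≤ κ := by
      rw [hκ]; nlinarith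
    linarith
  have fact2 : ∀ p, ‖c - p‖ = 1 → dot (c - p) n = κ → ∀ y, dist y (c + σ • n) < ρ →
      1 < dist y p := by
    intro p hp1 hd y hy
    rw [dist_eq_norm] at hy ⊢
    have h1 : y - p = (c - p) + (σ • n + (y - (c + σ • n))) := by ring
    rw [h1]
    exact pushed hp1 hd (lt_of_lt_of_le hy hρ2)
  obtain ⟨S, hS⟩ : ∃ S : Set ℂ, S = ball c ρ ∩ (out p ∩ out q) := ⟨_, rfl⟩
  refine ⟨ball (c + σ • n) ρ ∪ ⋃ w ∈ S, segment ℝ w (w + σ • n), ?_, ?_, ?_⟩
  · refine isPreconnected_of_forall (c + σ • n) fun y hy => ?_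
    rcases hy with hy | hy
    · exact ⟨ball (c + σ • n) ρ, subset_union_left, mem_ball_self hρ0, hy,
        (convex_ball _ _).isPreconnected⟩
    · obtain ⟨w, hw, hyw⟩ := mem_iUnion₂.1 hy
      refine ⟨ball (c + σ • n) ρ ∪ segment ℝ w (w + σ • n), ?_, Or.inl (mem_ball_self hρ0),
        Or.inr hyw, ?_⟩
      · exact union_subset_union_right _ (subset_biUnion_of_mem (u := fun w => segment ℝ w (w + σ • n)) hw)
      · refine IsPreconnected.union (w + σ • n) ?_ (right_mem_segment ℝ _ _)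
          (convex_ball _ _).isPreconnected (convex_segment _ _).isPreconnected
        rw [hS] at hw
        have := hw.1
        rw [mem_ball, dist_eq_norm] at this ⊢
        rwa [add_sub_add_right_eq_sub]
  · intro y hy
    rcases hy with hy | hy
    · refine hball ?_ (fact2 p hp hap y hy) (fact2 q hq haq y hy)
      have h1 : dist (c + σ • n) c = ε / 2 := by
        rw [dist_eq_norm, add_sub_cancel_left, norm_smul, Real.norm_of_nonneg hσ0.le, hσn]
      have h2 := dist_triangle y (c + σ • n) c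
      rw [mem_ball] at hy
      linarith
    · obtain ⟨w, hw, hyw⟩ := mem_iUnion₂.1 hy
      rw [hS] at hw
      obtain ⟨hw1, hw2, hw3⟩ := hw
      rw [segment_eq_image'] at hyw
      obtain ⟨θ, hθ, rfl⟩ := hyw
      simp only [add_sub_cancel_left, smul_smul]
      have hs : 0 ≤ θ * σ := mul_nonneg hθ.1 hσ0.le
      refine hball ?_ (fact1 p hp hap w hw1 hw2 _ hs) (fact1 q hq haq w hw1 hw3 _ hs)
      have h1 : dist (w + (θ * σ) • n) w = θ * σ * ‖n‖ := by
        rw [dist_eq_norm, add_sub_cancel_left, norm_smul, Real.norm_of_nonneg hs]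
      have h2 := dist_triangle (w + (θ * σ) • n) w c
      rw [mem_ball] at hw1
      have h3 : θ * σ * ‖n‖ ≤ ε / 2 := by
        rw [mul_assoc, hσn]
        nlinarith [hθ.1, hθ.2]
      linarith
  · have h1 : S ∈ 𝓝[out p ∩ out q] c := by
      rw [hS]
      exact inter_mem (mem_nhdsWithin_of_mem_nhds (ball_mem_nhds c hρ0)) self_mem_nhdsWithin
    refine mem_of_superset h1 fun w hw => Or.inr (mem_iUnion₂.2 ⟨w, hw, left_mem_segment ℝ _ _⟩)

theorem neBot_corner {c p q : ℂ} (hp : dist c p = 1) (hq : dist c q = 1)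
    (hne : p + q ≠ 2 * c) : (𝓝[out p ∩ out q] c).NeBot := by
  rw [dist_eq_norm] at hp hq
  rw [← mem_closure_iff_nhdsWithin_neBot]
  obtain ⟨n, hn⟩ : ∃ n, n = (c - p) + (c - q) := ⟨_, rfl⟩
  have hn0 : n ≠ 0 := by
    intro h0
    apply hne
    rw [h0] at hn
    linear_combination hn
  have hnn : 0 < ‖n‖ := norm_pos_iff.2 hn0
  have h1 : ‖n‖ ^ 2 = 2 + 2 * dot (c - p) (c - q) := by
    rw [hn, norm_sq_eq_dot, dot_add_left, dot_add_right, dot_add_right, ← norm_sq_eq_dot,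
      ← norm_sq_eq_dot, hp, hq, dot_comm (c - q)]
    ring
  have hap : dot (c - p) n = ‖n‖ ^ 2 / 2 := by
    rw [h1, hn, dot_add_right, ← norm_sq_eq_dot, hp]; ring
  have haq : dot (c - q) n = ‖n‖ ^ 2 / 2 := by
    rw [h1, hn, dot_add_right, ← norm_sq_eq_dot, hq, dot_comm (c - q)]; ring
  have hc : Continuous fun r : ℝ => c + r • n := by fun_prop
  have h2 : Tendsto (fun r : ℝ => c + r • n) (𝓝[>] 0) (𝓝 c) := by
    have h2 := (hc.tendsto 0).mono_left (nhdsWithin_le_nhds (s := Ioi (0 : ℝ)))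
    simpa using h2
  refine mem_closure_of_tendsto h2 ?_
  filter_upwards [self_mem_nhdsWithin] with r hr
  have hr : (0 : ℝ) < r := hr
  constructor
  · rw [mem_out, dist_eq_norm]
    have h3 : c + r • n - p = (c - p) + (r • n + 0) := by ring
    rw [h3]
    exact pushed hp hap (by rw [norm_zero]; positivity)
  · rw [mem_out, dist_eq_norm]
    have h3 : c + r • n - q = (c - q) + (r • n + 0) := by ring
    rw [h3]
    exact pushed hq haq (by rw [norm_zero]; positivity)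

/-- one component at a corner -/
theorem corner_cmp {G : Set ℂ} {c p q : ℂ} (hp : dist c p = 1) (hq : dist c q = 1)
    (hne : p + q ≠ 2 * c) (h : ∀ᶠ w in 𝓝 c, 1 < dist w p → 1 < dist w q → w ∈ G) :
    ∃ K, Cmp G K ∧ K ∈ 𝓝[out p ∩ out q] c := by
  obtain ⟨P, hP, hPG, hPl⟩ := corner_local hp hq hne h
  have := neBot_corner hp hq hne
  obtain ⟨K, hK, hKl, -⟩ := exists_cmp hP hPG hPl
  exact ⟨K, hK, hKl⟩

end Vale.Agent.P032.H802
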