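import Vale.Agent.P032.Six.Geo

/-!
# P032, SWITCH chains: the rods argument

A zigzag chain `V 0, V 1, ...` of unit steps whose rods turn alternately to the left (at odd
vertices) and to the right (at even vertices).  `X` stands for the closure of the component that
touches the even vertices and the arcs about odd vertices, `Y` for the other one.
Directions are real numbers `t`, the unit vector is `cis t = Complex.exp (t * I)`.
-/

open Set Vale.Agent.P032.Six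

noncomputable section

namespace Vale.Agent.P032.H802

theorem cis_add_pi (t : ℝ) : cis (t + Real.pi) = -cis t := by
  rw [cis, cis, Complex.ofReal_add, add_mul, Complex.exp_add, Complex.exp_pi_mul_I]
  ring

theorem cis_sub_pi (t : ℝ) : cis (t - Real.pi) = -cis t := by
  have := cis_add_pi (t - Real.pi)
  rw [sub_add_cancel] at this
  rw [this, neg_neg]

theorem cis_re (t : ℝ) : (cis t).re = Real.cos t := by
  rw [cis, Complex.exp_ofReal_mul_I_re]

theorem cis_im (t : ℝ) : (cis t).im = Real.sin t := by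
  rw [cis, Complex.exp_ofReal_mul_I_im]

/-- two rods in opposite directions between sets of diameter `≤ 1` are the same rod -/
theorem rod_swap {X Y : Set ℂ} (hX : ∀ x ∈ X, ∀ x' ∈ X, dist x x' ≤ 1)
    (hY : ∀ y ∈ Y, ∀ y' ∈ Y, dist y y' ≤ 1) {x x' : ℂ} {c : ℝ} (hx : x ∈ X) (hx' : x' ∈ X)
    (hy : x + cis c ∈ Y) (hy' : x' - cis c ∈ Y) : x' = x + cis c := by
  have h1 := hX x' hx' x hx
  have h2 := hY _ hy _ hy'
  rw [dist_eq_norm] at h1 h2
  have h3 : ‖cis c‖ = 1 := norm_cis c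
  have h4 : (x + cis c) - (x' - cis c) = 2 * cis c - (x' - x) := by ring
  rw [h4] at h2
  have key : ‖(x' - x) - cis c‖ ^ 2 ≤ 0 := by
    have a1 : ‖x' - x‖ ^ 2 ≤ 1 := by nlinarith [norm_nonneg (x' - x)]
    have a2 : ‖2 * cis c - (x' - x)‖ ^ 2 ≤ 1 := by nlinarith [norm_nonneg (2 * cis c - (x' - x))]
    have a3 : ‖cis c‖ ^ 2 = 1 := by rw [h3]; norm_num
    rw [← Complex.normSq_eq_norm_sq, Complex.normSq_apply] at a1 a2 a3 ⊢
    simp only [Complex.sub_re, Complex.sub_im, Complex.mul_re, Complex.mul_im, Complex.re_ofNat,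
      Complex.im_ofNat] at a1 a2 a3 ⊢
    nlinarith
  have key2 : ‖(x' - x) - cis c‖ = 0 := by
    have := norm_nonneg ((x' - x) - cis c)
    nlinarith
  have key3 := norm_eq_zero.1 key2
  linear_combination key3

/-- discrete intermediate values -/
theorem exists_mem_uIcc (ψ : ℕ → ℝ) {i j : ℕ} {c : ℝ} (hi : ψ i ≤ c) (hj : c ≤ ψ j) :
    ∃ k, c ∈ uIcc (ψ k) (ψ (k + 1)) := by
  by_contra hcon
  push Not at hcon
  have hc : ∀ k, ¬ (ψ k ≤ c ∧ c ≤ ψ (k + 1)) ∧ ¬ (ψ (k + 1) ≤ c ∧ c ≤ ψ k) := by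
    intro k
    have := hcon k
    rw [mem_uIcc] at this
    tauto
  have hlt : ∀ n, (ψ n < c ↔ ψ 0 < c) ∧ ψ n ≠ c ∨ (ψ 0 = c) := by
    intro n
    induction n with
    | zero =>
      by_cases h0 : ψ 0 = c
      · exact Or.inr h0
      · exact Or.inl ⟨Iff.rfl, h0⟩
    | succ n ih =>
      rcases ih with ⟨h1, h2⟩ | h0
      · left
        obtain ⟨h3, h4⟩ := hc n
        rcases lt_or_gt_of_ne h2 with h5 | h5
        · have h6 : ψ (n + 1) < c := by
            by_contra h7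
            exact h3 ⟨h5.le, not_lt.1 h7⟩
          exact ⟨⟨fun _ => h1.1 h5, fun _ => h6⟩, h6.ne⟩
        · have h6 : c < ψ (n + 1) := by
            by_contra h7
            exact h4 ⟨not_lt.1 h7, h5.le⟩
          exact ⟨⟨fun h8 => absurd h8 (not_lt.2 h6.le), fun h8 => absurd (h1.2 h8) (not_lt.2 h5.le)⟩,
            h6.ne'⟩
      · exact Or.inr h0
  rcases hlt i with ⟨h1, h2⟩ | h0
  · rcases hlt j with ⟨h3, h4⟩ | h0
    · have h5 : ψ i < c := lt_of_le_of_ne hi h2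
      have h6 : ψ j < c := h3.2 (h1.1 h5)
      exact absurd h6 (not_lt.2 hj)
    · obtain ⟨h5, h6⟩ := hc 0
      rcases le_total c (ψ 1) with h7 | h7
      · exact h5 ⟨h0.le, h7⟩
      · exact h6 ⟨h7, h0.ge⟩
  · obtain ⟨h5, h6⟩ := hc 0
    rcases le_total c (ψ 1) with h7 | h7
    · exact h5 ⟨h0.le, h7⟩
    · exact h6 ⟨h7, h0.ge⟩

/-- **Rods.**  A switching chain does not exist. -/
theorem rods (V : ℕ → ℂ) (ψ : ℕ → ℝ) (X Y : Set ℂ)
    (hX : ∀ x ∈ X, ∀ x' ∈ X, dist x x' ≤ 1) (hY : ∀ y ∈ Y, ∀ y' ∈ Y, dist y y' ≤ 1)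
    (hVX : ∀ k, V (2 * k) ∈ X) (hVY : ∀ k, V (2 * k + 1) ∈ Y)
    (hVX' : ∀ k, V (2 * k) ∉ Y) (hVY' : ∀ k, V (2 * k + 1) ∉ X)
    (hr0 : ∀ k, V (2 * k + 1) = V (2 * k) + cis (ψ (2 * k)))
    (hr1 : ∀ k, V (2 * k + 1) = V (2 * k + 2) + cis (ψ (2 * k + 1)))
    (h1 : ∀ k, ψ (2 * k) < ψ (2 * k + 1)) (h2 : ∀ k, ψ (2 * k + 2) < ψ (2 * k + 1))
    (hA1 : ∀ k, ∀ t ∈ Icc (ψ (2 * k)) (ψ (2 * k + 1)), V (2 * k + 1) - cis t ∈ X)
    (hA2 : ∀ k, ∀ t ∈ Icc (ψ (2 * k + 2)) (ψ (2 * k + 1)), V (2 * k + 2) + cis t ∈ Y)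
    (hfin : (Set.range V).Finite) : False := by
  -- every direction between two consecutive rods is the direction of a rod
  have rod : ∀ c i j, ψ i ≤ c → c ≤ ψ j →
      ∃ x ∈ X, x + cis c ∈ Y ∧ (x ∉ Y ∨ x + cis c ∉ X) := by
    intro c i j hi hj
    obtain ⟨k, hk⟩ := exists_mem_uIcc ψ hi hj
    rcases Nat.even_or_odd' k with ⟨m, rfl | rfl⟩
    · rw [uIcc_of_le (h1 m).le] at hk
      refine ⟨V (2 * m + 1) - cis c, hA1 m c hk, ?_, Or.inr ?_⟩
      · rw [sub_add_cancel]; exact hVY m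
      · rw [sub_add_cancel]; exact hVY' m
    · rw [show 2 * m + 1 + 1 = 2 * m + 2 by ring, uIcc_of_ge (h2 m).le] at hk
      refine ⟨V (2 * m + 2), ?_, hA2 m c hk, Or.inl ?_⟩
      · exact hVX (m + 1)
      · exact hVX' (m + 1)
  by_cases hbig : ∃ i j, ψ i + Real.pi ≤ ψ j
  · obtain ⟨i, j, hij⟩ := hbig
    have hpi := Real.pi_pos
    obtain ⟨x, hx, hy, hne⟩ := rod (ψ i) i j le_rfl (by linarith)
    obtain ⟨x', hx', hy', -⟩ := rod (ψ i + Real.pi) i j (by linarith) hij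
    rw [cis_add_pi, ← sub_eq_add_neg] at hy'
    have h3 := rod_swap hX hY hx hx' hy hy'
    rcases hne with h4 | h4
    · apply h4
      rwa [h3, add_sub_cancel_right] at hy'
    · exact h4 (h3 ▸ hx')
  · push Not at hbig
    -- all directions in a closed half circle
    have hbA : BddAbove (Set.range ψ) :=
      ⟨ψ 0 + Real.pi, by rintro _ ⟨j, rfl⟩; exact (hbig 0 j).le⟩
    obtain ⟨M, hM⟩ : ∃ M, M = ⨆ j, ψ j := ⟨_, rfl⟩
    have hM1 : ∀ j, ψ j ≤ M := fun j => hM ▸ le_ciSup hbA j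
    have hM2 : ∀ i, M ≤ ψ i + Real.pi := fun i => hM ▸ ciSup_le fun j => (hbig i j).le
    -- the linear function that increases
    obtain ⟨w, hw⟩ : ∃ w : ℝ, w = M - Real.pi / 2 := ⟨_, rfl⟩
    have hstep : ∀ k, (V (2 * k)).re * Real.sin w - (V (2 * k)).im * Real.cos w <
        (V (2 * k + 2)).re * Real.sin w - (V (2 * k + 2)).im * Real.cos w := by
      intro k
      have h3 : V (2 * k + 2) = V (2 * k) + cis (ψ (2 * k)) - cis (ψ (2 * k + 1)) := by
        rw [← hr0 k, hr1 k]; ring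
      rw [h3]
      simp only [Complex.add_re, Complex.sub_re, Complex.add_im, Complex.sub_im, cis_re, cis_im]
      have h4 : Real.sin (ψ (2 * k) - w) < Real.sin (ψ (2 * k + 1) - w) := by
        apply Real.sin_lt_sin_of_lt_of_le_pi_div_two
        · have := hM2 (2 * k); rw [hw]; linarith
        · have := hM1 (2 * k + 1); rw [hw]; linarith
        · have := h1 k; linarith
      rw [Real.sin_sub, Real.sin_sub] at h4
      linarith
    have hmono : StrictMono fun k : ℕ =>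
        (V (2 * k)).re * Real.sin w - (V (2 * k)).im * Real.cos w :=
      strictMono_nat_of_lt_succ fun k => hstep k
    have hinj : Function.Injective fun k : ℕ => V (2 * k) := by
      intro a b hab
      apply hmono.injective
      simp only at hab
      simp only [hab]
    have hinf : (Set.range fun k : ℕ => V (2 * k)).Infinite := Set.infinite_range_of_injective hinj
    exact hinf (hfin.subset (by rintro _ ⟨k, rfl⟩; exact ⟨2 * k, rfl⟩))

/-- **Rods**, the other orientation: even vertices turn to the left, odd ones to the right -/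
theorem rods' (V : ℕ → ℂ) (ψ : ℕ → ℝ) (X Y : Set ℂ)
    (hX : ∀ x ∈ X, ∀ x' ∈ X, dist x x' ≤ 1) (hY : ∀ y ∈ Y, ∀ y' ∈ Y, dist y y' ≤ 1)
    (hVX : ∀ k, V (2 * k) ∈ X) (hVY : ∀ k, V (2 * k + 1) ∈ Y)
    (hVX' : ∀ k, V (2 * k) ∉ Y) (hVY' : ∀ k, V (2 * k + 1) ∉ X)
    (hr0 : ∀ k, V (2 * k + 1) = V (2 * k) + cis (ψ (2 * k)))
    (hr1 : ∀ k, V (2 * k + 1) = V (2 * k + 2) + cis (ψ (2 * k + 1)))
    (h1 : ∀ k, ψ (2 * k + 1) < ψ (2 * k)) (h2 : ∀ k, ψ (2 * k + 1) < ψ (2 * k + 2))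
    (hA1 : ∀ k, ∀ t ∈ Icc (ψ (2 * k + 1)) (ψ (2 * k)), V (2 * k + 1) - cis t ∈ X)
    (hA2 : ∀ k, ∀ t ∈ Icc (ψ (2 * k + 1)) (ψ (2 * k + 2)), V (2 * k + 2) + cis t ∈ Y)
    (hfin : (Set.range V).Finite) : False := by
  have e2 : ∀ k, 2 * (k + 1) = 2 * k + 2 := fun k => by ring
  have e3 : ∀ k, 2 * (k + 1) + 1 = 2 * k + 2 + 1 := fun k => by ring
  refine rods (fun k => V (k + 1)) (fun k => ψ (k + 1) + Real.pi) Y X hY hX (fun k => hVY k)
    (fun k => ?_) (fun k => hVY' k) (fun k => ?_) (fun k => ?_) (fun k => ?_) (fun k => ?_)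
    (fun k => ?_) (fun k t ht => ?_) (fun k t ht => ?_)
    (hfin.subset (by rintro _ ⟨k, rfl⟩; exact ⟨k + 1, rfl⟩))
  · have := hVX (k + 1); rwa [e2] at this
  · have := hVX' (k + 1); rwa [e2] at this
  · have := hr1 k
    simp only [cis_add_pi]
    change V (2 * k + 2) = _
    rw [this]; ring
  · have := hr0 (k + 1)
    rw [e2] at this
    simp only [cis_add_pi]
    change V (2 * k + 2) = V (2 * k + 2 + 1) + -cis (ψ (2 * k + 2))
    rw [this]; ring
  · have := h2 k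
    change ψ (2 * k + 1) + Real.pi < ψ (2 * k + 2) + Real.pi
    linarith
  · have := h1 (k + 1)
    rw [e2] at this
    change ψ (2 * k + 2 + 1) + Real.pi < ψ (2 * k + 2) + Real.pi
    linarith
  · change t ∈ Icc (ψ (2 * k + 1) + Real.pi) (ψ (2 * k + 2) + Real.pi) at ht
    have := hA2 k (t - Real.pi) ⟨by linarith [ht.1], by linarith [ht.2]⟩
    rw [cis_sub_pi] at this
    exact this
  · change t ∈ Icc (ψ (2 * k + 2 + 1) + Real.pi) (ψ (2 * k + 2) + Real.pi) at ht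
    have := hA1 (k + 1) (t - Real.pi) (by rw [e2]; exact ⟨by linarith [ht.1], by linarith [ht.2]⟩)
    rw [cis_sub_pi, sub_neg_eq_add, e2] at this
    exact this

end Vale.Agent.P032.H802
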