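import Vale.Agent.P032.H802.Germ

/-!
# P032: SWITCH chains do not exist

`G` is an open set without unit distance.  A chain `V 0, V 1, ...` of unit steps; the arc about
`V (i+1)` goes from `V i` to `V (i+2)` and has angle `α i ≤ π / 3`; the arcs turn alternately.  The
outer germs along the open arcs are in `G`, and the germs at the `V (i+1)` outside the two circles
about `V i`, `V (i+2)` are in `G`.  If the `V i` lie in a set `E` which is finite in bounded sets we
get a contradiction.
-/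

open Set Filter Topology Metric Vale.Agent.P032.Six

noncomputable section

namespace Vale.Agent.P032.H802

theorem cis_add (a b : ℝ) : cis (a + b) = cis a * cis b := by
  rw [cis, cis, cis, Complex.ofReal_add, add_mul, Complex.exp_add]

theorem cis_zero : cis 0 = 1 := by
  rw [cis]; simp

theorem cis_neg_mul (a : ℝ) : cis (-a) * cis a = 1 := by
  rw [← cis_add, neg_add_cancel, cis_zero]

/-- `|1 - cis x - cis y| > 1` for `x, y` of the same sign in `(0, π/3]` -/
theorem fork {x y : ℝ} (hx : 0 < x) (hx' : x ≤ Real.pi / 3) (hy : 0 < y) (hy' : y ≤ Real.pi / 3)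
    {σ : ℝ} (hσ : σ = 1 ∨ σ = -1) : 1 < ‖1 - cis (σ * x) - cis (σ * y)‖ := by
  have hpi := Real.pi_pos
  have key : Real.cos x + Real.cos y < 1 + (Real.cos x * Real.cos y + Real.sin x * Real.sin y) := by
    have h1 : 1 + (Real.cos x * Real.cos y + Real.sin x * Real.sin y) - (Real.cos x + Real.cos y) =
        4 * Real.cos ((x - y) / 2) * Real.sin (x / 2) * Real.sin (y / 2) := by
      have ex : x = 2 * (x / 2) := by ring
      have ey : y = 2 * (y / 2) := by ring
      have hcx : Real.cos x = 2 * Real.cos (x / 2) ^ 2 - 1 := by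
        conv_lhs => rw [ex]
        exact Real.cos_two_mul _
      have hcy : Real.cos y = 2 * Real.cos (y / 2) ^ 2 - 1 := by
        conv_lhs => rw [ey]
        exact Real.cos_two_mul _
      have hsx : Real.sin x = 2 * Real.sin (x / 2) * Real.cos (x / 2) := by
        conv_lhs => rw [ex]
        exact Real.sin_two_mul _
      have hsy : Real.sin y = 2 * Real.sin (y / 2) * Real.cos (y / 2) := by
        conv_lhs => rw [ey]
        exact Real.sin_two_mul _
      have hxy : Real.cos ((x - y) / 2) =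
          Real.cos (x / 2) * Real.cos (y / 2) + Real.sin (x / 2) * Real.sin (y / 2) := by
        rw [show (x - y) / 2 = x / 2 - y / 2 by ring, Real.cos_sub]
      rw [hcx, hcy, hsx, hsy, hxy]
      have p1 := Real.sin_sq_add_cos_sq (x / 2)
      have p2 := Real.sin_sq_add_cos_sq (y / 2)
      have p1' : Real.sin (x / 2) ^ 2 = 1 - Real.cos (x / 2) ^ 2 := by linarith
      have p2' : Real.sin (y / 2) ^ 2 = 1 - Real.cos (y / 2) ^ 2 := by linarith
      have e1 : 4 * (Real.cos (x / 2) * Real.cos (y / 2) + Real.sin (x / 2) * Real.sin (y / 2)) *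
          Real.sin (x / 2) * Real.sin (y / 2) =
          4 * Real.cos (x / 2) * Real.cos (y / 2) * Real.sin (x / 2) * Real.sin (y / 2) +
          4 * Real.sin (x / 2) ^ 2 * Real.sin (y / 2) ^ 2 := by ring
      rw [e1, p1', p2']
      ring
    have h2 : 0 < Real.cos ((x - y) / 2) :=
      Real.cos_pos_of_mem_Ioo ⟨by linarith, by linarith⟩
    have h3 : 0 < Real.sin (x / 2) := Real.sin_pos_of_pos_of_lt_pi (by linarith) (by linarith)
    have h4 : 0 < Real.sin (y / 2) := Real.sin_pos_of_pos_of_lt_pi (by linarith) (by linarith)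
    have h5 : 0 < 4 * Real.cos ((x - y) / 2) * Real.sin (x / 2) * Real.sin (y / 2) := by positivity
    linarith
  have hsq : ‖1 - cis (σ * x) - cis (σ * y)‖ ^ 2 =
      3 - 2 * Real.cos x - 2 * Real.cos y + 2 * (Real.cos x * Real.cos y + Real.sin x * Real.sin y) := by
    rw [norm_sq_eq_dot, dot]
    simp only [Complex.sub_re, Complex.sub_im, Complex.one_re, Complex.one_im, cis_re, cis_im]
    have p1 := Real.sin_sq_add_cos_sq x
    have p2 := Real.sin_sq_add_cos_sq y
    rcases hσ with rfl | rfl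
    · rw [one_mul, one_mul]; linear_combination p1 + p2
    · rw [neg_one_mul, neg_one_mul, Real.cos_neg, Real.cos_neg, Real.sin_neg, Real.sin_neg]
      linear_combination p1 + p2
  by_contra hcon
  push Not at hcon
  nlinarith [norm_nonneg (1 - cis (σ * x) - cis (σ * y))]

/-- the turning signs -/
def sg (s : ℝ) (i : ℕ) : ℝ := s * (-1) ^ i

theorem sg_succ (s : ℝ) (i : ℕ) : sg s (i + 1) = -sg s i := by
  rw [sg, sg, pow_succ]; ring

theorem sg_cases {s : ℝ} (hs : s = 1 ∨ s = -1) (i : ℕ) : sg s i = 1 ∨ sg s i = -1 := by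
  rw [sg]
  rcases hs with rfl | rfl <;> rcases neg_one_pow_eq_or ℝ i with h | h <;> rw [h] <;> norm_num

theorem sg_mul_self {s : ℝ} (hs : s = 1 ∨ s = -1) (i : ℕ) : sg s i * sg s i = 1 := by
  rcases sg_cases hs i with h | h <;> rw [h] <;> norm_num

/-- a component at a corner lives along a curve of the corner -/
theorem link_germ {K : Set ℂ} {c p q : ℂ} (hK : K ∈ 𝓝[out p ∩ out q] c) {f : ℝ → ℂ}
    (hf : Tendsto f (𝓝[>] 0) (𝓝 c)) (hfp : ∀ᶠ t in 𝓝[>] (0 : ℝ), f t ∈ out p) :
    ∀ᶠ t in 𝓝[>] (0 : ℝ), K ∈ 𝓝[out q] (f t) := by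
  rw [mem_nhdsWithin_iff_eventually] at hK
  filter_upwards [hf.eventually (eventually_eventually_nhds.2 hK), hfp] with t h1 h2
  rw [mem_nhdsWithin_iff_eventually]
  filter_upwards [h1, (isOpen_out p).mem_nhds h2] with w h3 h4 h5
  exact h3 ⟨h4, h5⟩

/-- **SWITCH chains do not exist.** -/
theorem switch {G : Set ℂ} (hfree : ∀ x ∈ G, ∀ y ∈ closure G, dist x y ≠ 1)
    {E : Set ℂ} (hE : ∀ r, (E ∩ closedBall 0 r).Finite) (V : ℕ → ℂ) (hVE : ∀ i, V i ∈ E)
    (h01 : dist (V 0) (V 1) = 1)
    (α : ℕ → ℝ) (hα : ∀ i, 0 < α i ∧ α i ≤ Real.pi / 3) {s : ℝ} (hs : s = 1 ∨ s = -1)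
    (turn : ∀ i, V (i + 2) - V (i + 1) = cis (s * (-1) ^ i * α i) * (V i - V (i + 1)))
    (arc : ∀ i, ∀ t ∈ Ioo 0 (α i),
      ∀ᶠ w in 𝓝 (V (i + 1) + cis (s * (-1) ^ i * t) * (V i - V (i + 1))),
        1 < dist w (V (i + 1)) → w ∈ G)
    (sec : ∀ i, ∀ᶠ w in 𝓝 (V (i + 1)), 1 < dist w (V i) → 1 < dist w (V (i + 2)) → w ∈ G) :
    False := by
  have turn' : ∀ i, V (i + 2) - V (i + 1) = cis (sg s i * α i) * (V i - V (i + 1)) := turn
  have arc' : ∀ i, ∀ t ∈ Ioo 0 (α i),
      ∀ᶠ w in 𝓝 (V (i + 1) + cis (sg s i * t) * (V i - V (i + 1))),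
        1 < dist w (V (i + 1)) → w ∈ G := arc
  clear turn arc
  -- unit steps
  have hstep : ∀ i, ‖V i - V (i + 1)‖ = 1 := by
    intro i
    induction i with
    | zero => rw [← dist_eq_norm]; exact h01
    | succ i ih =>
      have h1 := turn' i
      change ‖V (i + 1) - V (i + 2)‖ = 1
      rw [norm_sub_rev, h1, norm_cis_mul ih]
  have hd1 : ∀ i, dist (V (i + 1)) (V i) = 1 := by
    intro i; rw [dist_comm, dist_eq_norm]; exact hstep i
  have hd2 : ∀ i, dist (V (i + 1)) (V (i + 2)) = 1 := by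
    intro i; rw [dist_eq_norm]; exact hstep (i + 1)
  have hpi := Real.pi_pos
  have hne : ∀ i, V i + V (i + 2) ≠ 2 * V (i + 1) := by
    intro i h0
    have h1 := turn' i
    have h2 : V (i + 2) - V (i + 1) = -(V i - V (i + 1)) := by linear_combination h0
    have h3 : (cis (sg s i * α i) + 1) * (V i - V (i + 1)) = 0 := by
      linear_combination h2 - h1
    rcases mul_eq_zero.1 h3 with h4 | h4
    · have h5 := congrArg Complex.re h4
      rw [Complex.add_re, cis_re, Complex.one_re, Complex.zero_re] at h5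
      have h6 : 0 < Real.cos (α i) :=
        Real.cos_pos_of_mem_Ioo ⟨by linarith [(hα i).1], by linarith [(hα i).2]⟩
      rcases sg_cases hs i with h7 | h7
      · rw [h7, one_mul] at h5; linarith
      · rw [h7, neg_one_mul, Real.cos_neg] at h5; linarith
    · have h5 := hstep i
      rw [h4, norm_zero] at h5
      exact zero_ne_one h5
  -- the components
  choose A hA hAl using fun i => collar_cmp (hstep i) (sg_mul_self hs i) (hα i).1 (arc' i)
  choose C hC hCl using fun i => corner_cmp (hd1 i) (hd2 i) (hne i) (sec i)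
  have nbA : ∀ i (t : ℝ), (𝓝[out (V (i + 1))] (V (i + 1) + cis t * (V i - V (i + 1)))).NeBot :=
    fun i t => neBot_out (hstep i) t
  have nbC : ∀ i, (𝓝[out (V i) ∩ out (V (i + 2))] (V (i + 1))).NeBot :=
    fun i => neBot_corner (hd1 i) (hd2 i) (hne i)
  -- links
  have link1 : ∀ i, A (i + 1) = C i := by
    intro i
    have hc : Continuous fun t : ℝ =>
        V (i + 2) + cis (sg s (i + 1) * t) * (V (i + 1) - V (i + 2)) := by
      have := continuous_cis
      fun_prop
    have h1 : Tendsto (fun t : ℝ => V (i + 2) + cis (sg s (i + 1) * t) * (V (i + 1) - V (i + 2)))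
        (𝓝[>] 0) (𝓝 (V (i + 1))) := by
      have h2 := (hc.tendsto 0).mono_left (nhdsWithin_le_nhds (s := Ioi (0 : ℝ)))
      have h3 : V (i + 2) + cis (sg s (i + 1) * 0) * (V (i + 1) - V (i + 2)) = V (i + 1) := by
        rw [mul_zero, cis_zero]; ring
      rwa [h3] at h2
    have h2 : ∀ᶠ t in 𝓝[>] (0 : ℝ),
        V (i + 2) + cis (sg s (i + 1) * t) * (V (i + 1) - V (i + 2)) ∈ out (V i) := by
      filter_upwards [Ioo_mem_nhdsGT (show (0 : ℝ) < Real.pi / 3 by linarith)] with t ht
      have h3 : cis (sg s (i + 1) * α i) * (V (i + 2) - V (i + 1)) = V i - V (i + 1) := by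
        rw [turn' i, sg_succ, ← mul_assoc, neg_mul, cis_neg_mul, one_mul]
      have h4 : V (i + 2) + cis (sg s (i + 1) * t) * (V (i + 1) - V (i + 2)) - V i =
          (1 - cis (sg s (i + 1) * t) - cis (sg s (i + 1) * α i)) * (V (i + 2) - V (i + 1)) := by
        linear_combination h3
      rw [mem_out, dist_eq_norm, h4, norm_mul, norm_sub_rev (V (i + 2)), hstep (i + 1), mul_one]
      exact fork ht.1 ht.2.le (hα i).1 (hα i).2 (sg_cases hs (i + 1))
    obtain ⟨t, ht1, ht2⟩ := ((link_germ (hCl i) h1 h2).and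
      (Ioo_mem_nhdsGT (hα (i + 1)).1 : ∀ᶠ t in 𝓝[>] (0 : ℝ), t ∈ Ioo 0 (α (i + 1)))).exists
    have := nbA (i + 1) (sg s (i + 1) * t)
    exact (hA (i + 1)).eq_of_germ (hC i) (hAl (i + 1) t ht2) ht1
  have link2 : ∀ i, A i = C (i + 1) := by
    intro i
    have hc : Continuous fun t : ℝ =>
        V (i + 1) + cis (sg s i * (α i - t)) * (V i - V (i + 1)) := by
      have := continuous_cis
      fun_prop
    have h1 : Tendsto (fun t : ℝ => V (i + 1) + cis (sg s i * (α i - t)) * (V i - V (i + 1)))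
        (𝓝[>] 0) (𝓝 (V (i + 2))) := by
      have h2 := (hc.tendsto 0).mono_left (nhdsWithin_le_nhds (s := Ioi (0 : ℝ)))
      have h3 : V (i + 1) + cis (sg s i * (α i - 0)) * (V i - V (i + 1)) = V (i + 2) := by
        rw [sub_zero, ← turn' i]; ring
      rwa [h3] at h2
    have h2 : ∀ᶠ t in 𝓝[>] (0 : ℝ),
        V (i + 1) + cis (sg s i * (α i - t)) * (V i - V (i + 1)) ∈ out (V (i + 3)) := by
      filter_upwards [Ioo_mem_nhdsGT (show (0 : ℝ) < Real.pi / 3 by linarith)] with t ht
      have h3 : cis (sg s i * (α i - t)) * (V i - V (i + 1)) =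
          cis (sg s (i + 1) * t) * (V (i + 2) - V (i + 1)) := by
        rw [turn' i, sg_succ, ← mul_assoc, ← cis_add]
        congr 2
        ring
      have h5 : V (i + 3) - V (i + 2) = cis (sg s (i + 1) * α (i + 1)) * (V (i + 1) - V (i + 2)) :=
        turn' (i + 1)
      have h4 : V (i + 1) + cis (sg s i * (α i - t)) * (V i - V (i + 1)) - V (i + 3) =
          -((1 - cis (sg s (i + 1) * t) - cis (sg s (i + 1) * α (i + 1))) *
            (V (i + 2) - V (i + 1))) := by
        linear_combination h3 - h5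
      rw [mem_out, dist_eq_norm, h4, norm_neg, norm_mul, norm_sub_rev (V (i + 2)), hstep (i + 1),
        mul_one]
      exact fork ht.1 ht.2.le (hα (i + 1)).1 (hα (i + 1)).2 (sg_cases hs (i + 1))
    have hCl' : C (i + 1) ∈ 𝓝[out (V (i + 3)) ∩ out (V (i + 1))] (V (i + 2)) := by
      rw [inter_comm]; exact hCl (i + 1)
    obtain ⟨t, ht1, ht2⟩ := ((link_germ hCl' h1 h2).and
      (Ioo_mem_nhdsGT (hα i).1 : ∀ᶠ t in 𝓝[>] (0 : ℝ), t ∈ Ioo 0 (α i))).exists
    have := nbA i (sg s i * (α i - t))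
    exact (hA i).eq_of_germ (hC (i + 1)) (hAl i (α i - t) ⟨by linarith [ht2.2], by linarith [ht2.1]⟩)
      ht1
  have per : ∀ i, A (i + 2) = A i := fun i => (link1 (i + 1)).trans (link2 i).symm
  have perE : ∀ k, A (2 * k + 2) = A 0 := by
    intro k
    induction k with
    | zero => exact per 0
    | succ k ih => exact (per (2 * k + 2)).trans ih
  have perO : ∀ k, A (2 * k + 3) = A 1 := by
    intro k
    induction k with
    | zero => exact per 1
    | succ k ih => exact (per (2 * k + 3)).trans ih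
  -- the vertices
  have hVc : ∀ i, V (i + 1) ∈ closure (A (i + 1)) := by
    intro i
    rw [link1 i]
    have := nbC i
    rw [mem_closure_iff_nhdsWithin_neBot]
    exact this.mono (le_inf inf_le_left (le_principal_iff.2 (hCl i)))
  have hVG : ∀ i, V (i + 1) ∈ closure G := fun i => closure_mono (hA (i + 1)).sub (hVc i)
  have hVn : ∀ i, V (i + 1) ∉ closure (A i) := by
    intro i
    have hmid : α i / 2 ∈ Ioo 0 (α i) := ⟨by linarith [(hα i).1], by linarith [(hα i).1]⟩
    have := nbA i (sg s i * (α i / 2))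
    obtain ⟨y, hy1, hy2⟩ := (𝓝[out (V (i + 1))]
      (V (i + 1) + cis (sg s i * (α i / 2)) * (V i - V (i + 1)))).nonempty_of_mem
        (inter_mem (hAl i _ hmid) self_mem_nhdsWithin)
    exact notMem_closure_of_sub_out (sub_out (hA i).preconnected
      (fun x hx => hfree x ((hA i).sub hx) _ (hVG i)) hy1 hy2)
  -- the closed arcs
  have hcl : ∀ i, ∀ t ∈ Icc 0 (α i),
      V (i + 1) + cis (sg s i * t) * (V i - V (i + 1)) ∈ closure (A i) := by
    intro i
    have hc : Continuous fun t : ℝ => V (i + 1) + cis (sg s i * t) * (V i - V (i + 1)) := by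
      have := continuous_cis
      fun_prop
    have h1 : closure (Ioo 0 (α i)) ⊆
        (fun t : ℝ => V (i + 1) + cis (sg s i * t) * (V i - V (i + 1))) ⁻¹' closure (A i) := by
      refine closure_minimal (fun t ht => ?_) (isClosed_closure.preimage hc)
      have := nbA i (sg s i * t)
      change _ ∈ closure (A i)
      rw [mem_closure_iff_nhdsWithin_neBot]
      exact this.mono (le_inf inf_le_left (le_principal_iff.2 (hAl i t ht)))
    rw [closure_Ioo (hα i).1.ne] at h1
    exact fun t ht => h1 ht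
  -- diameters
  have hdiam : ∀ i, ∀ x ∈ closure (A i), ∀ y ∈ closure (A i), dist x y ≤ 1 := fun i =>
    dist_le_of_free (hA i).preconnected fun x hx y hy =>
      hfree x ((hA i).sub hx) y (subset_closure ((hA i).sub hy))
  -- directions
  obtain ⟨θ, hθ⟩ := exists_cis (u := V 1 - V 0) (by rw [norm_sub_rev]; exact hstep 0)
  obtain ⟨ψ, hψ⟩ : ∃ ψ : ℕ → ℝ, ψ = fun i => θ + ∑ j ∈ Finset.range i, sg s j * α j := ⟨_, rfl⟩
  have hψ0 : ψ 0 = θ := by rw [hψ]; simp
  have hψs : ∀ i, ψ (i + 1) = ψ i + sg s i * α i := by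
    intro i; rw [hψ]; simp only [Finset.sum_range_succ]; ring
  have hrod : ∀ i, V (i + 1) - V i = (-1) ^ i * cis (ψ i) := by
    intro i
    induction i with
    | zero => rw [hψ0, hθ]; ring
    | succ i ih =>
      change V (i + 2) - V (i + 1) = _
      have h1 : V i - V (i + 1) = -((-1) ^ i * cis (ψ i)) := by rw [← ih]; ring
      rw [turn' i, h1, hψs, cis_add, pow_succ]; ring
  have harc : ∀ i, ∀ x ∈ uIcc (ψ i) (ψ (i + 1)),
      V (i + 1) - (-1) ^ i * cis x ∈ closure (A i) := by
    intro i x hx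
    have h1 : sg s i * (x - ψ i) ∈ Icc 0 (α i) := by
      rw [hψs] at hx
      rcases sg_cases hs i with h | h
      · rw [h, one_mul, uIcc_of_le (by linarith [(hα i).1])] at hx
        rw [h, one_mul]; exact ⟨by linarith [hx.1], by linarith [hx.2]⟩
      · rw [h, neg_one_mul, uIcc_of_ge (by linarith [(hα i).1])] at hx
        rw [h, neg_one_mul]; exact ⟨by linarith [hx.2], by linarith [hx.1]⟩
    have h2 := hcl i _ h1
    have h3 : sg s i * (sg s i * (x - ψ i)) = x - ψ i := by
      rw [← mul_assoc, sg_mul_self hs, one_mul]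
    have h4 : V i - V (i + 1) = -((-1) ^ i * cis (ψ i)) := by rw [← hrod i]; ring
    have h5 : V (i + 1) - (-1) ^ i * cis x =
        V (i + 1) + cis (sg s i * (sg s i * (x - ψ i))) * (V i - V (i + 1)) := by
      have h6 : cis x = cis (x - ψ i) * cis (ψ i) := by rw [← cis_add, sub_add_cancel]
      rw [h3, h4, h6]; ring
    rw [h5]; exact h2
  -- finitely many vertices
  have hfin : (Set.range fun k => V (k + 2)).Finite := by
    refine (hE (dist (V 2) 0 + 3)).subset ?_
    rintro _ ⟨k, rfl⟩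
    refine ⟨hVE _, ?_⟩
    have hev : ∀ m, dist (V (2 * m + 2)) (V 2) ≤ 1 := by
      intro m
      refine hdiam 0 _ ?_ _ ?_
      · have := hVc (2 * m + 1)
        rwa [show 2 * m + 1 + 1 = 2 * m + 2 by ring, perE] at this
      · have := hVc 1
        rwa [show 1 + 1 = 2 * 0 + 2 by ring, perE] at this
    rw [mem_closedBall]
    rcases Nat.even_or_odd' k with ⟨m, rfl | rfl⟩
    · have h1 := hev m
      have h2 := dist_triangle (V (2 * m + 2)) (V 2) 0
      linarith
    · have h1 := hev m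
      have h2 := dist_triangle (V (2 * m + 2)) (V 2) 0
      have h3 := hd1 (2 * m + 2)
      have h4 := dist_triangle (V (2 * m + 2 + 1)) (V (2 * m + 2)) 0
      have h5 : 2 * m + 1 + 2 = 2 * m + 2 + 1 := by ring
      simp only [h5]
      linarith
  have e1 : ∀ k, 2 * k + 1 + 2 = 2 * k + 3 := fun k => by ring
  have e2 : ∀ k, 2 * k + 2 + 2 = 2 * k + 4 := fun k => by ring
  have pE : ∀ k : ℕ, (-1 : ℂ) ^ (2 * k) = 1 := fun k => by
    rw [pow_mul]; norm_num
  have HVX : ∀ k, V (2 * k + 2) ∈ closure (A 0) := by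
    intro k
    have := hVc (2 * k + 1)
    rwa [show 2 * k + 1 + 1 = 2 * k + 2 by ring, perE] at this
  have HVY : ∀ k, V (2 * k + 3) ∈ closure (A 1) := by
    intro k
    have := hVc (2 * k + 2)
    rwa [show 2 * k + 2 + 1 = 2 * k + 3 by ring, perO] at this
  have HVX' : ∀ k, V (2 * k + 2) ∉ closure (A 1) := by
    intro k
    have := hVn (2 * k + 1)
    rw [show 2 * k + 1 + 1 = 2 * k + 2 by ring] at this
    cases k with
    | zero => exact this
    | succ k => rwa [show 2 * (k + 1) + 1 = 2 * k + 3 by ring, perO] at this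
  have HVY' : ∀ k, V (2 * k + 3) ∉ closure (A 0) := by
    intro k
    have := hVn (2 * k + 2)
    rwa [show 2 * k + 2 + 1 = 2 * k + 3 by ring, perE] at this
  have Hr0 : ∀ k, V (2 * k + 3) = V (2 * k + 2) + cis (ψ (2 * k + 2)) := by
    intro k
    have := hrod (2 * k + 2)
    rw [show 2 * k + 2 + 1 = 2 * k + 3 by ring, show 2 * k + 2 = 2 * (k + 1) by ring, pE] at this
    rw [show 2 * k + 2 = 2 * (k + 1) by ring]
    linear_combination this
  have Hr1 : ∀ k, V (2 * k + 3) = V (2 * k + 4) + cis (ψ (2 * k + 3)) := by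
    intro k
    have := hrod (2 * k + 3)
    rw [show 2 * k + 3 + 1 = 2 * k + 4 by ring, show (-1 : ℂ) ^ (2 * k + 3) = -1 by
      rw [show 2 * k + 3 = 2 * (k + 1) + 1 by ring, pow_succ, pE]; ring] at this
    linear_combination -this
  have HA1 : ∀ k, ∀ t ∈ uIcc (ψ (2 * k + 2)) (ψ (2 * k + 3)),
      V (2 * k + 3) - cis t ∈ closure (A 0) := by
    intro k t ht
    have := harc (2 * k + 2) t ht
    rw [perE, show (-1 : ℂ) ^ (2 * k + 2) = 1 by
      rw [show 2 * k + 2 = 2 * (k + 1) by ring, pE], one_mul] at this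
    exact this
  have HA2 : ∀ k, ∀ t ∈ uIcc (ψ (2 * k + 3)) (ψ (2 * k + 4)),
      V (2 * k + 4) + cis t ∈ closure (A 1) := by
    intro k t ht
    have := harc (2 * k + 3) t ht
    rw [perO, show (-1 : ℂ) ^ (2 * k + 3) = -1 by
      rw [show 2 * k + 3 = 2 * (k + 1) + 1 by ring, pow_succ, pE]; ring, neg_one_mul,
      sub_neg_eq_add] at this
    exact this
  have sgE : ∀ k, sg s (2 * k + 2) = s := by
    intro k
    rw [sg, show 2 * k + 2 = 2 * (k + 1) by ring, pow_mul]; norm_num
  have sgO : ∀ k, sg s (2 * k + 3) = -s := by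
    intro k
    rw [show 2 * k + 3 = 2 * k + 2 + 1 by ring, sg_succ, sgE]
  have ψE : ∀ k, ψ (2 * k + 3) = ψ (2 * k + 2) + s * α (2 * k + 2) := by
    intro k
    have := hψs (2 * k + 2)
    rwa [sgE] at this
  have ψO : ∀ k, ψ (2 * k + 4) = ψ (2 * k + 3) - s * α (2 * k + 3) := by
    intro k
    have := hψs (2 * k + 3)
    rw [sgO] at this
    rw [show 2 * k + 4 = 2 * k + 3 + 1 by ring, this]; ring
  rcases hs with rfl | rfl
  · refine rods (fun k => V (k + 2)) (fun k => ψ (k + 2)) (closure (A 0)) (closure (A 1))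
      (hdiam 0) (hdiam 1) HVX HVY HVX' HVY' Hr0 Hr1 (fun k => ?_) (fun k => ?_)
      (fun k t ht => ?_) (fun k t ht => ?_) hfin
    · change ψ (2 * k + 2) < ψ (2 * k + 3)
      rw [ψE]; linarith [(hα (2 * k + 2)).1]
    · change ψ (2 * k + 4) < ψ (2 * k + 3)
      rw [ψO]; linarith [(hα (2 * k + 3)).1]
    · refine HA1 k t ?_
      rw [uIcc_of_le (by rw [ψE]; linarith [(hα (2 * k + 2)).1])]
      exact ht
    · refine HA2 k t ?_
      rw [uIcc_of_ge (by rw [ψO]; linarith [(hα (2 * k + 3)).1])]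
      exact ht
  · refine rods' (fun k => V (k + 2)) (fun k => ψ (k + 2)) (closure (A 0)) (closure (A 1))
      (hdiam 0) (hdiam 1) HVX HVY HVX' HVY' Hr0 Hr1 (fun k => ?_) (fun k => ?_)
      (fun k t ht => ?_) (fun k t ht => ?_) hfin
    · change ψ (2 * k + 3) < ψ (2 * k + 2)
      rw [ψE]; linarith [(hα (2 * k + 2)).1]
    · change ψ (2 * k + 3) < ψ (2 * k + 4)
      rw [ψO]; linarith [(hα (2 * k + 3)).1]
    · refine HA1 k t ?_
      rw [uIcc_of_ge (by rw [ψE]; linarith [(hα (2 * k + 2)).1])]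
      exact ht
    · refine HA2 k t ?_
      rw [uIcc_of_le (by rw [ψO]; linarith [(hα (2 * k + 3)).1])]
      exact ht

end Vale.Agent.P032.H802
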